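import Vale.Agent.P233.H719.Slab
import Vale.Agent.P233.Bd3.B6

/-!
P233, block D5: the slab estimate in the metric calculus, at Lebesgue points.
-/

open MeasureTheory Filter Topology
open scoped ENNReal NNReal

namespace Vale.Agent.P233.H719

section leb

variable {M : Type*} [MetricSpace M] [MeasurableSpace M] {m : Measure M}

/-- `y` is a Lebesgue point of `f` with value `v`, in the normalization `s^n`. -/
def LebPt (m : Measure M) (n : ℕ) (f : M → ℝ) (y : M) (v : ℝ) : Prop :=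
  Tendsto (fun s : ℝ => (s ^ n)⁻¹ * ∫ z in Metric.closedBall y s, |f z - v| ∂m) (𝓝[>] 0) (𝓝 0)

variable {n : ℕ} {f g : M → ℝ} {y : M} {v w : ℝ}

theorem LebPt.congr (h : LebPt m n f y v) (hfg : f =ᵐ[m] g) : LebPt m n g y v := by
  refine Tendsto.congr (fun s => ?_) h
  congr 1
  apply integral_congr_ae
  filter_upwards [ae_restrict_of_ae hfg] with x hx
  rw [hx]

/-- domination -/
theorem LebPt.of_le {c d : ℝ} (hf : LebPt m n f y v) (hg : LebPt m n g y w) {k : M → ℝ} {u : ℝ}
    (hfin : ∀ r : ℝ, m (Metric.closedBall y r) < ∞)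
    (h : ∀ᵐ x ∂m, |k x - u| ≤ c * |f x - v| + d * |g x - w|)
    (hif : ∀ s, IntegrableOn f (Metric.closedBall y s) m)
    (hig : ∀ s, IntegrableOn g (Metric.closedBall y s) m) :
    LebPt m n k y u := by
  have h1 := (hf.const_mul c).add (hg.const_mul d)
  simp only [mul_zero, add_zero] at h1
  refine tendsto_of_tendsto_of_tendsto_of_le_of_le' tendsto_const_nhds h1 ?_ ?_
  · filter_upwards [self_mem_nhdsWithin] with s hs
    have : (0 : ℝ) < s := hs
    have h2 : 0 ≤ ∫ z in Metric.closedBall y s, |k z - u| ∂m := integral_nonneg fun _ => abs_nonneg _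
    positivity
  · filter_upwards [self_mem_nhdsWithin] with s hs
    have hs0 : (0 : ℝ) < s := hs
    have hm : m (Metric.closedBall y s) < ∞ := hfin s
    have i1 : IntegrableOn (fun x => |f x - v|) (Metric.closedBall y s) m :=
      ((hif s).sub (integrableOn_const (hs := hm.ne))).abs
    have i2 : IntegrableOn (fun x => |g x - w|) (Metric.closedBall y s) m :=
      ((hig s).sub (integrableOn_const (hs := hm.ne))).abs
    have i3 : IntegrableOn (fun x => c * |f x - v| + d * |g x - w|) (Metric.closedBall y s) m :=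
      (i1.const_mul c).add (i2.const_mul d)
    have h3 : ∫ z in Metric.closedBall y s, |k z - u| ∂m ≤
        ∫ z in Metric.closedBall y s, (c * |f z - v| + d * |g z - w|) ∂m := by
      refine integral_mono_of_nonneg (Filter.Eventually.of_forall fun _ => abs_nonneg _) i3 ?_
      exact ae_restrict_of_ae h
    have h4 : ∫ z in Metric.closedBall y s, (c * |f z - v| + d * |g z - w|) ∂m =
        c * ∫ z in Metric.closedBall y s, |f z - v| ∂m
          + d * ∫ z in Metric.closedBall y s, |g z - w| ∂m := by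
      have i4 : IntegrableOn (fun x => c * |f x - v|) (Metric.closedBall y s) m := i1.const_mul c
      have i5 : IntegrableOn (fun x => d * |g x - w|) (Metric.closedBall y s) m := i2.const_mul d
      rw [integral_add i4 i5, integral_const_mul, integral_const_mul]
    rw [h4] at h3
    calc (s ^ n)⁻¹ * ∫ z in Metric.closedBall y s, |k z - u| ∂m
        ≤ (s ^ n)⁻¹ * (c * ∫ z in Metric.closedBall y s, |f z - v| ∂m
          + d * ∫ z in Metric.closedBall y s, |g z - w| ∂m) :=
          mul_le_mul_of_nonneg_left h3 (by positivity)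
      _ = _ := by ring

theorem LebPt.zero : LebPt m n (fun _ => 0) y 0 := by
  unfold LebPt
  simp

theorem LebPt.smul (hf : LebPt m n f y v) (hfin : ∀ r : ℝ, m (Metric.closedBall y r) < ∞)
    (hif : ∀ s, IntegrableOn f (Metric.closedBall y s) m) (c : ℝ) :
    LebPt m n (fun x => c * f x) y (c * v) := by
  refine LebPt.of_le (c := |c|) (d := 0) hf hf hfin (Filter.Eventually.of_forall fun x => ?_) hif hif
  rw [← mul_sub, abs_mul]
  linarith

theorem LebPt.add (hf : LebPt m n f y v) (hg : LebPt m n g y w)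
    (hfin : ∀ r : ℝ, m (Metric.closedBall y r) < ∞)
    (hif : ∀ s, IntegrableOn f (Metric.closedBall y s) m)
    (hig : ∀ s, IntegrableOn g (Metric.closedBall y s) m) :
    LebPt m n (fun x => f x + g x) y (v + w) := by
  refine LebPt.of_le (c := 1) (d := 1) hf hg hfin (Filter.Eventually.of_forall fun x => ?_) hif hig
  have : f x + g x - (v + w) = (f x - v) + (g x - w) := by ring
  rw [this, one_mul, one_mul]
  exact abs_add_le _ _

theorem LebPt.sum {ι : Type*} {F : Finset ι} {f : ι → M → ℝ} {v : ι → ℝ}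
    (h : ∀ i ∈ F, LebPt m n (f i) y (v i)) (hfin : ∀ r : ℝ, m (Metric.closedBall y r) < ∞)
    (hi : ∀ i ∈ F, ∀ s, IntegrableOn (f i) (Metric.closedBall y s) m) :
    LebPt m n (fun x => ∑ i ∈ F, f i x) y (∑ i ∈ F, v i) := by
  classical
  induction F using Finset.induction_on with
  | empty => simpa using LebPt.zero
  | insert a F ha ih =>
    have h1 := ih (fun i hi' => h i (Finset.mem_insert_of_mem hi'))
      (fun i hi' => hi i (Finset.mem_insert_of_mem hi'))
    have h2 := h a (Finset.mem_insert_self a F)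
    have h3 : ∀ s, IntegrableOn (fun x => ∑ i ∈ F, f i x) (Metric.closedBall y s) m := by
      intro s
      exact integrable_finsetSum _ fun i hi' => hi i (Finset.mem_insert_of_mem hi') s
    have h4 := LebPt.add h2 h1 hfin (hi a (Finset.mem_insert_self a F)) h3
    simpa [Finset.sum_insert ha] using h4

/-- the averages in the normalization `s^n` -/
theorem ae_lebPt [SecondCountableTopology M] [BorelSpace M] [IsLocallyFiniteMeasure m]
    [IsUnifLocDoublingMeasure m] (hfin : ∀ (y : M) (r : ℝ), m (Metric.closedBall y r) < ∞)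
    (hup : ∀ᵐ y ∂m, ∃ C : ℝ, ∀ᶠ s in 𝓝[>] (0 : ℝ), (m (Metric.closedBall y s)).toReal ≤ C * s ^ n)
    (hf : LocallyIntegrable f m) : ∀ᵐ y ∂m, LebPt m n f y (f y) := by
  filter_upwards [hup, IsUnifLocDoublingMeasure.ae_tendsto_average_norm_sub m hf 1] with y hy h1
  obtain ⟨C, hC⟩ := hy
  have h2 := h1 (l := 𝓝[>] (0 : ℝ)) (fun _ => y) (fun s => s) tendsto_id (by
    filter_upwards [self_mem_nhdsWithin] with s hs
    have : (0 : ℝ) < s := hs
    rw [one_mul]
    exact Metric.mem_closedBall_self this.le)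
  have h3 := h2.const_mul |C|
  rw [mul_zero] at h3
  refine tendsto_of_tendsto_of_tendsto_of_le_of_le' tendsto_const_nhds h3 ?_ ?_
  · filter_upwards [self_mem_nhdsWithin] with s hs
    have : (0 : ℝ) < s := hs
    have h2 : 0 ≤ ∫ z in Metric.closedBall y s, |f z - f y| ∂m :=
      integral_nonneg fun _ => abs_nonneg _
    positivity
  · filter_upwards [self_mem_nhdsWithin, hC] with s hs hCs
    have hs0 : (0 : ℝ) < s := hs
    have hm : m (Metric.closedBall y s) < ∞ := hfin y s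
    have hav : ∫ z in Metric.closedBall y s, |f z - f y| ∂m =
        (m (Metric.closedBall y s)).toReal * ⨍ z in Metric.closedBall y s, ‖f z - f y‖ ∂m := by
      rw [setAverage_eq, smul_eq_mul, ← mul_assoc]
      simp only [Real.norm_eq_abs, Measure.real]
      by_cases h0 : (m (Metric.closedBall y s)).toReal = 0
      · have h00 : m (Metric.closedBall y s) = 0 := by
          rcases (ENNReal.toReal_eq_zero_iff _).1 h0 with h | h
          · exact h
          · exact absurd h hm.ne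
        rw [Measure.restrict_eq_zero.2 h00]; simp
      · rw [mul_inv_cancel₀ h0, one_mul]
    have hav0 : 0 ≤ ⨍ z in Metric.closedBall y s, ‖f z - f y‖ ∂m := by
      rw [setAverage_eq]
      have : 0 ≤ ∫ z in Metric.closedBall y s, ‖f z - f y‖ ∂m := integral_nonneg fun _ => norm_nonneg _
      have h5 : 0 ≤ (m.real (Metric.closedBall y s))⁻¹ := by positivity
      exact smul_nonneg h5 this
    rw [hav]
    have hsn : 0 < s ^ n := by positivity
    calc (s ^ n)⁻¹ * ((m (Metric.closedBall y s)).toReal *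
          ⨍ z in Metric.closedBall y s, ‖f z - f y‖ ∂m)
        ≤ (s ^ n)⁻¹ * ((|C| * s ^ n) * ⨍ z in Metric.closedBall y s, ‖f z - f y‖ ∂m) := by
          refine mul_le_mul_of_nonneg_left (mul_le_mul_of_nonneg_right ?_ hav0) (by positivity)
          exact hCs.trans (mul_le_mul_of_nonneg_right (le_abs_self C) hsn.le)
      _ = |C| * ⨍ z in Metric.closedBall y s, ‖f z - f y‖ ∂m := by
          field_simp

end leb

section gram

/-- the Gram form of a combination -/
theorem Γ_comb_ae {M : Type*} [MeasurableSpace M] {m : Measure M} {C : Calc m} (hC : IsDir C) {ι : Type*} (F : Finset ι) (c : ι → ℝ) {f : ι → M →ₘ[m] ℝ}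
    (hf : ∀ i, f i ∈ C.W) : ∀ᵐ x ∂m, C.Γ (∑ i ∈ F, c i • f i) (∑ i ∈ F, c i • f i) x =
      ∑ i ∈ F, ∑ j ∈ F, c i * c j * C.Γ (f i) (f j) x := by
  have hcf : ∀ i, c i • f i ∈ C.W := fun i => hC.smul_mem _ _ (hf i)
  have h1 : C.Γ (∑ i ∈ F, c i • f i) (∑ i ∈ F, c i • f i)
      = ∑ i ∈ F, ∑ j ∈ F, (c i * c j) • C.Γ (f i) (f j) := by
    rw [hC.Γ_sum_left F hcf (hC.sum_mem F hcf)]
    refine Finset.sum_congr rfl fun i _ => ?_
    rw [hC.Γ_sum_right F hcf (hcf i)]
    refine Finset.sum_congr rfl fun j _ => ?_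
    rw [hC.smul_left _ _ (hf i) _ (hcf j), hC.Γ_smul_right _ (hf i) (hf j), smul_smul]
  rw [h1]
  have h2 := sum_ae F fun i => ∑ j ∈ F, (c i * c j) • C.Γ (f i) (f j)
  have h3 : ∀ i ∈ F, ∀ᵐ x ∂m, (∑ j ∈ F, (c i * c j) • C.Γ (f i) (f j) : M →ₘ[m] ℝ) x =
      ∑ j ∈ F, c i * c j * C.Γ (f i) (f j) x := by
    intro i _
    have h4 := sum_ae F fun j => (c i * c j) • C.Γ (f i) (f j)
    have h5 : ∀ j ∈ F, ∀ᵐ x ∂m, ((c i * c j) • C.Γ (f i) (f j) : M →ₘ[m] ℝ) x =
        c i * c j * C.Γ (f i) (f j) x := fun j _ => smul_ae _ _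
    rw [← Finset.eventually_all] at h5
    filter_upwards [h4, h5] with x h6 h7
    rw [h6]
    exact Finset.sum_congr rfl fun j hj => h7 j hj
  rw [← Finset.eventually_all] at h3
  filter_upwards [h2, h3] with x h6 h7
  rw [h6]
  exact Finset.sum_congr rfl fun j hj => h7 j hj

variable {M : Type*} [MetricSpace M] [MeasurableSpace M] {m : Measure M} {C : Calc m}
variable {n : ℕ} {y : M}

theorem lebPt_comb (hC : IsDir C) {ι : Type*} (F : Finset ι) (c : ι → ℝ) {f : ι → M →ₘ[m] ℝ}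
    (hf : ∀ i, f i ∈ C.W) (hfin : ∀ r : ℝ, m (Metric.closedBall y r) < ∞) {g : ι → ι → ℝ}
    (h : ∀ i ∈ F, ∀ j ∈ F, LebPt m n (C.Γ (f i) (f j)) y (g i j)) :
    LebPt m n (C.Γ (∑ i ∈ F, c i • f i) (∑ i ∈ F, c i • f i)) y
      (∑ i ∈ F, ∑ j ∈ F, c i * c j * g i j) := by
  have hi : ∀ i j, ∀ s, IntegrableOn (fun x => c i * c j * C.Γ (f i) (f j) x)
      (Metric.closedBall y s) m := fun i j s =>
    ((int_of_mem (hC.Γ_mem1 (hf i) (hf j))).const_mul _).integrableOn
  have h1 : LebPt m n (fun x => ∑ i ∈ F, ∑ j ∈ F, c i * c j * C.Γ (f i) (f j) x) y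
      (∑ i ∈ F, ∑ j ∈ F, c i * c j * g i j) := by
    refine LebPt.sum (fun i hi' => ?_) hfin (fun i _ s => ?_)
    · refine LebPt.sum (fun j hj' => ?_) hfin (fun j _ s => hi i j s)
      exact LebPt.smul (h i hi' j hj') hfin
        (fun s => (int_of_mem (hC.Γ_mem1 (hf i) (hf j))).integrableOn) _
    · exact integrable_finsetSum _ fun j _ => hi i j s
  refine h1.congr ?_
  filter_upwards [Γ_comb_ae hC F c hf] with x hx
  rw [hx]

end gram

section metric

variable {M : Type*} [MetricSpace M] [MeasurableSpace M] [BorelSpace M]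
  [SecondCountableTopology M] {m : Measure M}

/-- the slab estimate on a ball -/
theorem slab_ball (hfin : ∀ (x : M) (r : ℝ), m (Metric.ball x r) < ∞) (hC : IsDir (sob m))
    {b l : M →ₘ[m] ℝ} (hb : b ∈ (sob m).A) (hl : (sob m).IsLap b l) {La : ℝ}
    (hLa : ∀ᵐ x ∂m, |l x| ≤ La) {bt : M → ℝ} (hbt : ⇑b =ᵐ[m] bt) (y : M) {s e : ℝ} (hs : 0 < s)
    (he : 0 < e) (a : ℝ) :
    (m {z | dist z y ≤ s ∧ |bt z - a| ≤ e * s}).toReal ≤
      16 * e * (1 + La * s / 4) * (m (Metric.closedBall y (3 / 2 * s))).toReal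
        + (1 + 16 * e) * ∫ x in Metric.closedBall y (3 / 2 * s), |(sob m).Γ b b x - 1| ∂m := by
  obtain ⟨η, hηW, h1, h2, h3, h4⟩ := exists_eta hfin y (R := s / 2) (by positivity)
  have hηA : η ∈ (sob m).A := ⟨hηW, mem_top_iff.2 ⟨1, h1⟩⟩
  have hη2 : η * η ∈ (sob m).A := hC.mul_mem_A hηA hηA
  have hmT : m (Metric.closedBall y (3 / 2 * s)) < ∞ :=
    (measure_mono (Metric.closedBall_subset_ball (lt_add_one _))).trans_lt
      (hfin y (3 / 2 * s + 1))
  have hΓ2 : ∀ᵐ x ∂m, (sob m).Γ (η * η) (η * η) x ≤ ((s / 4)⁻¹) ^ 2 := by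
    have e1 : (sob m).Γ (η * η) (η * η) = (η * η) * ((4 : ℝ) • (sob m).Γ η η) := by
      rw [hC.Γ_mul_left hηA hηA hη2.1, hC.Γ_mul_right hηA hηA hηW]
      have : (4 : ℝ) • (sob m).Γ η η = 4 * (sob m).Γ η η := by
        rw [Algebra.smul_def (R := ℝ) (4 : ℝ) ((sob m).Γ η η), map_ofNat]
      rw [this]; ring
    rw [e1]
    filter_upwards [mul_ae (η * η) ((4 : ℝ) • (sob m).Γ η η), mul_ae η η,
      smul_ae ((sob m).Γ η η) 4, h1, h4, hC.Γ_nonneg_ae hηW] with x k1 k2 k3 k4 k5 k6
    rw [k1, k2, k3]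
    have a1 : η x * η x ≤ 1 := by
      have := abs_mul_abs_self (η x)
      nlinarith [abs_nonneg (η x)]
    have a2 : (sob m).Γ η η x ≤ ((s / 2)⁻¹) ^ 2 := (le_abs_self _).trans k5
    have a3 : ((s / 4)⁻¹) ^ 2 = 4 * ((s / 2)⁻¹) ^ 2 := by field_simp; norm_num
    rw [a3]
    have a4 : 0 ≤ η x * η x := mul_self_nonneg _
    nlinarith
  have key := slab (m := m) (C := sob m) hC hb hl hLa hη2
    (by filter_upwards [mul_ae η η] with x hx; rw [hx]; exact mul_self_nonneg _)
    (by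
      filter_upwards [mul_ae η η, h1] with x hx h
      rw [hx]
      have := abs_mul_abs_self (η x)
      nlinarith [abs_nonneg (η x)])
    (s := s / 4) (by positivity) hΓ2 (S := Metric.closedBall y s)
    (T := Metric.closedBall y (3 / 2 * s)) Metric.isClosed_closedBall.measurableSet
    Metric.isClosed_closedBall.measurableSet (Metric.closedBall_subset_closedBall (by linarith))
    (by
      filter_upwards [mul_ae η η, h2] with x hx h hxs
      rw [hx, h (by rw [Metric.mem_closedBall] at hxs; linarith)]; norm_num)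
    (by
      filter_upwards [mul_ae η η, h3] with x hx h hxs
      rw [hx, h (by rw [Metric.mem_closedBall, not_le] at hxs; linarith)]; norm_num)
    hmT a (e := 4 * e) (by positivity)
  have hset : m {z | dist z y ≤ s ∧ |bt z - a| ≤ e * s} =
      m {x | x ∈ Metric.closedBall y s ∧ |b x - a| ≤ 4 * e * (s / 4)} := by
    apply measure_congr
    filter_upwards [hbt] with x hx
    apply propext
    change (dist x y ≤ s ∧ |bt x - a| ≤ e * s) ↔
      (x ∈ Metric.closedBall y s ∧ |b x - a| ≤ 4 * e * (s / 4))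
    rw [hx, Metric.mem_closedBall, show 4 * e * (s / 4) = e * s by ring]
  rw [hset]
  refine key.trans (le_of_eq ?_)
  ring

/-- THE SLAB ESTIMATE at a Lebesgue point `y` of `|∇b|²` with value `1`. -/
theorem slab_lim (hfin : ∀ (x : M) (r : ℝ), m (Metric.ball x r) < ∞) (hC : IsDir (sob m))
    {b l : M →ₘ[m] ℝ} (hb : b ∈ (sob m).A) (hl : (sob m).IsLap b l) {La : ℝ}
    (hLa : ∀ᵐ x ∂m, |l x| ≤ La) {bt : M → ℝ} (hbt : ⇑b =ᵐ[m] bt) {y : M} {n : ℕ} {C₀ : ℝ}
    (hC₀ : 0 < C₀)
    (hup : ∀ᶠ s in 𝓝[>] (0 : ℝ), (m (Metric.closedBall y s)).toReal ≤ C₀ * s ^ n)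
    (hleb : LebPt m n ((sob m).Γ b b) y 1) {e : ℝ} (he : 0 < e) :
    ∀ᶠ s in 𝓝[>] (0 : ℝ), ∀ a : ℝ,
      (m {z | dist z y ≤ s ∧ |bt z - a| ≤ e * s}).toReal ≤ 20 * 2 ^ n * C₀ * e * s ^ n := by
  have hsc : Tendsto (fun s : ℝ => 3 / 2 * s) (𝓝[>] 0) (𝓝[>] 0) := by
    refine tendsto_nhdsWithin_iff.2 ⟨?_, ?_⟩
    · have : Tendsto (fun s : ℝ => 3 / 2 * s) (𝓝 0) (𝓝 (3 / 2 * 0)) :=
        (continuous_const.mul continuous_id).tendsto 0
      rw [mul_zero] at this
      exact this.mono_left nhdsWithin_le_nhds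
    · filter_upwards [self_mem_nhdsWithin] with s hs
      have : (0 : ℝ) < s := hs
      exact Set.mem_Ioi.2 (by positivity)
  have h1 := hsc.eventually hup
  have h2 : ∀ᶠ s in 𝓝[>] (0 : ℝ), ((3 / 2 * s) ^ n)⁻¹ *
      ∫ z in Metric.closedBall y (3 / 2 * s), |(sob m).Γ b b z - 1| ∂m
        < C₀ * e / (1 + 16 * e) := by
    have h := (hleb.comp hsc).eventually (gt_mem_nhds (show (0 : ℝ) < C₀ * e / (1 + 16 * e) by
      positivity))
    exact h
  have h3 : ∀ᶠ s in 𝓝[>] (0 : ℝ), La * s / 4 ≤ 1 / 16 := by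
    have : Tendsto (fun s : ℝ => La * s / 4) (𝓝 0) (𝓝 (La * 0 / 4)) :=
      ((continuous_const.mul continuous_id).div_const 4).tendsto 0
    rw [mul_zero, zero_div] at this
    exact (this.mono_left nhdsWithin_le_nhds).eventually (ge_mem_nhds (by norm_num))
  filter_upwards [h1, h2, h3, self_mem_nhdsWithin] with s g1 g2 g3 hs a
  have hs0 : (0 : ℝ) < s := hs
  have key := slab_ball hfin hC hb hl hLa hbt y hs0 he a
  refine key.trans ?_
  set μ := (m (Metric.closedBall y (3 / 2 * s))).toReal with hμ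
  set θ := ∫ x in Metric.closedBall y (3 / 2 * s), |(sob m).Γ b b x - 1| ∂m with hθ
  have hμ0 : 0 ≤ μ := ENNReal.toReal_nonneg
  have hq : 0 < (3 / 2 * s) ^ n := by positivity
  have hθ1 : (1 + 16 * e) * θ ≤ C₀ * e * (3 / 2 * s) ^ n := by
    have : ((3 / 2 * s) ^ n)⁻¹ * θ < C₀ * e / (1 + 16 * e) := g2
    rw [lt_div_iff₀ (by positivity)] at this
    have h5 : θ * (1 + 16 * e) < C₀ * e * (3 / 2 * s) ^ n := by
      have h6 := mul_lt_mul_of_pos_right this hq
      calc θ * (1 + 16 * e) = ((3 / 2 * s) ^ n)⁻¹ * θ * (1 + 16 * e) * (3 / 2 * s) ^ n := by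
            field_simp
        _ < _ := h6
    linarith
  have hμ1 : 16 * e * (1 + La * s / 4) * μ ≤ 17 * e * (C₀ * (3 / 2 * s) ^ n) := by
    have h5 : 16 * e * (1 + La * s / 4) ≤ 17 * e := by nlinarith
    calc 16 * e * (1 + La * s / 4) * μ ≤ 17 * e * μ := mul_le_mul_of_nonneg_right h5 hμ0
      _ ≤ _ := mul_le_mul_of_nonneg_left g1 (by positivity)
  have hpow : (3 / 2 * s) ^ n ≤ 2 ^ n * s ^ n := by
    rw [← mul_pow]
    exact pow_le_pow_left₀ (by positivity) (by linarith) n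
  calc 16 * e * (1 + La * s / 4) * μ + (1 + 16 * e) * θ
      ≤ 17 * e * (C₀ * (3 / 2 * s) ^ n) + C₀ * e * (3 / 2 * s) ^ n := add_le_add hμ1 hθ1
    _ = 18 * (C₀ * e) * (3 / 2 * s) ^ n := by ring
    _ ≤ 18 * (C₀ * e) * (2 ^ n * s ^ n) := mul_le_mul_of_nonneg_left hpow (by positivity)
    _ ≤ 20 * (C₀ * e) * (2 ^ n * s ^ n) := by
        apply mul_le_mul_of_nonneg_right _ (by positivity)
        nlinarith [mul_pos hC₀ he]
    _ = _ := by ring

end metric

end Vale.Agent.P233.H719
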