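import Vale.Agent.P233.Gig.IfD
import Vale.Agent.P233.Bd3.B6

/-!
P233, block D4: first variation along all geodesics, `Blk_D4` of `Gig/IfD.lean`.
-/

open MeasureTheory Filter Topology Set
open scoped ENNReal NNReal

universe u

namespace Vale.Agent.P233.H719

/-! ### projections of closed sets -/

section proj

variable {X M : Type*} [MetricSpace X] [MetricSpace M] [ProperSpace M]

/-- The projection of a closed set with locally bounded fibres is closed. -/
theorem isClosed_proj {F : Set (X × M)} (hF : IsClosed F) {c : X → M} (hc : Continuous c) {r : ℝ}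
    (hb : ∀ x z, (x, z) ∈ F → dist (c x) z ≤ r) : IsClosed {x | ∃ z, (x, z) ∈ F} := by
  apply IsSeqClosed.isClosed
  intro x x₀ hx hlim
  choose z hz using hx
  have hc' : Tendsto (fun n => c (x n)) atTop (𝓝 (c x₀)) := (hc.tendsto x₀).comp hlim
  have h1 : ∀ᶠ n in atTop, z n ∈ Metric.closedBall (c x₀) (r + 1) := by
    filter_upwards [hc'.eventually (Metric.ball_mem_nhds (c x₀) one_pos)] with n hn
    rw [Metric.mem_closedBall]
    have h2 := hb _ _ (hz n)
    have h3 : dist (c (x n)) (c x₀) < 1 := hn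
    calc dist (z n) (c x₀) ≤ dist (z n) (c (x n)) + dist (c (x n)) (c x₀) := dist_triangle _ _ _
      _ ≤ r + 1 := by rw [dist_comm (z n)]; linarith
  obtain ⟨z₀, _, φ, hφ, hφlim⟩ := (isCompact_closedBall (c x₀) (r + 1)).tendsto_subseq'
    h1.frequently
  refine ⟨z₀, ?_⟩
  have h2 : Tendsto (fun n => (x (φ n), z (φ n))) atTop (𝓝 (x₀, z₀)) :=
    (hlim.comp hφ.tendsto_atTop).prodMk_nhds hφlim
  exact hF.mem_of_tendsto h2 (Filter.Eventually.of_forall fun n => hz _)

end proj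

section meas

variable {M : Type*} [MetricSpace M] [ProperSpace M]

/-- the bad set of the first variation -/
def badS (b : M → ℝ) (ε δ : ℝ) : Set (M × M × ℝ) :=
  {w | ∃ z, dist w.2.1 z < δ ∧ dist w.2.1 z + dist z w.1 = dist w.2.1 w.1 ∧
    ε * dist w.2.1 z < |b z - b w.2.1 + dist w.2.1 z * w.2.2|}

theorem badS_eq (b : M → ℝ) (ε δ : ℝ) : badS b ε δ =
    ⋃ k : ℕ, {w : M × M × ℝ | ∃ z, dist w.2.1 z ≤ δ - ((k : ℝ) + 1)⁻¹ ∧
      dist w.2.1 z + dist z w.1 = dist w.2.1 w.1 ∧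
      ε * dist w.2.1 z + ((k : ℝ) + 1)⁻¹ ≤ |b z - b w.2.1 + dist w.2.1 z * w.2.2|} := by
  ext w
  simp only [badS, mem_setOf_eq, mem_iUnion]
  constructor
  · rintro ⟨z, h1, h2, h3⟩
    have h4 : 0 < min (δ - dist w.2.1 z)
        (|b z - b w.2.1 + dist w.2.1 z * w.2.2| - ε * dist w.2.1 z) :=
      lt_min (by linarith) (by linarith)
    obtain ⟨k, hk⟩ := exists_nat_one_div_lt h4
    rw [one_div] at hk
    refine ⟨k, z, ?_, h2, ?_⟩
    · have := hk.trans_le (min_le_left _ _); linarith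
    · have := hk.trans_le (min_le_right _ _); linarith
  · rintro ⟨k, z, h1, h2, h3⟩
    have h4 : (0 : ℝ) < ((k : ℝ) + 1)⁻¹ := by positivity
    exact ⟨z, by linarith, h2, by linarith⟩

variable [MeasurableSpace M] [BorelSpace M]

theorem measurableSet_badS {b : M → ℝ} (hb : Continuous b) (ε δ : ℝ) :
    MeasurableSet (badS b ε δ) := by
  have : SecondCountableTopology M := inferInstance
  rw [badS_eq]
  refine MeasurableSet.iUnion fun k => IsClosed.measurableSet ?_
  have hF : IsClosed {v : (M × M × ℝ) × M | dist v.1.2.1 v.2 ≤ δ - ((k : ℝ) + 1)⁻¹ ∧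
      dist v.1.2.1 v.2 + dist v.2 v.1.1 = dist v.1.2.1 v.1.1 ∧
      ε * dist v.1.2.1 v.2 + ((k : ℝ) + 1)⁻¹ ≤
        |b v.2 - b v.1.2.1 + dist v.1.2.1 v.2 * v.1.2.2|} := by
    have c1 : Continuous fun v : (M × M × ℝ) × M => dist v.1.2.1 v.2 := by fun_prop
    have c2 : Continuous fun v : (M × M × ℝ) × M => dist v.2 v.1.1 := by fun_prop
    have c3 : Continuous fun v : (M × M × ℝ) × M => dist v.1.2.1 v.1.1 := by fun_prop
    have c4 : Continuous fun v : (M × M × ℝ) × M =>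
        |b v.2 - b v.1.2.1 + dist v.1.2.1 v.2 * v.1.2.2| := by fun_prop
    refine IsClosed.inter (isClosed_le c1 continuous_const) (IsClosed.inter
      (isClosed_eq (c1.add c2) c3) (isClosed_le ((continuous_const.mul c1).add continuous_const)
        c4))
  exact isClosed_proj hF (c := fun w : M × M × ℝ => w.2.1) (by fun_prop)
    (r := δ - ((k : ℝ) + 1)⁻¹) fun x z hz => hz.1

/-- `FV` in terms of the bad sets -/
theorem fv_iff {b : M → ℝ} {p y : M} {a : ℝ} :
    PD.FV b p y a ↔ ∀ i : ℕ, ∃ j : ℕ, (p, y, a) ∉ badS b ((i : ℝ) + 1)⁻¹ ((j : ℝ) + 1)⁻¹ := by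
  constructor
  · intro h i
    obtain ⟨δ, hδ, hz⟩ := h ((i : ℝ) + 1)⁻¹ (by positivity)
    obtain ⟨j, hj⟩ := exists_nat_one_div_lt hδ
    rw [one_div] at hj
    refine ⟨j, ?_⟩
    rintro ⟨z, h1, h2, h3⟩
    have h4 := hz z (by exact lt_trans h1 hj) h2
    exact absurd h3 (not_lt.2 h4)
  · intro h ε hε
    obtain ⟨i, hi⟩ := exists_nat_one_div_lt hε
    rw [one_div] at hi
    obtain ⟨j, hj⟩ := h i
    refine ⟨((j : ℝ) + 1)⁻¹, by positivity, fun z h1 h2 => ?_⟩
    by_contra h3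
    rw [not_le] at h3
    refine hj ⟨z, h1, h2, lt_of_le_of_lt ?_ h3⟩
    exact mul_le_mul_of_nonneg_right hi.le dist_nonneg

theorem measurableSet_fv {b : M → ℝ} (hb : Continuous b) {g : M → M → ℝ}
    (hg : Measurable fun z : M × M => g z.1 z.2) :
    MeasurableSet {w : M × M | PD.FV b w.1 w.2 (g w.1 w.2)} := by
  have : SecondCountableTopology M := inferInstance
  have h1 : {w : M × M | PD.FV b w.1 w.2 (g w.1 w.2)} =
      ⋂ i : ℕ, ⋃ j : ℕ, (fun w : M × M => ((w.1, w.2, g w.1 w.2) : M × M × ℝ)) ⁻¹'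
        (badS b ((i : ℝ) + 1)⁻¹ ((j : ℝ) + 1)⁻¹)ᶜ := by
    ext w
    simp only [mem_setOf_eq, mem_iInter, mem_iUnion, mem_preimage, mem_compl_iff]
    exact fv_iff
  rw [h1]
  refine MeasurableSet.iInter fun i => MeasurableSet.iUnion fun j => ?_
  have h2 : Measurable fun w : M × M => ((w.1, w.2, g w.1 w.2) : M × M × ℝ) :=
    measurable_fst.prodMk (measurable_snd.prodMk hg)
  exact h2 (measurableSet_badS hb _ _).compl

end meas

/-! ### the truncated distance functions -/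

section dp

variable {M : Type u} [MetricSpace M] [MeasurableSpace M] [BorelSpace M]
  [SecondCountableTopology M] {m : Measure M}

theorem dtr_lip (p : M) (R : ℝ) : LipschitzWith 1 (dtr p R) := by
  unfold dtr
  have h1 : LipschitzWith 1 fun x : M => min (dist p x) R := (LipschitzWith.dist_right p).min_const R
  refine LipschitzWith.of_dist_le_mul fun x y => ?_
  have := h1.dist_le_mul x y
  rw [Real.dist_eq] at this ⊢
  convert this using 2
  ring

theorem dp_ae (m : Measure M) (p : M) (R : ℝ) : ⇑(PD.dp m p R) =ᵐ[m] dtr p R := by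
  unfold PD.dp cl
  have h : AEStronglyMeasurable (dtr p R) m := (dtr_lip p R).continuous.aestronglyMeasurable
  rw [dif_pos h]
  exact AEEqFun.coeFn_mk _ h

theorem dp_LW (hfin : ∀ (x : M) (r : ℝ), m (Metric.ball x r) < ∞) (p : M) (R : ℝ) :
    PD.LW m (PD.dp m p R) (dtr p R) := by
  refine ⟨?_, ⟨1, dtr_lip p R⟩, dp_ae m p R⟩
  have hsupp : ∀ x : M, x ∉ Metric.ball p R → dtr p R x = 0 := by
    intro x hx
    rw [Metric.mem_ball, not_lt, dist_comm] at hx
    simp [dtr, min_eq_right hx]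
  have hgood : Met.Good m (dtr p R) _ := Met.good_of_bounded_support hfin (dtr_lip p R) hsupp
  have hW : Met.W12 m (dtr p R) := ⟨_, hgood.rSlope⟩
  obtain ⟨v, hv1, hv2⟩ := exists_class hW
  have : PD.dp m p R = v := by
    apply AEEqFun.ext
    exact (dp_ae m p R).trans hv2.symm
  rw [this]; exact hv1

end dp

/-! ### real analysis -/

theorem tendsto_sqrt_sub (a g : ℝ) :
    Tendsto (fun k : ℕ => √((k : ℝ) ^ 2 + 2 * k * a + g) - k) atTop (𝓝 a) := by
  have hg : Tendsto (fun k : ℕ => g / (k : ℝ)) atTop (𝓝 0) := tendsto_const_div_atTop_nhds_zero_nat g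
  have hN : Tendsto (fun k : ℕ => 2 * a + g / (k : ℝ)) atTop (𝓝 (2 * a)) := by
    simpa using tendsto_const_nhds.add hg
  have hY : Tendsto (fun k : ℕ => 1 + (2 * a + g / (k : ℝ)) / k) atTop (𝓝 1) := by
    have h1 : Tendsto (fun k : ℕ => (2 * a + g / (k : ℝ)) / k) atTop (𝓝 0) :=
      hN.div_atTop tendsto_natCast_atTop_atTop
    simpa using tendsto_const_nhds.add h1
  have h2 : Tendsto (fun k : ℕ => (2 * a + g / (k : ℝ)) / (√(1 + (2 * a + g / (k : ℝ)) / k) + 1))
      atTop (𝓝 (2 * a / (√1 + 1))) :=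
    hN.div ((hY.sqrt).add tendsto_const_nhds) (by positivity)
  have h3 : 2 * a / (√1 + 1) = a := by rw [Real.sqrt_one]; ring
  rw [h3] at h2
  refine h2.congr' ?_
  filter_upwards [hY.eventually (lt_mem_nhds (show (0 : ℝ) < 1 by norm_num)),
    eventually_gt_atTop 0] with k h4 h5
  have hk : (0 : ℝ) < k := by exact_mod_cast h5
  set Y := 1 + (2 * a + g / (k : ℝ)) / k with hYdef
  have h6 : (k : ℝ) ^ 2 + 2 * k * a + g = (k : ℝ) ^ 2 * Y := by
    rw [hYdef]; field_simp; ring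
  rw [h6, Real.sqrt_mul (by positivity), Real.sqrt_sq hk.le]
  have h7 : √Y * √Y = Y := Real.mul_self_sqrt h4.le
  have h8 : 0 < √Y + 1 := by positivity
  rw [div_eq_iff h8.ne']
  have h9 : k * (Y - 1) = 2 * a + g / (k : ℝ) := by
    rw [hYdef]; field_simp; ring
  rw [← h9]
  linear_combination (-(k : ℝ)) * h7

/-- the pointwise step: from the slopes of `b ± k d_p` to the first variation -/
theorem fv_of_slopes {M : Type u} [MetricSpace M] {b : M → ℝ} {p y : M} {R a g₀ : ℝ}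
    (hy : dist p y < R)
    (h : ∀ k : ℕ, ∀ σ : ℝ, σ = 1 ∨ σ = -1 → ∀ η > 0, ∃ r₀ > 0, ∀ r, 0 < r → r ≤ r₀ →
      ∀ z ∈ Metric.closedBall y r, |(b z + σ * k * dtr p R z) - (b y + σ * k * dtr p R y)| ≤
        √((k : ℝ) ^ 2 + 2 * k * (σ * a) + g₀) * dist z y + η * r) : PD.FV b p y a := by
  intro ε hε
  have h1 := (tendsto_sqrt_sub a g₀).eventually (lt_mem_nhds (show a - ε / 2 < a by linarith))
  have h1' := (tendsto_sqrt_sub a g₀).eventually (gt_mem_nhds (show a < a + ε / 2 by linarith))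
  have h2 := (tendsto_sqrt_sub (-a) g₀).eventually
    (gt_mem_nhds (show -a < -a + ε / 2 by linarith))
  obtain ⟨k, hk1, hk2⟩ := (h1'.and h2).exists
  obtain ⟨r₁, hr₁, H1⟩ := h k 1 (Or.inl rfl) (ε / 2) (by positivity)
  obtain ⟨r₂, hr₂, H2⟩ := h k (-1) (Or.inr rfl) (ε / 2) (by positivity)
  refine ⟨min r₁ r₂, lt_min hr₁ hr₂, fun z hz hgeo => ?_⟩
  rcases eq_or_ne z y with rfl | hzy
  · simp
  have hs : 0 < dist y z := dist_pos.2 hzy.symm
  set s := dist y z with hsdef
  have hzs : dist z y = s := by rw [dist_comm]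
  have hzb : z ∈ Metric.closedBall y s := by rw [Metric.mem_closedBall, hzs]
  have H1' := H1 s hs (hz.le.trans (min_le_left _ _)) z hzb
  have H2' := H2 s hs (hz.le.trans (min_le_right _ _)) z hzb
  have hd : dtr p R z - dtr p R y = -s := by
    have e1 : dist p z + s = dist p y := by
      rw [dist_comm p z, dist_comm p y]; linarith
    unfold dtr
    rw [min_eq_left hy.le, min_eq_left (by linarith)]
    linarith
  rw [hzs] at H1' H2'
  have e1 : (b z + 1 * k * dtr p R z) - (b y + 1 * k * dtr p R y) = b z - b y - k * s := by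
    have : (b z + 1 * (k : ℝ) * dtr p R z) - (b y + 1 * k * dtr p R y)
        = b z - b y + k * (dtr p R z - dtr p R y) := by ring
    rw [this, hd]; ring
  have e2 : (b z + -1 * k * dtr p R z) - (b y + -1 * k * dtr p R y) = b z - b y + k * s := by
    have : (b z + -1 * (k : ℝ) * dtr p R z) - (b y + -1 * k * dtr p R y)
        = b z - b y - k * (dtr p R z - dtr p R y) := by ring
    rw [this, hd]; ring
  rw [e1, one_mul] at H1'
  rw [e2] at H2'
  have f1 := (abs_le.1 H1').1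
  have f2 := (abs_le.1 H2').2
  have e3 : (-1 : ℝ) * a = -a := by ring
  rw [e3] at f2
  rw [abs_le]
  constructor
  · nlinarith [mul_lt_mul_of_pos_right hk1 hs]
  · nlinarith [mul_lt_mul_of_pos_right hk2 hs]

/-! ### the block -/

/-- Block D4. -/
theorem blk_D4 : PD.Blk_D4.{u} := by
  intro M _ _ _ _ _ m n K hSp hGeo hU hLS
  have hfin := hSp.std.hfin
  have hC : IsGamma (sob m) := isGamma_sob hfin hSp.std.rcd.quadratic
    hSp.std.rcd.sobolev_to_lipschitz
  have hD : IsDir (sob m) := hC.toIsDir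
  have : ProperSpace M := hGeo.proper
  have : SigmaFinite m := sigmaFinite_of_ball hfin
  have hFV : PD.FirstV m := by
    intro h b hb p R
    obtain ⟨hhW, ⟨Lb, hLb⟩, hhb⟩ := hb
    obtain ⟨hdW, ⟨Ld, hLd⟩, hdae⟩ := dp_LW hfin p R
    have key : ∀ᵐ y ∂m, ∀ k : ℕ, ∀ σ : ℝ, σ = 1 ∨ σ = -1 → ∀ η > 0, ∃ r₀ > 0, ∀ r, 0 < r →
        r ≤ r₀ → ∀ z ∈ Metric.closedBall y r, ∀ z' ∈ Metric.closedBall y r,
        |(b z + σ * k * dtr p R z) - (b z' + σ * k * dtr p R z')| ≤
          PD.gn m (h + (σ * k) • PD.dp m p R) y * dist z z' + η * r := by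
      rw [ae_all_iff]
      intro k
      have aux : ∀ σ : ℝ, ∀ᵐ y ∂m, ∀ η > 0, ∃ r₀ > 0, ∀ r, 0 < r →
        r ≤ r₀ → ∀ z ∈ Metric.closedBall y r, ∀ z' ∈ Metric.closedBall y r,
        |(b z + σ * k * dtr p R z) - (b z' + σ * k * dtr p R z')| ≤
          PD.gn m (h + (σ * k) • PD.dp m p R) y * dist z z' + η * r := by
        intro σ
        refine hLS (h + (σ * k) • PD.dp m p R) (fun z => b z + σ * k * dtr p R z) ⟨?_, ?_, ?_⟩
        · exact hD.add_mem _ hhW _ (hD.smul_mem _ _ hdW)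
        · refine ⟨Lb + ‖σ * k‖₊ * Ld, ?_⟩
          exact hLb.add ((LipschitzWith.of_dist_le_mul fun x y => by
            rw [Real.dist_eq, ← mul_sub, abs_mul]
            have := hLd.dist_le_mul x y
            rw [Real.dist_eq] at this
            push_cast
            rw [mul_assoc]
            exact mul_le_mul_of_nonneg_left this (abs_nonneg _)))
        · filter_upwards [add_ae h ((σ * k) • PD.dp m p R), smul_ae (PD.dp m p R) (σ * k), hhb,
            hdae] with x h1 h2 h3 h4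
          rw [h1, h2, h3, h4]
      filter_upwards [aux 1, aux (-1)] with y h1 h2 σ hσ
      rcases hσ with rfl | rfl
      · exact h1
      · exact h2
    have hΓ : ∀ᵐ y ∂m, ∀ k : ℕ, ∀ σ : ℝ, σ = 1 ∨ σ = -1 →
        (sob m).Γ (h + (σ * k) • PD.dp m p R) (h + (σ * k) • PD.dp m p R) y =
          (sob m).Γ h h y + 2 * (σ * k) * (sob m).Γ h (PD.dp m p R) y
            + (σ * k) ^ 2 * (sob m).Γ (PD.dp m p R) (PD.dp m p R) y := by
      rw [ae_all_iff]
      intro k
      have aux : ∀ t : ℝ, ∀ᵐ y ∂m,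
        (sob m).Γ (h + t • PD.dp m p R) (h + t • PD.dp m p R) y =
          (sob m).Γ h h y + 2 * t * (sob m).Γ h (PD.dp m p R) y
            + t ^ 2 * (sob m).Γ (PD.dp m p R) (PD.dp m p R) y := by
        intro t
        rw [hD.Γ_expand t hhW hdW]
        filter_upwards [add_ae ((sob m).Γ h h + (2 * t) • (sob m).Γ h (PD.dp m p R))
            ((t ^ 2) • (sob m).Γ (PD.dp m p R) (PD.dp m p R)),
          add_ae ((sob m).Γ h h) ((2 * t) • (sob m).Γ h (PD.dp m p R)),
          smul_ae ((sob m).Γ h (PD.dp m p R)) (2 * t),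
          smul_ae ((sob m).Γ (PD.dp m p R) (PD.dp m p R)) (t ^ 2)] with x h1 h2 h3 h4
        rw [h1, h2, h3, h4]
      filter_upwards [aux (1 * k), aux (-1 * k)] with y h1 h2 σ hσ
      rcases hσ with rfl | rfl
      · exact h1
      · exact h2
    filter_upwards [key, hΓ, hU p R] with y h1 h2 h3 hy
    refine fv_of_slopes (g₀ := (sob m).Γ h h y) hy fun k σ hσ η hη => ?_
    obtain ⟨r₀, hr₀, H⟩ := h1 k σ hσ η hη
    refine ⟨r₀, hr₀, fun r hr hr' z hz => ?_⟩
    have h4 := H r hr hr' z hz y (Metric.mem_closedBall_self hr.le)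
    refine h4.trans (le_of_eq ?_)
    unfold PD.gn
    rw [h2 k σ hσ, h3 hy]
    congr 3
    rcases hσ with rfl | rfl <;> ring
  refine ⟨hFV, ?_⟩
  intro h b g hb hg
  obtain ⟨hhW, ⟨Lb, hLb⟩, hhb⟩ := hb
  have hms := measurableSet_fv (M := M) hLb.continuous hg.1
  have h1 : ∀ᵐ p ∂m, ∀ᵐ y ∂m, PD.FV b p y (g p y) := by
    refine Filter.Eventually.of_forall fun p => ?_
    have h2 : ∀ᵐ y ∂m, ∀ k : ℕ, dist p y < k → PD.FV b p y (g p y) := by
      rw [ae_all_iff]
      intro k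
      filter_upwards [hFV h b ⟨hhW, ⟨Lb, hLb⟩, hhb⟩ p k, hg.2 p k] with y h3 h4 h5
      rw [h4 h5]; exact h3 h5
    filter_upwards [h2] with y hy
    obtain ⟨k, hk⟩ := exists_nat_gt (dist p y)
    exact hy k hk
  exact (Measure.ae_ae_comm hms).1 h1

end Vale.Agent.P233.H719
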