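import Vale.Agent.P233.H719.RADef
import Vale.Agent.P233.RA.IfG
import Vale.Agent.P233.H719.BlkD4
import Vale.Agent.P233.H183.BlkD0
import Vale.Agent.P233.H276.BlkD2
import Vale.Agent.P233.H249.BlkD3
import Vale.Agent.P233.H790.RL4
import Vale.Agent.P233.H825.RA4

/-! P233, RCDA, block RL5 and `RG.Blk_L1`: `|∇d_p| = 1`, Morrey, lip = slope, first variation
without Bochner (helper719, from the blocks D0, D2, D3, D4 of 183, 276, 249, 719 and S2L of 790). -/

set_option linter.all false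

open MeasureTheory Filter Topology Set
open scoped ENNReal NNReal MeasureTheory

universe u

namespace Vale.Agent.P233.H719

section

variable {M : Type u} [MetricSpace M] [SecondCountableTopology M] [MeasurableSpace M]
  [BorelSpace M] {m : Measure M} {n : ℕ}

theorem morrey_of (hfin : ∀ (x : M) (r : ℝ), m (Metric.ball x r) < ∞) (hct : PD.HasContr m n) :
    PD.Morrey m n := by
  intro q hnq hq1 R₀ hR₀
  obtain ⟨K', hK'⟩ := hct R₀ hR₀
  have hq0 : 0 < q := by linarith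
  have hnq' : 0 < 1 - (n:ℝ) / q := by
    have : (n:ℝ) / q < 1 := by rw [div_lt_one hq0]; exact hnq
    linarith
  set K₁ := max K' 0 with hK₁
  have hK₁0 : 0 ≤ K₁ := le_max_right _ _
  refine ⟨K₁ ^ q⁻¹ * (1 - n / q)⁻¹, by positivity, ?_⟩
  intro p R hR hRR f b hfb c hc η hη
  obtain ⟨L, hL⟩ := hfb.2.1
  have hbp : ∀ x, |b x - b p| ≤ (L:ℝ) * dist p x := fun x => by
    have := hL.dist_le_mul x p
    rwa [Real.dist_eq, dist_comm x p] at this
  have h1 := H276.morrey (m := m) (p := p) (R := R₀) (n := n) (K := K₁) (q := q) (c := c) (η := η)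
    (R' := R) (L := L) hK₁0 hbp hL.continuous.measurable (H276.gn_measurable m f) (fun ε hε => by
      obtain ⟨Y, hY⟩ := hK' p (min 1 ε) ⟨by positivity, min_le_left _ _⟩
      exact ⟨min 1 ε, by positivity, min_le_right _ _, Y, H276.contr_of hY,
        H276.ug_of (by positivity) hY hfb⟩)
    hR hRR (hfin p R).ne hq1 hnq hc L.coe_nonneg hη
  refine h1.trans ?_
  have e1 : K₁ * ((1 - (n:ℝ) / q)⁻¹ / η) ^ q = (K₁ ^ q⁻¹ * (1 - n / q)⁻¹ / η) ^ q := by
    rw [mul_div_assoc, Real.mul_rpow (by positivity) (by positivity), ← Real.rpow_mul hK₁0,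
      inv_mul_cancel₀ hq0.ne', Real.rpow_one]
  rw [e1]
  gcongr with x
  exact le_max_right _ _

theorem unitGrad_of (hn : 0 < n) (hm : m = μH[(n : ℝ)]) (hC : IsDir (sob m))
    (hfin : ∀ (x : M) (r : ℝ), m (Metric.ball x r) < ∞) (hct : PD.HasContr m n) :
    PD.UnitGrad m := by
  have hsf : SigmaFinite m := sigmaFinite_of_ball hfin
  have hna : ∀ p : M, m {p} = 0 := by
    intro p
    have := Measure.noAtoms_hausdorff M (Nat.cast_pos.2 hn : (0 : ℝ) < n)
    rw [hm]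
    exact measure_singleton p
  exact H183.unitGrad_of_contr (K := 0) (N := n) hC hfin hna hct

theorem firstV_of [ProperSpace M] (hD : IsDir (sob m))
    (hfin : ∀ (x : M) (r : ℝ), m (Metric.ball x r) < ∞) (hU : PD.UnitGrad m)
    (hLS : PD.LipSlope m) : PD.FirstV m := by
  intro h b hb p R
  obtain ⟨hhW, ⟨Lb, hLb⟩, hhb⟩ := hb
  obtain ⟨hdW, ⟨Ld, hLd⟩, hdae⟩ := dp_LW hfin p R
  have key : ∀ᵐ y ∂m, ∀ k : ℕ, ∀ σ : ℝ, σ = 1 ∨ σ = -1 → ∀ η > 0, ∃ r₀ > 0, ∀ r, 0 < r →
      r ≤ r₀ → ∀ z ∈ Metric.closedBall y r, ∀ z' ∈ Metric.closedBall y r,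
      |(b z + σ * k * dtr p R z) - (b z' + σ * k * dtr p R z')| ≤
        PD.gn m (h + (σ * k) • PD.dp m p R) y * dist z z' + η * r := by
    rw [ae_all_iff]
    intro k
    have aux : ∀ σ : ℝ, ∀ᵐ y ∂m, ∀ η > 0, ∃ r₀ > 0, ∀ r, 0 < r →
      r ≤ r₀ → ∀ z ∈ Metric.closedBall y r, ∀ z' ∈ Metric.closedBall y r,
      |(b z + σ * k * dtr p R z) - (b z' + σ * k * dtr p R z')| ≤
        PD.gn m (h + (σ * k) • PD.dp m p R) y * dist z z' + η * r := by
      intro σ
      refine hLS (h + (σ * k) • PD.dp m p R) (fun z => b z + σ * k * dtr p R z) ⟨?_, ?_, ?_⟩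
      · exact hD.add_mem _ hhW _ (hD.smul_mem _ _ hdW)
      · refine ⟨Lb + ‖σ * k‖₊ * Ld, ?_⟩
        exact hLb.add ((LipschitzWith.of_dist_le_mul fun x y => by
          rw [Real.dist_eq, ← mul_sub, abs_mul]
          have := hLd.dist_le_mul x y
          rw [Real.dist_eq] at this
          push_cast
          rw [mul_assoc]
          exact mul_le_mul_of_nonneg_left this (abs_nonneg _)))
      · filter_upwards [add_ae h ((σ * k) • PD.dp m p R), smul_ae (PD.dp m p R) (σ * k), hhb,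
          hdae] with x h1 h2 h3 h4
        rw [h1, h2, h3, h4]
    filter_upwards [aux 1, aux (-1)] with y h1 h2 σ hσ
    rcases hσ with rfl | rfl
    · exact h1
    · exact h2
  have hΓ : ∀ᵐ y ∂m, ∀ k : ℕ, ∀ σ : ℝ, σ = 1 ∨ σ = -1 →
      (sob m).Γ (h + (σ * k) • PD.dp m p R) (h + (σ * k) • PD.dp m p R) y =
        (sob m).Γ h h y + 2 * (σ * k) * (sob m).Γ h (PD.dp m p R) y
          + (σ * k) ^ 2 * (sob m).Γ (PD.dp m p R) (PD.dp m p R) y := by
    rw [ae_all_iff]
    intro k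
    have aux : ∀ t : ℝ, ∀ᵐ y ∂m,
      (sob m).Γ (h + t • PD.dp m p R) (h + t • PD.dp m p R) y =
        (sob m).Γ h h y + 2 * t * (sob m).Γ h (PD.dp m p R) y
          + t ^ 2 * (sob m).Γ (PD.dp m p R) (PD.dp m p R) y := by
      intro t
      rw [hD.Γ_expand t hhW hdW]
      filter_upwards [add_ae ((sob m).Γ h h + (2 * t) • (sob m).Γ h (PD.dp m p R))
          ((t ^ 2) • (sob m).Γ (PD.dp m p R) (PD.dp m p R)),
        add_ae ((sob m).Γ h h) ((2 * t) • (sob m).Γ h (PD.dp m p R)),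
        smul_ae ((sob m).Γ h (PD.dp m p R)) (2 * t),
        smul_ae ((sob m).Γ (PD.dp m p R) (PD.dp m p R)) (t ^ 2)] with x h1 h2 h3 h4
      rw [h1, h2, h3, h4]
    filter_upwards [aux (1 * k), aux (-1 * k)] with y h1 h2 σ hσ
    rcases hσ with rfl | rfl
    · exact h1
    · exact h2
  filter_upwards [key, hΓ, hU p R] with y h1 h2 h3 hy
  refine fv_of_slopes (g₀ := (sob m).Γ h h y) hy fun k σ hσ η hη => ?_
  obtain ⟨r₀, hr₀, H⟩ := h1 k σ hσ η hη
  refine ⟨r₀, hr₀, fun r hr hr' z hz => ?_⟩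
  have h4 := H r hr hr' z hz y (Metric.mem_closedBall_self hr.le)
  refine h4.trans (le_of_eq ?_)
  unfold PD.gn
  rw [h2 k σ hσ, h3 hy]
  congr 3
  rcases hσ with rfl | rfl <;> ring

/-- the minimal slope of a Lipschitz function with bounded support is its local Lipschitz
constant -/
theorem slopeEq_of (hfin : ∀ (x : M) (r : ℝ), m (Metric.ball x r) < ∞) (hLS : PD.LipSlope m) :
    RG.SlopeEq m := by
  rintro u L hL ⟨x₀, R, hu⟩
  have hgood := Met.good_of_bounded_support hfin hL (x₀ := x₀) (R := R)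
    fun x hx => hu x (by rw [Metric.mem_ball, not_lt] at hx; exact hx)
  set g : M → ℝ := (Metric.ball x₀ (R + 1)).indicator fun _ => (L : ℝ) with hg
  have h1 : Met.W12 m u := ⟨_, hgood.rSlope⟩
  have hum : AEStronglyMeasurable u m := hL.continuous.aestronglyMeasurable
  have hcl : ⇑(cl m u) =ᵐ[m] u := by
    unfold cl; rw [dif_pos hum]; exact AEEqFun.coeFn_mk u hum
  have hW : cl m u ∈ (sob m).W := mem_sob_iff.2 (h1.congr hcl.symm)
  -- `lip u` is a relaxed slope
  set G : M → ℝ := fun x => (lipAt u x).toReal with hG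
  have hGm : Measurable G := _root_.Vale.Agent.P233.RA.measurable_lr hL.continuous
  have hle : ∀ᵐ x ∂m, lipAt u x ≤ ENNReal.ofReal (g x) ∧ 0 ≤ g x := by
    filter_upwards [hgood.2.2.2] with x hx using ⟨hx.2, hx.1⟩
  have hG2 : MemLp G 2 m := by
    refine hgood.2.2.1.mono hGm.aestronglyMeasurable ?_
    filter_upwards [hle] with x hx
    rw [Real.norm_eq_abs, Real.norm_eq_abs, abs_of_nonneg ENNReal.toReal_nonneg,
      abs_of_nonneg hx.2]
    exact ENNReal.toReal_le_of_le_ofReal hx.2 hx.1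
  have hGood : Met.Good m u G := by
    refine ⟨⟨L, hL⟩, hgood.2.1, hG2, ?_⟩
    filter_upwards [hle] with x hx
    refine ⟨ENNReal.toReal_nonneg, ?_⟩
    rw [ENNReal.ofReal_toReal (ne_top_of_le_ne_top ENNReal.ofReal_ne_top hx.1)]
  have hRS : Met.RSlope m (cl m u) G := hGood.rSlope.congr hcl.symm Filter.EventuallyEq.rfl
  filter_upwards [hRS.mslope_le, slope_ae hW, sob_Γ_self_ae hW, (mem_sob_iff.1 hW).mslope_nonneg,
    hLS (cl m u) u ⟨hW, ⟨L, hL⟩, hcl⟩, hle] with x x1 x2 x3 x4 x5 x6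
  have hgn : PD.gn m (cl m u) x = Met.mslope m (cl m u) x := by
    rw [PD.gn, x3, Real.sqrt_sq x4]
  rw [x2]
  refine le_antisymm x1 ?_
  rw [← hgn]
  have hgn0 : 0 ≤ PD.gn m (cl m u) x := Real.sqrt_nonneg _
  refine ENNReal.toReal_le_of_le_ofReal hgn0 ((Met.lipAt_le_ofReal_iff hgn0).2 ?_)
  intro c' hc'
  obtain ⟨r₀, hr₀, H⟩ := x5 (c' - PD.gn m (cl m u) x) (by linarith)
  filter_upwards [Metric.closedBall_mem_nhds x hr₀] with z hz
  rcases (dist_nonneg (x := z) (y := x)).eq_or_lt with h0 | h0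
  · rw [dist_eq_zero.1 h0.symm]; simp
  · have h2 := H (dist z x) h0 hz z (Metric.mem_closedBall.2 le_rfl) x
      (Metric.mem_closedBall_self h0.le)
    nlinarith

theorem lout_of (h : RG.SpA m n) (hg : PD.Geo m n) : RG.LOut m n := by
  have hP := hg.proper
  have hs : RG.S2L m := H790.RL4.s2l_spA h hg
  have hC : IsGamma (sob m) := isGamma_sob h.hfin h.quad hs
  have hM := morrey_of h.hfin h.contr
  have hL := H249.lipSlope hC h.hfin hg hM
  have hU := unitGrad_of h.n_pos h.haus hC.toIsDir h.hfin h.contr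
  exact ⟨hs, slopeEq_of h.hfin hL, hU, hL, firstV_of hC.toIsDir h.hfin hU hL⟩

end

/-- **Block L1** of `RA/IfG`. -/
theorem blk_L1 : RG.Blk_L1.{u} := by
  intro M _ _ _ _ _ m n h hg
  exact lout_of h hg

end Vale.Agent.P233.H719
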