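import Vale.Agent.P233.H719.SlabM
import Vale.Agent.P233.Gig.IfD

/-!
P233, block D5: `Blk_D5` of `Gig/IfD.lean`.
-/

open MeasureTheory Filter Topology
open scoped ENNReal NNReal

universe u

namespace Vale.Agent.P233.H719

theorem testI_sum {M : Type*} [MeasurableSpace M] {m : Measure M} {C : Calc m} (hC : IsGamma C)
    {κ : ℝ} (hB : C.BEi κ) {ι : Type*} (F : Finset ι) (c : ι → ℝ) {f : ι → M →ₘ[m] ℝ} (hf : ∀ i, f i ∈ C.TestI) :
    ∑ i ∈ F, c i • f i ∈ C.TestI := by
  classical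
  induction F using Finset.induction_on with
  | empty => simpa using hC.testI_zero hB
  | insert a F ha ih =>
    rw [Finset.sum_insert ha]
    exact hC.testI_add hB (hC.testI_smul hB _ (hf a)) ih

/-- Block D5. -/
theorem blk_D5 : PD.Blk_D5.{u} := by
  intro M _ _ _ _ _ m n K hSp hGeo x₀ R₀
  have hfin := hSp.std.hfin
  have hC : IsGamma (sob m) := isGamma_sob hfin hSp.std.rcd.quadratic
    hSp.std.rcd.sobolev_to_lipschitz
  have hD : IsDir (sob m) := hC.toIsDir
  have hB : (sob m).BEi K := hC.bei hSp.std.hN hSp.std.rcd.bochner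
  have hcfin : ∀ (y : M) (r : ℝ), m (Metric.closedBall y r) < ∞ := fun y r =>
    (measure_mono (Metric.closedBall_subset_ball (lt_add_one r))).trans_lt (hfin y (r + 1))
  have : IsLocallyFiniteMeasure m := ⟨fun x => ⟨Metric.ball x 1, Metric.ball_mem_nhds x one_pos,
    hfin x 1⟩⟩
  have : IsUnifLocDoublingMeasure m := hGeo.dbl
  -- the upper volume bound at `y`
  have hvol : ∀ (x₁ : M) (R₁ : ℝ), ∃ C : ℝ, 0 < C ∧ ∀ y ∈ Metric.ball x₁ R₁, 0 < R₁ →
      ∀ᶠ s in 𝓝[>] (0 : ℝ), (m (Metric.closedBall y s)).toReal ≤ C * s ^ n := by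
    intro x₁ R₁
    obtain ⟨c, _, C, hC'⟩ := hGeo.vol x₁ R₁
    refine ⟨|C| * 2 ^ n + 1, by positivity, fun y hy hR₁ => ?_⟩
    have h1 : ∀ᶠ s in 𝓝[>] (0 : ℝ), s ≤ R₁ / 2 :=
      nhdsWithin_le_nhds (ge_mem_nhds (by positivity))
    filter_upwards [h1, self_mem_nhdsWithin] with s hs1 hs
    have hs0 : (0 : ℝ) < s := hs
    have h2 := (hC' y hy (2 * s) (by positivity) (by linarith)).2
    have h3 : m (Metric.closedBall y s) ≤ ENNReal.ofReal (C * (2 * s) ^ n) :=
      (measure_mono (Metric.closedBall_subset_ball (by linarith))).trans h2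
    have h4 : (m (Metric.closedBall y s)).toReal ≤ max (C * (2 * s) ^ n) 0 := by
      have := ENNReal.toReal_mono ENNReal.ofReal_ne_top h3
      rwa [ENNReal.toReal_ofReal'] at this
    have hsn : 0 < s ^ n := by positivity
    have h5 : C * (2 * s) ^ n ≤ (|C| * 2 ^ n + 1) * s ^ n := by
      rw [mul_pow]
      have : C * (2 ^ n * s ^ n) ≤ |C| * (2 ^ n * s ^ n) :=
        mul_le_mul_of_nonneg_right (le_abs_self C) (by positivity)
      nlinarith
    exact h4.trans (max_le h5 (by positivity))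
  obtain ⟨C₀, hC₀, hup⟩ := hvol x₀ R₀
  refine ⟨20 * 2 ^ n * C₀, fun f b G g hT => ?_⟩
  -- Lebesgue points
  have hleb : ∀ i j, ∀ᵐ y ∂m, LebPt m n ((sob m).Γ (f i) (f j)) y (G i j y) := by
    intro i j
    have hi : Integrable ((sob m).Γ (f i) (f j)) m :=
      int_of_mem (hD.Γ_mem1 (hT.lip i).1 (hT.lip j).1)
    have h1 := ae_lebPt (m := m) (n := n) hcfin (Filter.Eventually.of_forall fun y => by
      obtain ⟨C1, _, h⟩ := hvol y 1
      exact ⟨C1, h y (Metric.mem_ball_self one_pos) one_pos⟩) hi.locallyIntegrable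
    filter_upwards [h1, hT.gram i j] with y hy1 hy2
    rwa [hy2]
  have hleb' : ∀ᵐ y ∂m, ∀ i j, LebPt m n ((sob m).Γ (f i) (f j)) y (G i j y) :=
    ae_all_iff.2 fun i => ae_all_iff.2 fun j => hleb i j
  filter_upwards [hleb'] with y hy hyR k c hq ε hε
  have hyb : y ∈ Metric.ball x₀ R₀ := by rwa [Metric.mem_ball, dist_comm]
  have hR₀ : 0 < R₀ := dist_nonneg.trans_lt hyR
  have hupy := hup y hyb hR₀
  set B : M →ₘ[m] ℝ := ∑ i ∈ Finset.range k, c i • f i with hBdef
  have hBT : B ∈ (sob m).TestI := testI_sum hC hB _ c hT.test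
  have hBae : ⇑B =ᵐ[m] fun z => ∑ i ∈ Finset.range k, c i * b i z := by
    have h1 := sum_ae (Finset.range k) fun i => c i • f i
    have h2 : ∀ᵐ x ∂m, ∀ i, (c i • f i : M →ₘ[m] ℝ) x = c i * b i x := by
      rw [ae_all_iff]
      intro i
      filter_upwards [smul_ae (f i) (c i), (hT.lip i).2.2] with x h3 h4
      rw [h3, h4]
    filter_upwards [h1, h2] with x h3 h4
    rw [h3]
    exact Finset.sum_congr rfl fun i _ => h4 i
  have hlebB : LebPt m n ((sob m).Γ B B) y 1 := by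
    have h1 := lebPt_comb hD (Finset.range k) c (fun i => (hT.lip i).1) (hcfin y)
      (g := fun i j => G i j y) (fun i _ j _ => hy i j)
    rw [← hBdef] at h1
    have h2 : ∑ i ∈ Finset.range k, ∑ j ∈ Finset.range k, c i * c j * G i j y = 1 := hq
    rwa [h2] at h1
  obtain ⟨La, hLa⟩ := mem_top_iff.1 hBT.2
  have key := slab_lim hfin hD (hC.test_A hBT.1) (hC.test_isLap hBT.1) hLa hBae hC₀ hupy hlebB hε
  filter_upwards [key, self_mem_nhdsWithin] with s hs1 hs
  have hs0 : (0 : ℝ) < s := hs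
  have h1 := hs1 (∑ i ∈ Finset.range k, c i * b i y)
  have hsub : {z | dist y z < s ∧ |∑ i ∈ Finset.range k, c i * (b i z - b i y)| ≤ ε * s} ⊆
      {z | dist z y ≤ s ∧ |(∑ i ∈ Finset.range k, c i * b i z)
        - ∑ i ∈ Finset.range k, c i * b i y| ≤ ε * s} := by
    rintro z ⟨h3, h4⟩
    refine ⟨by rw [dist_comm]; exact h3.le, ?_⟩
    have : (∑ i ∈ Finset.range k, c i * b i z) - ∑ i ∈ Finset.range k, c i * b i y
        = ∑ i ∈ Finset.range k, c i * (b i z - b i y) := by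
      rw [← Finset.sum_sub_distrib]
      exact Finset.sum_congr rfl fun i _ => by ring
    rw [this]; exact h4
  refine (measure_mono hsub).trans ?_
  have hfinS : m {z | dist z y ≤ s ∧ |(∑ i ∈ Finset.range k, c i * b i z)
        - ∑ i ∈ Finset.range k, c i * b i y| ≤ ε * s} < ∞ :=
    (measure_mono fun z hz => (by exact hz.1 : z ∈ Metric.closedBall y s)).trans_lt (hcfin y s)
  rw [← ENNReal.ofReal_toReal hfinS.ne]
  exact ENNReal.ofReal_le_ofReal h1

end Vale.Agent.P233.H719
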