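import Vale.Agent.P233.H719.TU3
import Vale.Agent.P233.H183.ZGrad

/-! P233, part C: strong convergence of the drifts `∇θ_n(t) → ∇z_t` against `A ρ_n(t)`, uniform in
time (TU6), and energy bounds. -/

set_option linter.all false

open MeasureTheory Filter Topology Set
open scoped ENNReal NNReal InnerProductSpace

universe u

namespace Vale.Agent.P233.H719

open Vale.Agent.P233.PA (en OutA PotLim)
open Vale.Agent.P233.PC

section gen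

variable {M : Type u} [MeasurableSpace M] {m : Measure M} {C : Calc m}

/-- truncation of an integrable class -/
theorem exists_trunc {A : M →ₘ[m] ℝ} (hA0 : 0 ≤ A) (hA : MemLp A 1 m) {δ : ℝ} (hδ : 0 < δ) :
    ∃ (k : ℝ) (A2 : M →ₘ[m] ℝ), 0 ≤ k ∧ 0 ≤ A2 ∧ MemLp A2 1 m ∧ I A2 ≤ δ ∧
      ∀ᵐ x ∂m, A x ≤ k + A2 x := by
  have hAi := int_of_mem hA
  have a0 := nonneg_iff_ae.1 hA0
  have hlim : Tendsto (fun k : ℕ => ∫ x, max (A x - k) 0 ∂m) atTop (𝓝 0) := by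
    have h1 : Tendsto (fun k : ℕ => ∫ x, max (A x - k) 0 ∂m) atTop (𝓝 (∫ x, (0 : ℝ) ∂m)) := by
      refine tendsto_integral_of_dominated_convergence (fun x => A x) ?_ hAi ?_ ?_
      · intro k
        exact ((hAi.aestronglyMeasurable.sub aestronglyMeasurable_const).sup
          aestronglyMeasurable_const)
      · intro k
        filter_upwards [a0] with x hx
        rw [Real.norm_of_nonneg (le_max_right _ _)]
        exact max_le (by have := Nat.cast_nonneg (α := ℝ) k; linarith) hx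
      · filter_upwards with x
        obtain ⟨k0, hk0⟩ := exists_nat_ge (A x)
        refine tendsto_const_nhds.congr' ?_
        filter_upwards [eventually_ge_atTop k0] with k hk
        rw [max_eq_right]
        have : (k0 : ℝ) ≤ k := by exact_mod_cast hk
        linarith
    simpa using h1
  obtain ⟨k, hk⟩ := ((tendsto_order.1 hlim).2 δ hδ).exists
  have hm : AEStronglyMeasurable (fun x => max (A x - k) 0) m :=
    (hAi.aestronglyMeasurable.sub aestronglyMeasurable_const).sup aestronglyMeasurable_const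
  have hae : ⇑(AEEqFun.mk _ hm) =ᵐ[m] fun x => max (A x - k) 0 := AEEqFun.coeFn_mk _ _
  refine ⟨k, AEEqFun.mk _ hm, Nat.cast_nonneg k, ?_, ?_, ?_, ?_⟩
  · rw [nonneg_iff_ae]
    filter_upwards [hae] with x hx
    rw [hx]; exact le_max_right _ _
  · refine mem_of_le hA ?_
    filter_upwards [hae, a0] with x hx h0
    rw [hx, abs_of_nonneg (le_max_right _ _)]
    refine (max_le ?_ (abs_nonneg _))
    have := le_abs_self (A x)
    have := Nat.cast_nonneg (α := ℝ) k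
    linarith
  · unfold I
    rw [integral_congr_ae hae]
    exact hk.le
  · filter_upwards [hae] with x hx
    rw [hx]
    have := le_max_left (A x - k) 0
    linarith

/-- `I(A ρ Q) ≤ k I(ρ Q) + B G I(A2)` -/
theorem I_trunc_le {A A2 r Q : M →ₘ[m] ℝ} {k B G : ℝ} (hA0 : 0 ≤ A) (hA : MemLp A 1 m)
    (hA2 : MemLp A2 1 m) (hA20 : 0 ≤ A2) (hk : 0 ≤ k) (hle : ∀ᵐ x ∂m, A x ≤ k + A2 x)
    (hr0 : 0 ≤ r) (hB : 0 ≤ B)
    (hr : ∀ᵐ x ∂m, r x ≤ B) (hQ0 : 0 ≤ Q) (hQ : ∀ᵐ x ∂m, Q x ≤ G) (hQ1 : MemLp Q 1 m) :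
    I (A * r * Q) ≤ k * I (r * Q) + B * G * I A2 := by
  have rt : MemLp r ∞ m := mem_top_iff.2 ⟨B, by
    filter_upwards [hr, nonneg_iff_ae.1 hr0] with x a1 a2
    rwa [abs_of_nonneg a2]⟩
  have Qt : MemLp Q ∞ m := mem_top_iff.2 ⟨G, by
    filter_upwards [hQ, nonneg_iff_ae.1 hQ0] with x a1 a2
    rwa [abs_of_nonneg a2]⟩
  have m1 : MemLp (A * r * Q : M →ₘ[m] ℝ) 1 m := mem_top_mul (mem_top_mul hA rt) Qt
  have m2 : MemLp (r * Q : M →ₘ[m] ℝ) 1 m := mem_mul_top rt hQ1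
  rw [← I_smul, ← I_smul, ← I_add (mem_smul _ m2) (mem_smul _ hA2)]
  refine I_mono m1 (mem_add (mem_smul _ m2) (mem_smul _ hA2)) (le_iff_ae.2 ?_)
  filter_upwards [mul_ae (A * r) Q, mul_ae A r, add_ae (k • (r * Q)) ((B * G) • A2),
    smul_ae (r * Q) k, smul_ae A2 (B * G), mul_ae r Q, hle, hr, hQ, nonneg_iff_ae.1 hr0,
    nonneg_iff_ae.1 hQ0, nonneg_iff_ae.1 hA20] with x a1 a2 a3 a4 a5 a6 b1 b2 b3 b4 b5 b6
  rw [a1, a2, a3, a4, a5, a6]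
  have h1 : A x * r x * Q x ≤ (k + A2 x) * (r x * Q x) := by
    rw [mul_assoc]
    exact mul_le_mul_of_nonneg_right b1 (mul_nonneg b4 b5)
  have h2 : r x * Q x ≤ B * G := mul_le_mul b2 b3 b5 hB
  nlinarith [mul_le_mul_of_nonneg_left h2 b6]

end gen

section metric

variable {M : Type u} [MetricSpace M] [SecondCountableTopology M] [MeasurableSpace M]
  [BorelSpace M] {m : Measure M} {K N : ℝ} {P : ℝ → (M →ₘ[m] ℝ) → (M →ₘ[m] ℝ)} {p : M} {s₀ C₀ : ℝ}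
variable {u : ℕ → ℝ → M →ₘ[m] ℝ} {φ : (M →ₘ[m] ℝ) → ℕ → ℝ → M →ₘ[m] ℝ} {l : M →ₘ[m] ℝ}
variable {E : Type} [NormedAddCommGroup E] [InnerProductSpace ℝ E]
  {Gr : (M →ₘ[m] ℝ) → M → E} {V : (M →ₘ[m] ℝ) → (M →ₘ[m] ℝ) → M → E}
  {D : (M →ₘ[m] ℝ) → (M →ₘ[m] ℝ)} {κ : ℝ}

/-- gradient bound of `φ^l` -/
theorem φ_bd (hyp : CHyp M m K N P p s₀ C₀) (hA : OutA m K N P p s₀ C₀ u φ)
    (hl : l ∈ (sob m).TestI) : ∃ L : ℝ, 0 ≤ L ∧ ∀ᶠ n in atTop, ∀ t ∈ Icc (0 : ℝ) 1, ∀ᵐ x ∂m,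
      (sob m).Γ (φ l n t) (φ l n t) x ≤ L ^ 2 := by
  obtain ⟨R, hR, hlR⟩ := exists_R (std_gamma hyp.std) hl
  obtain ⟨D, D', hD⟩ := hA.levF l hl R hR hlR
  refine ⟨|D|, abs_nonneg _, ?_⟩
  filter_upwards [hD] with n hn t ht
  rw [sq_abs]
  exact hn.lip t ht

/-- (TU2): `E |∇(φ^l - u)|² ≤ c ε` -/
theorem drift_small (hyp : CHyp M m K N P p s₀ C₀) (hA : OutA m K N P p s₀ C₀ u φ)
    (hB : LevB m Gr V D κ u φ) (hl : l ∈ (sob m).TestI) {s : ℝ} (hs : s ∈ Ioo (0 : ℝ) 1) :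
    ∃ c : ℝ, 0 ≤ c ∧ ∀ᶠ n in atTop, ∀ t ∈ Icc s 1,
      I (rn u φ l n t * (sob m).Γ (φ l n t - u n t) (φ l n t - u n t)) ≤ c * en n := by
  have hC := std_gamma hyp.std
  obtain ⟨c, hc⟩ := hB.b2 l hl s hs
  refine ⟨|c|, abs_nonneg c, ?_⟩
  filter_upwards [hc, pair_of hA hl] with n h1 hp t ht
  have ht0 : t ∈ Icc (0 : ℝ) 1 := ⟨hs.1.le.trans ht.1, ht.2⟩
  have hd : φ l n t - u n t ∈ (sob m).W := hC.sub_mem (hC.test_A (hp.φ_mem t ht0).1).1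
    (hC.test_A (hp.u_mem t ht0).1).1
  have hε := en_pos n
  have e1 : (sob m).Γ (LL (en n) (φ l n) (u n) t) (LL (en n) (φ l n) (u n) t)
      = ((en n)⁻¹ * (en n)⁻¹) • (sob m).Γ (φ l n t - u n t) (φ l n t - u n t) := by
    unfold LL
    rw [hC.smul_left _ _ hd _ (hC.smul_mem _ _ hd), hC.Γ_smul_right _ hd hd, smul_smul]
  have h2 := (h1 t ht).1
  have e2 : (sob m).EV (en n) (φ l n) (u n) t = ((en n)⁻¹ * (en n)⁻¹) *
      I (rn u φ l n t * (sob m).Γ (φ l n t - u n t) (φ l n t - u n t)) := by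
    unfold Calc.EV
    rw [e1, mul_smul_comm, I_smul]
    rfl
  rw [e2] at h2
  have h3 : I (rn u φ l n t * (sob m).Γ (φ l n t - u n t) (φ l n t - u n t))
      = en n * (en n * ((en n)⁻¹ * (en n)⁻¹ *
        I (rn u φ l n t * (sob m).Γ (φ l n t - u n t) (φ l n t - u n t)))) := by
    field_simp
  rw [h3]
  calc _ ≤ en n * c := mul_le_mul_of_nonneg_left h2 hε.le
    _ ≤ en n * |c| := mul_le_mul_of_nonneg_left (le_abs_self _) hε.le
    _ = |c| * en n := mul_comm _ _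

/-- **(TU6)**: `∇θ_n(t) → ∇z_t` against `A ρ_n(t)`, `A ∈ L¹`, uniformly on `[s,1]`. -/
theorem tu6 (hyp : CHyp M m K N P p s₀ C₀) (hA : OutA m K N P p s₀ C₀ u φ)
    (hB : LevB m Gr V D κ u φ) (hl : l ∈ (sob m).TestI) {s : ℝ} (hs : s ∈ Ioo (0 : ℝ) 1)
    {A : M →ₘ[m] ℝ} (hA0 : 0 ≤ A) (hA1 : MemLp A 1 m) {δ : ℝ} (hδ : 0 < δ) :
    ∀ᶠ n in atTop, ∀ t ∈ Icc s 1, I (A * rn u φ l n t * (sob m).Γ
      (tn u φ l n t - zc m p s₀ C₀ t) (tn u φ l n t - zc m p s₀ C₀ t)) ≤ δ := by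
  have hC := std_gamma hyp.std
  obtain ⟨B, hB0, hBd⟩ := dens_bd hyp hA hl hs.1
  obtain ⟨L, hL0, hu, hz⟩ := z_bd hyp hA
  obtain ⟨L', hL'0, hφ⟩ := φ_bd hyp hA hl
  obtain ⟨c, hc0, hc⟩ := drift_small hyp hA hB hl hs
  set G : ℝ := 2 * L' ^ 2 + 2 * L ^ 2 with hG
  have hG0 : 0 ≤ G := by positivity
  obtain ⟨k, A2, hk, hA20, hA21, hA2δ, hle⟩ := exists_trunc hA0 hA1
    (δ := δ / (8 * (B * G + 1))) (by positivity)
  have h1 := tu6_u hyp hA hs.1 hA0 hA1 (δ := δ / (8 * (B + 1))) (by positivity)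
  have h2 : ∀ᶠ n in atTop, k * (c * en n) < δ / 8 := by
    have : Tendsto (fun n => k * (c * en n)) atTop (𝓝 0) := by
      simpa using (en_lim.const_mul c).const_mul k
    exact (tendsto_order.1 this).2 _ (by positivity)
  filter_upwards [h1, h2, hBd, hu, hφ, hc, pair_of hA hl] with n a1 a2 a3 a4 a5 a6 hp t ht
  have ht0 : t ∈ Icc (0 : ℝ) 1 := ⟨hs.1.le.trans ht.1, ht.2⟩
  have uW := (hC.test_A (hp.u_mem t ht0).1).1
  have φW := (hC.test_A (hp.φ_mem t ht0).1).1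
  have zW := zc_W hA ht0
  have r0 : 0 ≤ rn u φ l n t := rh_nonneg
  have rB := a3 t ht
  have rt : MemLp (rn u φ l n t) ∞ m := mem_top_iff.2 ⟨B, by
    filter_upwards [rB, nonneg_iff_ae.1 r0] with x b1 b2
    rwa [abs_of_nonneg b2]⟩
  -- `θ - z = (u - z) - g`, `g = -(φ - u)/2`
  set g : M →ₘ[m] ℝ := (-(2 : ℝ)⁻¹) • (φ l n t - u n t) with hg
  have dW : φ l n t - u n t ∈ (sob m).W := hC.sub_mem φW uW
  have gW : g ∈ (sob m).W := hC.smul_mem _ _ dW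
  have e1 : tn u φ l n t - zc m p s₀ C₀ t = (u n t - zc m p s₀ C₀ t) - g := by
    unfold tn th
    rw [hg, neg_smul, sub_neg_eq_add, smul_sub, smul_add]
    have h3 : (2 : ℝ)⁻¹ • u n t + (2 : ℝ)⁻¹ • u n t = u n t := by
      rw [← add_smul]; norm_num
    calc (2 : ℝ)⁻¹ • φ l n t + (2 : ℝ)⁻¹ • u n t - zc m p s₀ C₀ t
        = ((2 : ℝ)⁻¹ • u n t + (2 : ℝ)⁻¹ • u n t) - zc m p s₀ C₀ t
          + ((2 : ℝ)⁻¹ • φ l n t - (2 : ℝ)⁻¹ • u n t) := by abel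
      _ = u n t - zc m p s₀ C₀ t + ((2 : ℝ)⁻¹ • φ l n t - (2 : ℝ)⁻¹ • u n t) := by rw [h3]
  have gΓ : (sob m).Γ g g = (4 : ℝ)⁻¹ • (sob m).Γ (φ l n t - u n t) (φ l n t - u n t) := by
    rw [hg, hC.smul_left _ _ dW _ (hC.smul_mem _ _ dW), hC.Γ_smul_right _ dW dW, smul_smul]
    norm_num
  have dG : ∀ᵐ x ∂m, (sob m).Γ (φ l n t - u n t) (φ l n t - u n t) x ≤ G := by
    filter_upwards [hC.toIsDir.Γ_sub_le φW uW, a5 t ht0, a4 t ht0] with x b1 b2 b3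
    rw [hG]; linarith
  have gG : ∀ᵐ x ∂m, (sob m).Γ g g x ≤ G := by
    filter_upwards [dG, hC.Γ_nonneg_ae dW,
      smul_ae ((sob m).Γ (φ l n t - u n t) (φ l n t - u n t)) (4 : ℝ)⁻¹] with x b1 b2 b3
    rw [gΓ, b3]; linarith
  have gt : MemLp ((sob m).Γ g g) ∞ m := mem_top_iff.2 ⟨G, by
    filter_upwards [gG, hC.Γ_nonneg_ae gW] with x b1 b2
    rwa [abs_of_nonneg b2]⟩
  have uz : ∀ᵐ x ∂m, (sob m).Γ (u n t - zc m p s₀ C₀ t) (u n t - zc m p s₀ C₀ t) x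
      ≤ 4 * L ^ 2 := by
    filter_upwards [hC.toIsDir.Γ_sub_le uW zW, a4 t ht0, hz t ht0] with x b1 b2 b3
    linarith
  have uzt : MemLp ((sob m).Γ (u n t - zc m p s₀ C₀ t) (u n t - zc m p s₀ C₀ t)) ∞ m :=
    mem_top_iff.2 ⟨4 * L ^ 2, by
      filter_upwards [uz, hC.Γ_nonneg_ae (hC.sub_mem uW zW)] with x b1 b2
      rwa [abs_of_nonneg b2]⟩
  have Ar1 : MemLp (A * rn u φ l n t : M →ₘ[m] ℝ) 1 m := mem_top_mul hA1 rt
  have Ar0 : 0 ≤ A * rn u φ l n t := mul_nonneg hA0 r0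
  have key := I_w_sub_le hC Ar0 Ar1 (hC.sub_mem uW zW) gW uzt gt
  rw [← e1] at key
  -- first term
  have k1 : I (A * rn u φ l n t * (sob m).Γ (u n t - zc m p s₀ C₀ t) (u n t - zc m p s₀ C₀ t))
      ≤ B * I (A * (sob m).Γ (u n t - zc m p s₀ C₀ t) (u n t - zc m p s₀ C₀ t)) := by
    rw [← I_smul]
    refine I_mono (mem_top_mul Ar1 uzt) (mem_smul _ (mem_top_mul hA1 uzt)) (le_iff_ae.2 ?_)
    filter_upwards [mul_ae (A * rn u φ l n t) ((sob m).Γ (u n t - zc m p s₀ C₀ t)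
        (u n t - zc m p s₀ C₀ t)), mul_ae A (rn u φ l n t),
      smul_ae (A * (sob m).Γ (u n t - zc m p s₀ C₀ t) (u n t - zc m p s₀ C₀ t)) B,
      mul_ae A ((sob m).Γ (u n t - zc m p s₀ C₀ t) (u n t - zc m p s₀ C₀ t)), rB,
      nonneg_iff_ae.1 hA0, hC.Γ_nonneg_ae (hC.sub_mem uW zW)] with x b1 b2 b3 b4 b5 b6 b7
    rw [b1, b2, b3, b4]
    nlinarith [mul_le_mul_of_nonneg_right b5 (mul_nonneg b6 b7)]
  have k2 : B * I (A * (sob m).Γ (u n t - zc m p s₀ C₀ t) (u n t - zc m p s₀ C₀ t)) ≤ δ / 8 := by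
    refine (mul_le_mul_of_nonneg_left (a1 t ht) hB0).trans ?_
    calc B * (δ / (8 * (B + 1))) ≤ (B + 1) * (δ / (8 * (B + 1))) :=
          mul_le_mul_of_nonneg_right (by linarith) (by positivity)
      _ = δ / 8 := by
          have : B + 1 ≠ 0 := by positivity
          field_simp
  -- second term
  have k3 := I_trunc_le (r := rn u φ l n t) (Q := (sob m).Γ g g) (B := B) (G := G) hA0 hA1 hA21
    hA20 hk hle r0 hB0 rB (hC.nonneg _ gW) gG (hC.mem1 _ gW)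
  have k4 : I (rn u φ l n t * (sob m).Γ g g) ≤ c * en n := by
    have h5 := a6 t ht
    rw [gΓ, mul_smul_comm, I_smul]
    have h6 : 0 ≤ I (rn u φ l n t * (sob m).Γ (φ l n t - u n t) (φ l n t - u n t)) :=
      I_nonneg (mul_nonneg r0 (hC.nonneg _ dW))
    linarith
  have k5 : k * I (rn u φ l n t * (sob m).Γ g g) ≤ δ / 8 :=
    (mul_le_mul_of_nonneg_left k4 hk).trans a2.le
  have k6 : B * G * I A2 ≤ δ / 8 := by
    have hBG : 0 ≤ B * G := mul_nonneg hB0 hG0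
    calc B * G * I A2 ≤ B * G * (δ / (8 * (B * G + 1))) := mul_le_mul_of_nonneg_left hA2δ hBG
      _ ≤ (B * G + 1) * (δ / (8 * (B * G + 1))) :=
          mul_le_mul_of_nonneg_right (by linarith) (by positivity)
      _ = δ / 8 := by
          have : B * G + 1 ≠ 0 := by positivity
          field_simp
  linarith

/-- the energies `E |∇θ|²` are bounded on `[s,1]` -/
theorem energy_tn (hyp : CHyp M m K N P p s₀ C₀) (hA : OutA m K N P p s₀ C₀ u φ)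
    (hB : LevB m Gr V D κ u φ) (hl : l ∈ (sob m).TestI) {s : ℝ} (hs : s ∈ Ioo (0 : ℝ) 1) :
    ∃ c : ℝ, 0 ≤ c ∧ ∀ᶠ n in atTop, ∀ t ∈ Icc s 1,
      I (rn u φ l n t * (sob m).Γ (tn u φ l n t) (tn u φ l n t)) ≤ c := by
  have hC := std_gamma hyp.std
  obtain ⟨B, hB0, hBd⟩ := dens_bd hyp hA hl hs.1
  obtain ⟨c, hc⟩ := hB.b2 l hl s hs
  refine ⟨2 * |c|, by positivity, ?_⟩
  filter_upwards [hc, pair_of hA hl, hBd] with n h1 hp h3 t ht
  have ht0 : t ∈ Icc (0 : ℝ) 1 := ⟨hs.1.le.trans ht.1, ht.2⟩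
  have uW := (hC.test_A (hp.u_mem t ht0).1).1
  have φW := (hC.test_A (hp.φ_mem t ht0).1).1
  have r0 : 0 ≤ rn u φ l n t := rh_nonneg
  have rB := h3 t ht
  have rt : MemLp (rn u φ l n t) ∞ m := mem_top_iff.2 ⟨B, by
    filter_upwards [rB, nonneg_iff_ae.1 r0] with x b1 b2
    rwa [abs_of_nonneg b2]⟩
  obtain ⟨-, h4, h5, -⟩ := h1 t ht
  have hA' : (sob m).EA (en n) (φ l n) (u n) t = I (rn u φ l n t * (sob m).Γ (φ l n t) (φ l n t)) :=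
    rfl
  have hB' : (sob m).EB (en n) (φ l n) (u n) t = I (rn u φ l n t * (sob m).Γ (u n t) (u n t)) := rfl
  rw [hA', hB'] at h4
  rw [hA'] at h5
  have mφ : MemLp (rn u φ l n t * (sob m).Γ (φ l n t) (φ l n t) : M →ₘ[m] ℝ) 1 m :=
    mem_mul_top rt (hC.mem1 _ φW)
  have mu : MemLp (rn u φ l n t * (sob m).Γ (u n t) (u n t) : M →ₘ[m] ℝ) 1 m :=
    mem_mul_top rt (hC.mem1 _ uW)
  have tW : tn u φ l n t ∈ (sob m).W := hC.smul_mem _ _ (hC.add_mem _ φW _ uW)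
  have e1 : tn u φ l n t = (2 : ℝ)⁻¹ • φ l n t - (-(2 : ℝ)⁻¹) • u n t := by
    unfold tn th
    rw [smul_add, neg_smul, sub_neg_eq_add]
  have key : I (rn u φ l n t * (sob m).Γ (tn u φ l n t) (tn u φ l n t))
      ≤ (2 : ℝ)⁻¹ * I (rn u φ l n t * (sob m).Γ (φ l n t) (φ l n t))
        + (2 : ℝ)⁻¹ * I (rn u φ l n t * (sob m).Γ (u n t) (u n t)) := by
    rw [← I_smul, ← I_smul, ← I_add (mem_smul _ mφ) (mem_smul _ mu)]
    refine I_mono (mem_mul_top rt (hC.mem1 _ tW)) (mem_add (mem_smul _ mφ) (mem_smul _ mu))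
      (le_iff_ae.2 ?_)
    have f1 := hC.smul_mem (2 : ℝ)⁻¹ _ φW
    have f2 := hC.smul_mem (-(2 : ℝ)⁻¹) _ uW
    have g1 : (sob m).Γ ((2 : ℝ)⁻¹ • φ l n t) ((2 : ℝ)⁻¹ • φ l n t)
        = (4 : ℝ)⁻¹ • (sob m).Γ (φ l n t) (φ l n t) := by
      rw [hC.smul_left _ _ φW _ f1, hC.Γ_smul_right _ φW φW, smul_smul]; norm_num
    have g2 : (sob m).Γ ((-(2 : ℝ)⁻¹) • u n t) ((-(2 : ℝ)⁻¹) • u n t)
        = (4 : ℝ)⁻¹ • (sob m).Γ (u n t) (u n t) := by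
      rw [hC.smul_left _ _ uW _ f2, hC.Γ_smul_right _ uW uW, smul_smul]; norm_num
    have hsub := hC.toIsDir.Γ_sub_le f1 f2
    rw [← e1, g1, g2] at hsub
    filter_upwards [hsub, smul_ae ((sob m).Γ (φ l n t) (φ l n t)) (4 : ℝ)⁻¹,
      smul_ae ((sob m).Γ (u n t) (u n t)) (4 : ℝ)⁻¹, nonneg_iff_ae.1 r0,
      mul_ae (rn u φ l n t) ((sob m).Γ (tn u φ l n t) (tn u φ l n t)),
      add_ae ((2 : ℝ)⁻¹ • (rn u φ l n t * (sob m).Γ (φ l n t) (φ l n t)))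
        ((2 : ℝ)⁻¹ • (rn u φ l n t * (sob m).Γ (u n t) (u n t))),
      smul_ae (rn u φ l n t * (sob m).Γ (φ l n t) (φ l n t)) (2 : ℝ)⁻¹,
      smul_ae (rn u φ l n t * (sob m).Γ (u n t) (u n t)) (2 : ℝ)⁻¹,
      mul_ae (rn u φ l n t) ((sob m).Γ (φ l n t) (φ l n t)),
      mul_ae (rn u φ l n t) ((sob m).Γ (u n t) (u n t))]
      with x b1 b2 b3 b4 b5 b6 b7 b8 b9 b10
    rw [b2, b3] at b1
    rw [b5, b6, b7, b8, b9, b10]
    nlinarith [mul_le_mul_of_nonneg_left b1 b4]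
  have h6 : I (rn u φ l n t * (sob m).Γ (u n t) (u n t))
      ≤ I (rn u φ l n t * (sob m).Γ (φ l n t) (φ l n t)) + |c| := by
    have h7 := (abs_le.1 h4).1
    have h8 : c * en n ≤ |c| := by
      have := en_le_one n
      have := en_pos n
      nlinarith [le_abs_self c, abs_nonneg c]
    linarith
  have h9 := le_abs_self c
  have h10 := abs_nonneg c
  linarith

/-- the energies of the limit potentials -/
theorem energy_z (hyp : CHyp M m K N P p s₀ C₀) :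
    ∃ c : ℝ, 0 ≤ c ∧ ∀ t ∈ Icc (0 : ℝ) 1,
      I ((sob m).Γ (zc m p s₀ C₀ t) (zc m p s₀ C₀ t)) ≤ c := by
  have hC := std_gamma hyp.std
  have hd := H183.dc_mem_A hyp.std.hfin p s₀ C₀
  have hs := hyp.hs
  refine ⟨(r1 s₀ C₀ / s₀) ^ 2 * I ((sob m).Γ (dc m p s₀ C₀) (dc m p s₀ C₀)),
    mul_nonneg (sq_nonneg _) (hC.toIsDir.E_nonneg hd.1), fun t ht => ?_⟩
  have zW := (H183.zc_mem_A (p := p) hC.toIsDir hyp.std.hfin hs hyp.hC0 ht).1
  rw [← I_smul]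
  refine I_mono (hC.mem1 _ zW) (mem_smul _ (hC.mem1 _ hd.1)) (le_iff_ae.2 ?_)
  filter_upwards [H183.Γ_zc (p := p) hC.toIsDir hyp.std.hfin hs hyp.hC0 ht zW,
    H183.Γ_zc (p := p) hC.toIsDir hyp.std.hfin hs hyp.hC0 ht hd.1,
    smul_ae ((sob m).Γ (dc m p s₀ C₀) (dc m p s₀ C₀)) ((r1 s₀ C₀ / s₀) ^ 2),
    hC.Γ_nonneg_ae hd.1] with x a1 a2 a3 a4
  have a5 : (sob m).Γ (zc m p s₀ C₀ t) (dc m p s₀ C₀) x
      = H183.cz p s₀ C₀ t x * (sob m).Γ (dc m p s₀ C₀) (dc m p s₀ C₀) x := by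
    rw [hC.symm _ zW _ hd.1]; exact a2
  rw [a3, a1, a5]
  have h1 := H183.cz_le (p := p) hs hyp.hC0 ht x
  have h2 := H183.cz_nonneg (p := p) (C₀ := C₀) hs ht x
  have h3 : H183.cz p s₀ C₀ t x ^ 2 ≤ (r1 s₀ C₀ / s₀) ^ 2 := pow_le_pow_left₀ h2 h1 2
  nlinarith [mul_le_mul_of_nonneg_right h3 a4]

end metric

end Vale.Agent.P233.H719
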