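import Mathlib.MeasureTheory.Measure.Hausdorff
import Mathlib.MeasureTheory.Measure.AbsolutelyContinuous
import Mathlib.MeasureTheory.Constructions.BorelSpace.Metrizable

/-! P233, stage 3a, block AC (helper719): consequences of the Lipschitz bound for the end points of
geodesics of a monotone set of pairs: uniqueness and regularity of the inverse of the interpolation,
and absolute continuity of the intermediate measures. -/

set_option linter.all false

open MeasureTheory Filter Topology Set Metric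
open scoped ENNReal NNReal MeasureTheory

universe u

namespace Vale.Agent.P233.H719.CD3

/-- `w` is an `s`-point of the pair `(x, y)` -/
def SP {M : Type u} [MetricSpace M] (s : ℝ) (x y w : M) : Prop :=
  dist x w = s * dist x y ∧ dist w y = (1 - s) * dist x y

/-- two-point monotonicity for the cost `d²` -/
def Mono2 {M : Type u} [MetricSpace M] (G : Set (M × M)) : Prop :=
  ∀ p ∈ G, ∀ q ∈ G,
    dist p.1 p.2 ^ 2 + dist q.1 q.2 ^ 2 ≤ dist p.1 q.2 ^ 2 + dist q.1 p.2 ^ 2

/-- the conclusion of block LIP (helper326), for a fixed `s` -/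
def LipE (M : Type u) [MetricSpace M] (s : ℝ) : Prop :=
  ∀ R > 0, ∃ C > 0, ∀ x y x' y' w w' : M, dist x y ≤ R → dist x' y' ≤ R →
    dist x y ^ 2 + dist x' y' ^ 2 ≤ dist x y' ^ 2 + dist x' y ^ 2 →
    SP s x y w → SP s x' y' w' →
    dist x x' ≤ C * dist w w' ∧ dist y y' ≤ C * dist w w'

/-- the set of all `s`-points of pairs of `G` -/
def Sh {M : Type u} [MetricSpace M] (s : ℝ) (G : Set (M × M)) : Set M :=
  {w | ∃ p ∈ G, SP s p.1 p.2 w}

section

variable {M : Type u} [MetricSpace M] {s : ℝ} {G : Set (M × M)}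

/-- a monotone set of pairs whose `s`-points stay bounded has bounded length -/
theorem bdd_len (hs0 : 0 < s) (hs1 : s < 1) (hG : Mono2 G) (o : M) (r : ℝ) :
    ∃ R > 0, ∀ p ∈ G, ∀ w, SP s p.1 p.2 w → dist o w ≤ r → dist p.1 p.2 ≤ R := by
  by_cases hne : ∃ q ∈ G, True
  · obtain ⟨q, hq, -⟩ := hne
    set c : ℝ := dist q.1 o + dist q.2 o + |r| with hc
    have hc0 : 0 ≤ c := by positivity
    have hd : 0 < 2 * s * (1 - s) := by
      have := mul_pos hs0 (sub_pos.2 hs1)
      linarith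
    refine ⟨(2 * c + 2 * c ^ 2) / (2 * s * (1 - s)) + 1, by positivity, ?_⟩
    intro p hp w hw hr
    have hrr : dist o w ≤ |r| := hr.trans (le_abs_self r)
    have h1 : dist q.1 w ≤ c := by
      have := dist_triangle q.1 o w
      have h2 := dist_nonneg (x := q.2) (y := o)
      rw [hc]; linarith
    have h2 : dist q.2 w ≤ c := by
      have := dist_triangle q.2 o w
      have h2 := dist_nonneg (x := q.1) (y := o)
      rw [hc]; linarith
    set d := dist p.1 p.2 with hdd
    have hd0 : 0 ≤ d := dist_nonneg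
    have h3 : dist q.1 p.2 ≤ c + (1 - s) * d := by
      have := dist_triangle q.1 w p.2
      rw [hw.2] at this; linarith
    have h4 : dist p.1 q.2 ≤ s * d + c := by
      have := dist_triangle p.1 w q.2
      rw [hw.1, dist_comm w q.2] at this; linarith
    have h5 := hG p hp q hq
    have h6 : dist q.1 p.2 ^ 2 ≤ (c + (1 - s) * d) ^ 2 :=
      pow_le_pow_left₀ dist_nonneg h3 2
    have h7 : dist p.1 q.2 ^ 2 ≤ (s * d + c) ^ 2 := pow_le_pow_left₀ dist_nonneg h4 2
    have h8 : d ^ 2 ≤ (c + (1 - s) * d) ^ 2 + (s * d + c) ^ 2 := by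
      have := sq_nonneg (dist q.1 q.2)
      linarith
    have h9 : 2 * s * (1 - s) * d ^ 2 ≤ 2 * c * d + 2 * c ^ 2 := by nlinarith
    by_contra hcon
    push Not at hcon
    have h10 : 1 ≤ d := by
      have : 0 ≤ (2 * c + 2 * c ^ 2) / (2 * s * (1 - s)) := by positivity
      linarith
    have h11 : (2 * c + 2 * c ^ 2) / (2 * s * (1 - s)) < d := by linarith
    rw [div_lt_iff₀ hd] at h11
    have h12 : 2 * c * d + 2 * c ^ 2 ≤ (2 * c + 2 * c ^ 2) * d := by
      have : 0 ≤ 2 * c ^ 2 * (d - 1) := by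
        have : 0 ≤ d - 1 := by linarith
        positivity
      nlinarith
    have h13 : (2 * c + 2 * c ^ 2) * d < d * (2 * s * (1 - s)) * d :=
      mul_lt_mul_of_pos_right h11 (by linarith)
    nlinarith
  · refine ⟨1, one_pos, fun p hp => ?_⟩
    exact absurd ⟨p, hp, trivial⟩ hne

theorem uniq (hL : LipE M s) (hG : Mono2 G) {p q : M × M} (hp : p ∈ G) (hq : q ∈ G) {w : M}
    (h1 : SP s p.1 p.2 w) (h2 : SP s q.1 q.2 w) : p = q := by
  obtain ⟨C, hC, h⟩ := hL (max (dist p.1 p.2) (dist q.1 q.2) + 1)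
    (by have := le_max_left (dist p.1 p.2) (dist q.1 q.2); have h0 := dist_nonneg (x := p.1) (y := p.2); linarith)
  obtain ⟨h3, h4⟩ := h p.1 p.2 q.1 q.2 w w
    (by have := le_max_left (dist p.1 p.2) (dist q.1 q.2); linarith)
    (by have := le_max_right (dist p.1 p.2) (dist q.1 q.2); linarith) (hG p hp q hq) h1 h2
  rw [dist_self, mul_zero] at h3 h4
  exact Prod.ext (dist_le_zero.1 h3) (dist_le_zero.1 h4)

theorem isClosed_Sh [ProperSpace M] (hs0 : 0 < s) (hs1 : s < 1) (hG : Mono2 G)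
    (hc : IsClosed G) : IsClosed (Sh s G) := by
  apply IsSeqClosed.isClosed
  intro w a hw ha
  choose p hp hw2 using hw
  -- boundedness
  obtain ⟨r, hr⟩ := (Metric.isBounded_range_of_tendsto w ha).subset_closedBall a
  have hr2 : ∀ k, dist a (w k) ≤ r := fun k => by
    rw [dist_comm]; exact Metric.mem_closedBall.1 (hr ⟨k, rfl⟩)
  obtain ⟨R, hR, hR2⟩ := bdd_len hs0 hs1 hG a r
  have hb : ∀ k, p k ∈ closedBall (a, a) (r + R) := by
    intro k
    have h1 := hR2 (p k) (hp k) (w k) (hw2 k) (hr2 k)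
    have h0 : 0 ≤ dist (p k).1 (p k).2 := dist_nonneg
    have h2 : dist (p k).1 (w k) ≤ R := by
      rw [(hw2 k).1]; nlinarith
    have h3 : dist (w k) (p k).2 ≤ R := by
      rw [(hw2 k).2]; nlinarith
    rw [Metric.mem_closedBall, Prod.dist_eq, max_le_iff]
    constructor
    · have := dist_triangle (p k).1 (w k) a
      have h5 := hr2 k
      rw [dist_comm] at h5
      simp only
      linarith
    · have := dist_triangle (p k).2 (w k) a
      have h5 := hr2 k
      rw [dist_comm] at h5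
      rw [dist_comm (p k).2 (w k)] at this
      simp only
      linarith
  obtain ⟨b, -, φ, hφ, hlim⟩ := (isCompact_closedBall (a, a) (r + R)).tendsto_subseq hb
  refine ⟨b, hc.mem_of_tendsto hlim (Eventually.of_forall fun k => hp _), ?_, ?_⟩
  · have h1 : Tendsto (fun k => dist (p (φ k)).1 (w (φ k))) atTop (𝓝 (dist b.1 a)) :=
      ((continuous_fst.tendsto b).comp hlim).dist (ha.comp hφ.tendsto_atTop)
    have h2 : Tendsto (fun k => s * dist (p (φ k)).1 (p (φ k)).2) atTop (𝓝 (s * dist b.1 b.2)) :=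
      (((continuous_fst.tendsto b).comp hlim).dist ((continuous_snd.tendsto b).comp hlim)).const_mul s
    exact tendsto_nhds_unique (h1.congr fun k => (hw2 _).1) h2
  · have h1 : Tendsto (fun k => dist (w (φ k)) (p (φ k)).2) atTop (𝓝 (dist a b.2)) :=
      (ha.comp hφ.tendsto_atTop).dist ((continuous_snd.tendsto b).comp hlim)
    have h2 : Tendsto (fun k => (1 - s) * dist (p (φ k)).1 (p (φ k)).2) atTop
        (𝓝 ((1 - s) * dist b.1 b.2)) :=
      (((continuous_fst.tendsto b).comp hlim).dist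
        ((continuous_snd.tendsto b).comp hlim)).const_mul (1 - s)
    exact tendsto_nhds_unique (h1.congr fun k => (hw2 _).2) h2

/-- the inverse of the interpolation: end points as a function of the `s`-point -/
structure Inv (s : ℝ) (G : Set (M × M)) (F : M → M × M) : Prop where
  mem : ∀ w ∈ Sh s G, F w ∈ G
  sp : ∀ w ∈ Sh s G, SP s (F w).1 (F w).2 w
  eq : ∀ p ∈ G, ∀ w, SP s p.1 p.2 w → F w = p
  /-- Lipschitz on bounded pieces -/
  lip : ∀ (o : M) (r : ℝ), ∃ C : ℝ≥0, LipschitzOnWith C F (Sh s G ∩ closedBall o r)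
  cont : ContinuousOn F (Sh s G)

theorem exists_inv (hL : LipE M s) (hs0 : 0 < s) (hs1 : s < 1) (hG : Mono2 G) :
    ∃ F : M → M × M, Inv s G F ∧ ∀ w, w ∉ Sh s G → F w = (w, w) := by
  classical
  let F : M → M × M := fun w => if h : w ∈ Sh s G then h.choose else (w, w)
  have hF : ∀ w (h : w ∈ Sh s G), F w = h.choose := fun w h => dif_pos h
  have h1 : ∀ w ∈ Sh s G, F w ∈ G := fun w h => by rw [hF w h]; exact h.choose_spec.1
  have h2 : ∀ w ∈ Sh s G, SP s (F w).1 (F w).2 w := fun w h => by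
    rw [hF w h]; exact h.choose_spec.2
  have h4 : ∀ (o : M) (r : ℝ), ∃ C : ℝ≥0, LipschitzOnWith C F (Sh s G ∩ closedBall o r) := by
    intro o r
    obtain ⟨R, hR, hR2⟩ := bdd_len hs0 hs1 hG o r
    obtain ⟨C, hC, h⟩ := hL R hR
    refine ⟨⟨C, hC.le⟩, LipschitzOnWith.of_dist_le_mul ?_⟩
    rintro w ⟨hw, hwr⟩ w' ⟨hw', hwr'⟩
    rw [Metric.mem_closedBall, dist_comm] at hwr hwr'
    obtain ⟨h5, h6⟩ := h (F w).1 (F w).2 (F w').1 (F w').2 w w'
      (hR2 _ (h1 w hw) w (h2 w hw) hwr) (hR2 _ (h1 w' hw') w' (h2 w' hw') hwr')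
      (hG _ (h1 w hw) _ (h1 w' hw')) (h2 w hw) (h2 w' hw')
    rw [Prod.dist_eq]
    exact max_le h5 h6
  refine ⟨F, ⟨h1, h2, ?_, h4, ?_⟩, fun w h => dif_neg h⟩
  · intro p hp w hw
    have hw' : w ∈ Sh s G := ⟨p, hp, hw⟩
    exact uniq hL hG (h1 w hw') hp (h2 w hw') hw
  · intro w hw
    obtain ⟨C, hC⟩ := h4 w 1
    have h5 : ContinuousWithinAt F (Sh s G ∩ closedBall w 1) w :=
      hC.continuousOn w ⟨hw, Metric.mem_closedBall_self zero_le_one⟩
    exact h5.mono_of_mem_nhdsWithin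
      (inter_mem self_mem_nhdsWithin (mem_nhdsWithin_of_mem_nhds (closedBall_mem_nhds w one_pos)))

/-- the field `lip` of `CDc.Pt` -/
theorem Inv.lip_at {F : M → M × M} (hF : Inv s G F) {S : Set M} (hS : S ⊆ Sh s G) {z : M}
    (hz : z ∈ S) : ∃ C : ℝ, ∀ w ∈ S, dist z w ≤ 1 →
      dist (F z).1 (F w).1 ≤ C * dist z w ∧ dist (F z).2 (F w).2 ≤ C * dist z w := by
  obtain ⟨C, hC⟩ := hF.lip z 1
  refine ⟨C, fun w hw h1 => ?_⟩
  have h2 : dist (F z) (F w) ≤ C * dist z w :=
    hC.dist_le_mul z ⟨hS hz, Metric.mem_closedBall_self zero_le_one⟩ w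
      ⟨hS hw, by rw [Metric.mem_closedBall, dist_comm]; exact h1⟩
  rw [Prod.dist_eq] at h2
  exact ⟨(le_max_left _ _).trans h2, (le_max_right _ _).trans h2⟩

section meas

variable [MeasurableSpace M] [BorelSpace M]

theorem Inv.image_null {F : M → M × M} (hF : Inv s G F) [Nonempty M] {d : ℝ} (hd : 0 ≤ d)
    {N : Set M} (hN : N ⊆ Sh s G) (h0 : (μH[d] : Measure M) N = 0) :
    (μH[d] : Measure M) ((fun w => (F w).1) '' N) = 0 ∧
    (μH[d] : Measure M) ((fun w => (F w).2) '' N) = 0 := by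
  obtain ⟨o⟩ := ‹Nonempty M›
  have hU : N = ⋃ k : ℕ, N ∩ closedBall o k := by
    rw [← inter_iUnion, iUnion_closedBall_nat, inter_univ]
  constructor
  · rw [hU, image_iUnion]
    refine measure_iUnion_null fun k => ?_
    obtain ⟨C, hC⟩ := hF.lip o k
    have h1 : LipschitzOnWith C (fun w => (F w).1) (N ∩ closedBall o k) := by
      have := (LipschitzWith.prod_fst (α := M) (β := M)).comp_lipschitzOnWith
        (hC.mono (inter_subset_inter_left (closedBall o (k : ℝ)) hN))
      simpa [Function.comp_def] using this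
    have h2 := h1.hausdorffMeasure_image_le hd
    refine le_antisymm (h2.trans ?_) (by simp)
    rw [measure_mono_null inter_subset_left h0, mul_zero]
  · rw [hU, image_iUnion]
    refine measure_iUnion_null fun k => ?_
    obtain ⟨C, hC⟩ := hF.lip o k
    have h1 : LipschitzOnWith C (fun w => (F w).2) (N ∩ closedBall o k) := by
      have := (LipschitzWith.prod_snd (α := M) (β := M)).comp_lipschitzOnWith
        (hC.mono (inter_subset_inter_left (closedBall o (k : ℝ)) hN))
      simpa [Function.comp_def] using this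
    have h2 := h1.hausdorffMeasure_image_le hd
    refine le_antisymm (h2.trans ?_) (by simp)
    rw [measure_mono_null inter_subset_left h0, mul_zero]

theorem Inv.measurable [SecondCountableTopology M] {F : M → M × M} (hF : Inv s G F)
    (hd : ∀ w, w ∉ Sh s G → F w = (w, w)) (hc : IsClosed (Sh s G)) : Measurable F := by
  classical
  have h1 : F = (Sh s G).piecewise F (fun w => (w, w)) := by
    funext w
    by_cases hw : w ∈ Sh s G
    · simp [hw]
    · simp [hw, hd w hw]
  rw [h1]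
  exact ContinuousOn.measurable_piecewise hF.cont (by fun_prop) hc.measurableSet

/-- (AC) -/
theorem Inv.ac {F : M → M × M} (hF : Inv s G F) {d : ℝ} (hd : 0 ≤ d)
    {π : Measure (M × M)} (hπ : ∀ᵐ p ∂π, p ∈ G) {Z : M × M → M} (hZ : AEMeasurable Z π)
    (hZs : ∀ᵐ p ∂π, SP s p.1 p.2 (Z p))
    (h0 : π.map Prod.fst ≪ (μH[d] : Measure M) ∨ π.map Prod.snd ≪ (μH[d] : Measure M)) :
    π.map Z ≪ (μH[d] : Measure M) := by
  rcases isEmpty_or_nonempty M with hM | hM
  · have : π.map Z = 0 := by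
      have := Measure.eq_zero_of_isEmpty (π.map Z)
      exact this
    rw [this]; exact Measure.AbsolutelyContinuous.zero _
  refine Measure.AbsolutelyContinuous.mk fun N hN h => ?_
  rw [Measure.map_apply_of_aemeasurable hZ hN]
  obtain ⟨h1, h2⟩ := hF.image_null hd (inter_subset_right : N ∩ Sh s G ⊆ Sh s G)
    (measure_mono_null inter_subset_left h)
  rcases h0 with h0 | h0
  · have h3 : (π.map Prod.fst) ((fun w => (F w).1) '' (N ∩ Sh s G)) = 0 := h0 h1
    obtain ⟨T, hT1, hT2, hT3⟩ := exists_measurable_superset_of_null h3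
    rw [Measure.map_apply measurable_fst hT2] at hT3
    have h4 : ∀ᵐ p ∂π, p.1 ∉ T := by
      rw [ae_iff]
      simp only [not_not]
      exact hT3
    have h5 : ∀ᵐ p ∂π, Z p ∉ N := by
      filter_upwards [h4, hπ, hZs] with p hp1 hp2 hp3 hp4
      apply hp1
      apply hT1
      refine ⟨Z p, ⟨hp4, p, hp2, hp3⟩, ?_⟩
      simp only
      rw [hF.eq p hp2 _ hp3]
    rw [ae_iff] at h5
    simp only [not_not] at h5
    exact h5
  · have h3 : (π.map Prod.snd) ((fun w => (F w).2) '' (N ∩ Sh s G)) = 0 := h0 h2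
    obtain ⟨T, hT1, hT2, hT3⟩ := exists_measurable_superset_of_null h3
    rw [Measure.map_apply measurable_snd hT2] at hT3
    have h4 : ∀ᵐ p ∂π, p.2 ∉ T := by
      rw [ae_iff]
      simp only [not_not]
      exact hT3
    have h5 : ∀ᵐ p ∂π, Z p ∉ N := by
      filter_upwards [h4, hπ, hZs] with p hp1 hp2 hp3 hp4
      apply hp1
      apply hT1
      refine ⟨Z p, ⟨hp4, p, hp2, hp3⟩, ?_⟩
      simp only
      rw [hF.eq p hp2 _ hp3]
    rw [ae_iff] at h5
    simp only [not_not] at h5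
    exact h5

theorem Inv.ae_eq {F : M → M × M} (hF : Inv s G F)
    {π : Measure (M × M)} (hπ : ∀ᵐ p ∂π, p ∈ G) {Z : M × M → M}
    (hZs : ∀ᵐ p ∂π, SP s p.1 p.2 (Z p)) : ∀ᵐ p ∂π, F (Z p) = p := by
  filter_upwards [hπ, hZs] with p h1 h2
  exact hF.eq p h1 _ h2

/-- the plan is the image of the interpolated measure -/
theorem Inv.map_map [SecondCountableTopology M] {F : M → M × M} (hF : Inv s G F)
    (hFm : Measurable F)
    {π : Measure (M × M)} (hπ : ∀ᵐ p ∂π, p ∈ G) {Z : M × M → M} (hZ : AEMeasurable Z π)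
    (hZs : ∀ᵐ p ∂π, SP s p.1 p.2 (Z p)) : (π.map Z).map F = π := by
  rw [AEMeasurable.map_map_of_aemeasurable hFm.aemeasurable hZ]
  have h1 : F ∘ Z =ᵐ[π] id := hF.ae_eq hπ hZs
  rw [Measure.map_congr h1, Measure.map_id]

theorem Inv.ae_mem [ProperSpace M] (hs0 : 0 < s) (hs1 : s < 1) (hG : Mono2 G) (hc : IsClosed G)
    {π : Measure (M × M)} (hπ : ∀ᵐ p ∂π, p ∈ G) {Z : M × M → M} (hZ : AEMeasurable Z π)
    (hZs : ∀ᵐ p ∂π, SP s p.1 p.2 (Z p)) : ∀ᵐ w ∂(π.map Z), w ∈ Sh s G := by
  have h1 : MeasurableSet {w | w ∈ Sh s G} := (isClosed_Sh hs0 hs1 hG hc).measurableSet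
  refine (ae_map_iff hZ h1).2 ?_
  filter_upwards [hπ, hZs] with p h1 h2
  exact ⟨p, h1, h2⟩

end meas

end

end Vale.Agent.P233.H719.CD3
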