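import Vale.Agent.P233.H416.GPos3
import Vale.Agent.P233.H719.CDLip

/-! P233, stage 3a (helper719): pairs at the maximal distance `π/√κ` are negligible for a plan
carried by a monotone set. -/

set_option linter.all false

open MeasureTheory Filter Topology Set Metric
open scoped ENNReal NNReal MeasureTheory

universe u

namespace Vale.Agent.P233.H719.CD3

variable {M : Type u} [MetricSpace M] {κ : ℝ} {G : Set (M × M)}

theorem anti_unique [CompleteSpace M] (hA : T.IsAlexandrov M κ) (hκ : 0 < κ)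
    (hd : ∀ x y : M, √κ * dist x y ≤ Real.pi) (hG : Mono2 G) {p q : M × M} (hp : p ∈ G)
    (hq : q ∈ G) (h1 : √κ * dist p.1 p.2 = Real.pi) (h2 : √κ * dist q.1 q.2 = Real.pi) :
    p = q := by
  have hk : 0 < √κ := Real.sqrt_pos.2 hκ
  have h3 := hG p hp q hq
  have h4 : √κ * dist p.1 q.2 ≤ Real.pi := hd _ _
  have h5 : √κ * dist q.1 p.2 ≤ Real.pi := hd _ _
  have h6 : (√κ * dist p.1 p.2) ^ 2 + (√κ * dist q.1 q.2) ^ 2
      ≤ (√κ * dist p.1 q.2) ^ 2 + (√κ * dist q.1 p.2) ^ 2 := by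
    have : 0 ≤ √κ ^ 2 * (dist p.1 q.2 ^ 2 + dist q.1 p.2 ^ 2
      - (dist p.1 p.2 ^ 2 + dist q.1 q.2 ^ 2)) := by
      have : 0 ≤ dist p.1 q.2 ^ 2 + dist q.1 p.2 ^ 2
        - (dist p.1 p.2 ^ 2 + dist q.1 q.2 ^ 2) := by linarith
      positivity
    nlinarith
  rw [h1, h2] at h6
  have n4 : 0 ≤ √κ * dist p.1 q.2 := by positivity
  have n5 : 0 ≤ √κ * dist q.1 p.2 := by positivity
  have h7 : √κ * dist p.1 q.2 = Real.pi := by
    by_contra hne
    have hlt : √κ * dist p.1 q.2 < Real.pi := lt_of_le_of_ne h4 hne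
    have := pow_lt_pow_left₀ hlt n4 two_ne_zero
    have := pow_le_pow_left₀ n5 h5 2
    linarith
  have h8 : √κ * dist q.1 p.2 = Real.pi := by
    by_contra hne
    have hlt : √κ * dist q.1 p.2 < Real.pi := lt_of_le_of_ne h5 hne
    have := pow_lt_pow_left₀ hlt n5 two_ne_zero
    have := pow_le_pow_left₀ n4 h4 2
    linarith
  have e1 := H416.perim hA hκ hd p.1 p.2 q.2
  have e2 := H416.perim hA hκ hd p.1 q.1 p.2
  have e3 : √κ * dist p.2 q.2 ≤ 0 := by
    rw [dist_comm q.2 p.1] at e1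
    have : √κ * (dist p.1 p.2 + dist p.2 q.2 + dist p.1 q.2)
      = √κ * dist p.1 p.2 + √κ * dist p.2 q.2 + √κ * dist p.1 q.2 := by ring
    linarith
  have e4 : √κ * dist p.1 q.1 ≤ 0 := by
    rw [dist_comm p.2 p.1] at e2
    have : √κ * (dist p.1 q.1 + dist q.1 p.2 + dist p.1 p.2)
      = √κ * dist p.1 q.1 + √κ * dist q.1 p.2 + √κ * dist p.1 p.2 := by ring
    linarith
  have e5 : dist p.2 q.2 ≤ 0 := by
    by_contra h; push Not at h
    have := mul_pos hk h
    linarith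
  have e6 : dist p.1 q.1 ≤ 0 := by
    by_contra h; push Not at h
    have := mul_pos hk h
    linarith
  exact Prod.ext (dist_le_zero.1 e6) (dist_le_zero.1 e5)

theorem ae_lt [CompleteSpace M] [MeasurableSpace M] [BorelSpace M]
    [SecondCountableTopology M] (hA : T.IsAlexandrov M κ)
    (hd : 0 < κ → ∀ x y : M, √κ * dist x y ≤ Real.pi) (hG : Mono2 G) {π : Measure (M × M)}
    (hπ : ∀ᵐ p ∂π, p ∈ G) {d : ℝ} (hd0 : 0 < d) (h0 : π.map Prod.fst ≪ (μH[d] : Measure M)) :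
    ∀ᵐ p ∂π, √κ * dist p.1 p.2 < Real.pi := by
  rcases le_or_gt κ 0 with hκ | hκ
  · refine Eventually.of_forall fun p => ?_
    rw [Real.sqrt_eq_zero'.2 hκ, zero_mul]
    exact Real.pi_pos
  by_cases hex : ∃ p0 ∈ G, √κ * dist p0.1 p0.2 = Real.pi
  · obtain ⟨p0, hp0, hp1⟩ := hex
    haveI := Measure.noAtoms_hausdorff M hd0
    have h1 : (π.map Prod.fst) {p0.1} = 0 := h0 (measure_singleton _)
    rw [Measure.map_apply measurable_fst (measurableSet_singleton _)] at h1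
    have h2 : ∀ᵐ p ∂π, p ∉ Prod.fst ⁻¹' {p0.1} := by
      rw [ae_iff]
      simp only [not_not]
      exact h1
    filter_upwards [hπ, h2] with p hp hp2
    refine lt_of_le_of_ne (hd hκ _ _) fun h3 => hp2 ?_
    rw [anti_unique hA hκ (hd hκ) hG hp hp0 h3 hp1]
    rfl
  · push Not at hex
    filter_upwards [hπ] with p hp
    exact lt_of_le_of_ne (hd hκ _ _) (hex p hp)

end Vale.Agent.P233.H719.CD3
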