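import Vale.Agent.P233.H326.If3aDef
import Vale.Agent.P233.H368.TauCD
import Vale.Agent.P233.H671.Rad
import Vale.Agent.P233.H719.CDAnti

/-! P233, stage 3a (helper719): blocks E1 (the pointwise inequality in terms of `tauCoeff`) and E2
(antipodal pairs are negligible). -/

set_option linter.all false

open MeasureTheory Filter Topology Set Metric
open scoped ENNReal NNReal MeasureTheory

universe u

namespace Vale.Agent.P233.H719.CD3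

open Vale.Agent.P233.RG Vale.Agent.P233.CDc

theorem sq_lt {κ θ : ℝ} (hθ : 0 < θ) (h : √κ * θ < Real.pi) : κ * θ ^ 2 < Real.pi ^ 2 := by
  rcases le_or_gt κ 0 with hκ | hκ
  · have h1 : κ * θ ^ 2 ≤ 0 := mul_nonpos_of_nonpos_of_nonneg hκ (by positivity)
    have h2 : 0 < Real.pi ^ 2 := by positivity
    linarith
  · have h1 : 0 ≤ √κ * θ := by positivity
    have h2 := pow_lt_pow_left₀ h h1 two_ne_zero
    rw [mul_pow, Real.sq_sqrt hκ.le] at h2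
    exact h2

theorem sn_eq_snk (κ r : ℝ) : sn κ r = H368.Tau.snk κ r := rfl

theorem ratio_nonneg {κ t θ : ℝ} (ht0 : 0 ≤ t) (ht1 : t ≤ 1) (hθ : 0 < θ)
    (h : √κ * θ < Real.pi) : 0 ≤ sn κ (t * θ) / sn κ θ := by
  rw [sn_eq_snk, sn_eq_snk, ← H368.Tau.sg_eq_snk ht0 hθ, H368.Tau.sg_eq_exp ht0 ht1 (sq_lt hθ h)]
  positivity

theorem tn_nonneg {κ : ℝ} {n : ℕ} {t θ : ℝ} (ht0 : 0 ≤ t) (ht1 : t ≤ 1) (hθ : 0 < θ)
    (h : √κ * θ < Real.pi) : 0 ≤ tn κ n t θ :=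
  mul_nonneg ht0 (pow_nonneg (ratio_nonneg ht0 ht1 hθ h) _)

theorem tau_eq_tn {κ : ℝ} {n : ℕ} {t θ : ℝ} (hn : 2 ≤ n) (ht0 : 0 ≤ t) (ht1 : t ≤ 1)
    (hθ : 0 < θ) (h : √κ * θ < Real.pi) :
    P242.tauCoeff (((n : ℝ) - 1) * κ) n t θ = ENNReal.ofReal (tn κ n t θ ^ ((1 : ℝ) / n)) := by
  have hn1 : (1 : ℝ) < n := by exact_mod_cast (by omega : 1 < n)
  have hn0 : (0 : ℝ) < n := by linarith
  have hlt : ((n : ℝ) - 1) * κ * θ ^ 2 < ((n : ℝ) - 1) * Real.pi ^ 2 := by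
    rw [mul_assoc]
    exact mul_lt_mul_of_pos_left (sq_lt hθ h) (by linarith)
  rw [H368.Tau.tau_eq hn1 hθ.le ht0 ht1 hlt, H368.Tau.tauR_eq hn1 ht0 ht1 hlt]
  have e1 : ((n : ℝ) - 1) * κ * θ ^ 2 / ((n : ℝ) - 1) = κ * θ ^ 2 := by
    have : (n : ℝ) - 1 ≠ 0 := by linarith
    field_simp
  rw [e1, H368.Tau.sg_eq_snk ht0 hθ, ← sn_eq_snk, ← sn_eq_snk, tn]
  congr 1
  have hx := ratio_nonneg ht0 ht1 hθ h
  rw [Real.mul_rpow ht0 (pow_nonneg hx _), ← Real.rpow_natCast, ← Real.rpow_mul hx]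
  congr 2
  rw [Nat.cast_sub (by omega : 1 ≤ n)]
  push_cast
  field_simp

theorem blk_E1 : Blk_E1 := by
  intro κ n s θ r₀ r₁ rs hn hs0 hs1 hθ hlt h0 h0' h1 h1' hs hineq
  have hn0 : (0 : ℝ) < n := by exact_mod_cast (by omega : 0 < n)
  have hneg : (-1 / (n : ℝ)) < 0 := div_neg_of_neg_of_pos (by norm_num) hn0
  rcases eq_or_ne rs 0 with hrs | hrs
  · rw [hrs, ENNReal.zero_rpow_of_neg hneg]
    exact le_top
  rw [tau_eq_tn hn (by linarith) (by linarith) hθ hlt, tau_eq_tn hn hs0.le hs1.le hθ hlt]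
  set A := tn κ n (1 - s) θ with hA
  set B := tn κ n s θ with hB
  have hA0 : 0 ≤ A := tn_nonneg (by linarith) (by linarith) hθ hlt
  have hB0 : 0 ≤ B := tn_nonneg hs0.le hs1.le hθ hlt
  have x0 : 0 < r₀.toReal := ENNReal.toReal_pos h0.ne' h0'.ne
  have x1 : 0 < r₁.toReal := ENNReal.toReal_pos h1.ne' h1'.ne
  have xs : 0 < rs.toReal := ENNReal.toReal_pos hrs hs.ne
  set a := r₀.toReal with ha
  set b := r₁.toReal with hb
  set c := rs.toReal with hc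
  rw [ENNReal.toReal_div, ENNReal.toReal_div, Real.mul_rpow hA0 (by positivity),
    Real.mul_rpow hB0 (by positivity), Real.div_rpow xs.le x0.le, Real.div_rpow xs.le x1.le] at hineq
  rw [← ENNReal.ofReal_toReal h0'.ne, ← ENNReal.ofReal_toReal h1'.ne,
    ← ENNReal.ofReal_toReal hs.ne, ← ha, ← hb, ← hc, ENNReal.ofReal_rpow_of_pos x0,
    ENNReal.ofReal_rpow_of_pos x1, ENNReal.ofReal_rpow_of_pos xs,
    ← ENNReal.ofReal_mul (Real.rpow_nonneg hA0 _), ← ENNReal.ofReal_mul (Real.rpow_nonneg hB0 _),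
    ← ENNReal.ofReal_add (by positivity) (by positivity)]
  apply ENNReal.ofReal_le_ofReal
  have e : (-1 / (n : ℝ)) = -(1 / (n : ℝ)) := by ring
  rw [e, Real.rpow_neg x0.le, Real.rpow_neg x1.le, Real.rpow_neg xs.le]
  have hcp : 0 < c ^ (1 / (n : ℝ)) := Real.rpow_pos_of_pos xs _
  rw [← one_div (c ^ (1 / (n : ℝ))), le_div_iff₀ hcp]
  calc (A ^ (1 / (n : ℝ)) * (a ^ (1 / (n : ℝ)))⁻¹ + B ^ (1 / (n : ℝ)) * (b ^ (1 / (n : ℝ)))⁻¹)
        * c ^ (1 / (n : ℝ))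
      = A ^ (1 / (n : ℝ)) * (c ^ (1 / (n : ℝ)) / a ^ (1 / (n : ℝ)))
        + B ^ (1 / (n : ℝ)) * (c ^ (1 / (n : ℝ)) / b ^ (1 / (n : ℝ))) := by ring
    _ ≤ 1 := hineq

theorem blk_E2 : Blk_E2.{u} := by
  intro M _ _ _ _ _ n κ G q hn hA hG hq hqG h0
  have hn0 : (0 : ℝ) < n := by exact_mod_cast (by omega : 0 < n)
  have hAl : Alex M n κ := ⟨hn, hA.1, hA.2⟩
  have hπ : ∀ᵐ p ∂q, p ∈ G := by
    rw [ae_iff]
    exact hqG
  have h := ae_lt hA.1 (fun hk x y => Vale.Agent.P233.RG.G2.diam_le hAl hk x y) hG hπ hn0 h0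
  rw [ae_iff] at h
  simp only [not_lt] at h
  exact h

end Vale.Agent.P233.H719.CD3
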