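import Vale.Agent.P233.RA.Defs
import Vale.Agent.P233.Gig.IfD

/-! P233, RCDA, blocks L0 (contraction maps), L1 (first variation, lip = slope), L3
(Sobolev-to-Lipschitz): definitions and the statements of the sub-blocks (helper719). -/

set_option linter.all false

open MeasureTheory Filter Topology Set
open scoped ENNReal NNReal MeasureTheory

universe u

namespace Vale.Agent.P233.RA

section metric

variable {M : Type u} [MetricSpace M]

/-- `z` lies between `p` and `x`, and `|pz| = lam |px|` -/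
def Rat (p x z : M) (lam : ℝ) : Prop :=
  dist p z = lam * dist p x ∧ dist z x = (1 - lam) * dist p x

variable (M) in
/-- The inverse relation of the radial contraction with ratio `lam` has Lipschitz constant
`C/lam` on balls of radius `R`. -/
def InvLip : Prop := ∀ R > 0, ∃ C > 0, ∀ p x y z w : M, ∀ lam ∈ Ioc (0 : ℝ) 1, dist p x < R →
  dist p y < R → Rat p x z lam → Rat p y w lam → lam * dist x y ≤ C * dist z w

variable (M) in
/-- For ratios close to `1` its Lipschitz constant at small distances is close to `1`. -/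
def InvSharp : Prop := ∀ R > 0, ∀ ε > 0, ∃ lam₀ ∈ Ioo (0 : ℝ) 1, ∀ lam ∈ Ioo lam₀ 1, ∃ η > 0,
  ∀ p x y z w : M, dist p x < R → dist p y < R → Rat p x z lam → Rat p y w lam →
    dist z w < η → dist x y ≤ (1 + ε) * dist z w

end metric

section

variable {M : Type u} [MetricSpace M] [MeasurableSpace M] [BorelSpace M]

/-- Input of L0, L1, L3 (from G1, G5, G11). -/
structure AH (m : Measure M) (n : ℕ) : Prop where
  n_pos : 0 < n
  haus : m = μH[(n : ℝ)]
  full : m.IsOpenPosMeasure
  fin : ∀ (x : M) (r : ℝ), m (Metric.ball x r) < ∞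
  geo : Gig.Geo M
  inv : InvLip M
  sharp : InvSharp M

/-- `quadratic` -/
def Quad (m : Measure M) : Prop := ∀ f ∈ (sob m).W, ∀ g ∈ (sob m).W,
    ∫ x, (slope (f + g) ^ 2) x ∂m + ∫ x, (slope (f - g) ^ 2) x ∂m
      = 2 * ∫ x, (slope f ^ 2) x ∂m + 2 * ∫ x, (slope g ^ 2) x ∂m

/-- `sobolev_to_lipschitz` -/
def S2L (m : Measure M) : Prop :=
  ∀ f ∈ (sob m).W, slope f ≤ 1 → ∃ u : M → ℝ, LipschitzWith 1 u ∧ f =ᵐ[m] u

/-- the minimal slope of a Lipschitz function is its local Lipschitz constant -/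
def SlopeEq (m : Measure M) : Prop :=
  ∀ (u : M → ℝ) (L : ℝ≥0), LipschitzWith L u → BSup u →
    ∀ᵐ x ∂m, slope (cl m u) x = (lipAt u x).toReal

/-- Almost every point lies in the interior of a geodesic from `p`. -/
def AeInt (m : Measure M) : Prop := ∀ p : M, ∀ᵐ x ∂m, ∃ y : M, ∃ lam ∈ Ioo (0 : ℝ) 1, Rat p y x lam

end

/-- RL1: the metric input. `hper` is the output of G-pos for `κ > 0`, `n ≥ 2`. -/
def Blk_RL1 : Prop := ∀ (M : Type u) [MetricSpace M] (κ : ℝ), T.IsAlexandrov M κ →
  (0 < κ → ∀ p x y : M, √κ * (dist p x + dist p y + dist x y) ≤ 2 * Real.pi) →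
    InvLip M ∧ InvSharp M

/-- RL2: Bishop-Gromov up to constants, proper, doubling, Ahlfors regular, geodesics extend a.e. -/
def Blk_RL2 : Prop := ∀ (M : Type u) [MetricSpace M] [CompleteSpace M] [SecondCountableTopology M]
  [MeasurableSpace M] [BorelSpace M] (m : Measure M) (n : ℕ), AH m n →
    PD.BG m n ∧ PD.Geo m n ∧ AeInt m

/-- RL3: contraction maps. -/
def Blk_RL3 : Prop := ∀ (M : Type u) [MetricSpace M] [CompleteSpace M] [SecondCountableTopology M]
  [MeasurableSpace M] [BorelSpace M] (m : Measure M) (n : ℕ), AH m n → Quad m → PD.Geo m n →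
    AeInt m → PD.HasContr m n

/-- RL4 (= L3): Sobolev-to-Lipschitz. -/
def Blk_RL4 : Prop := ∀ (M : Type u) [MetricSpace M] [CompleteSpace M] [SecondCountableTopology M]
  [MeasurableSpace M] [BorelSpace M] (m : Measure M) (n : ℕ), AH m n → Quad m → PD.Geo m n →
    PD.HasContr m n → S2L m

/-- RL5 (= L1): `|∇d_p| = 1`, slope = lip, first variation. -/
def Blk_RL5 : Prop := ∀ (M : Type u) [MetricSpace M] [CompleteSpace M] [SecondCountableTopology M]
  [MeasurableSpace M] [BorelSpace M] (m : Measure M) (n : ℕ), AH m n → Quad m → PD.Geo m n →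
    PD.HasContr m n → S2L m → PD.UnitGrad m ∧ PD.LipSlope m ∧ PD.FirstV m ∧ SlopeEq m

/-- Output of L0, L1, L3. -/
structure LOut {M : Type u} [MetricSpace M] [MeasurableSpace M] [BorelSpace M] (m : Measure M)
    (n : ℕ) : Prop where
  bg : PD.BG m n
  geo : PD.Geo m n
  aeint : AeInt m
  contr : PD.HasContr m n
  s2l : S2L m
  unit : PD.UnitGrad m
  lip : PD.LipSlope m
  fv : PD.FirstV m
  slope_eq : SlopeEq m

theorem lout (h2 : Blk_RL2.{u}) (h3 : Blk_RL3.{u}) (h4 : Blk_RL4.{u}) (h5 : Blk_RL5.{u})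
    (M : Type u) [MetricSpace M] [CompleteSpace M] [SecondCountableTopology M]
    [MeasurableSpace M] [BorelSpace M] (m : Measure M) (n : ℕ) (h : AH m n) (hq : Quad m) :
    LOut m n := by
  obtain ⟨a1, a2, a3⟩ := h2 M m n h
  have a4 := h3 M m n h hq a2 a3
  have a5 := h4 M m n h hq a2 a4
  obtain ⟨a6, a7, a8, a9⟩ := h5 M m n h hq a2 a4 a5
  exact ⟨a1, a2, a3, a4, a5, a6, a7, a8, a9⟩

end Vale.Agent.P233.RA
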