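import Vale.Agent.P233.H719.RAContr
import Vale.Agent.P233.H545.RL1
import Vale.Agent.P233.H671.Rad

/-! P233, RCDA, block `RG.Blk_Contr` (for `κ > 0` modulo P3: `IsAlexandrov M κ`, `diam ≤ π/√κ` ⇒
`IsAlexandrov M 0`) (helper719). -/

set_option linter.all false

open MeasureTheory Filter Topology Set
open scoped ENNReal NNReal MeasureTheory

universe u

namespace Vale.Agent.P233.H719

theorem ah_of (h3 : RG.G2.P3.{u}) {M : Type u} [MetricSpace M] [CompleteSpace M]
    [SecondCountableTopology M] [MeasurableSpace M] [BorelSpace M] {n : ℕ} {κ : ℝ}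
    (hA : RG.Alex M n κ) (hG : RG.GeoN (μH[n] : Measure M) n) :
    RA.AH (μH[n] : Measure M) n := by
  have hI : RA.InvLip M ∧ RA.InvSharp M := by
    rcases le_or_gt κ 0 with hk | hk
    · exact H616.RL1.inv_of_nonpos hA.alex hk
    · exact H616.RL1.inv_of_nonpos (RG.G2.alex_zero h3 hA hk) le_rfl
  exact ⟨lt_of_lt_of_le two_pos hA.two_le, rfl, hG.full, hG.fin, hA.alex.geodesic, hI.1, hI.2⟩

/-- **Block Contr**, modulo P3. -/
theorem blk_contr_of (h3 : RG.G2.P3.{u}) : RG.Blk_Contr.{u} := by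
  intro M _ _ _ _ _ n κ hA _ _ hG
  have hAH := ah_of h3 hA hG
  have := hG.geo.proper
  have : SigmaFinite (μH[n] : Measure M) := sigmaFinite_of_ball hG.fin
  exact hasContr_of_AH hAH (aeInt_of_AH hAH)

end Vale.Agent.P233.H719
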