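import Vale.Agent.P233.H719.C5Lim
import Vale.Agent.P233.H183.Sec

/-! P233, part C: block C5 (second derivative along the flow); limit half helper719, static half
helper183. -/

set_option linter.all false

open MeasureTheory Filter Topology Set
open scoped ENNReal NNReal InnerProductSpace

universe u

namespace Vale.Agent.P233.H719

open Vale.Agent.P233.PA (en OutA PotLim)
open Vale.Agent.P233.PC

/-- **Block C5.** -/
theorem blk_C5 : PC.Blk_C5.{u} := by
  intro M _ _ _ _ _ m K N κ P p s₀ C₀ hyp E _ _ _ Gr V D HO e hE u φ hA hB U hU φ₀ L B R₀ c ρ R Y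
    hP hLO hLim hM hF hSt
  exact H183.second_of_int hyp hE.stat.grad hE.stat.gmeas hE.stat.hess hF
    (c5Int hyp hA hE.stat hB hU hLim hM hSt)

end Vale.Agent.P233.H719
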