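import Vale.Agent.P233.H719.TU1
import Vale.Agent.P233.H715.GradW

/-! P233, part C: limits that are uniform in time, from `OutA`, `LevB`, `LimOf`, `Strong`. -/

set_option linter.all false

open MeasureTheory Filter Topology Set
open scoped ENNReal NNReal InnerProductSpace

universe u

namespace Vale.Agent.P233.H719

open Vale.Agent.P233.PA (en OutA PotLim)
open Vale.Agent.P233.PC

theorem en_pos (n : ℕ) : 0 < en n := by unfold en; positivity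

theorem en_le_one (n : ℕ) : en n ≤ 1 := by
  unfold en
  exact inv_le_one_of_one_le₀ (by have := Nat.cast_nonneg (α := ℝ) n; linarith)

theorem en_lim : Tendsto en atTop (𝓝 0) := by
  have h := tendsto_one_div_add_atTop_nhds_zero_nat (𝕜 := ℝ)
  simp only [one_div] at h
  exact h

section metric

variable {M : Type u} [MetricSpace M] [SecondCountableTopology M] [MeasurableSpace M]
  [BorelSpace M] {m : Measure M} {K N : ℝ} {P : ℝ → (M →ₘ[m] ℝ) → (M →ₘ[m] ℝ)} {p : M} {s₀ C₀ : ℝ}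

theorem std_gamma (h : Std m K N) : IsGamma (sob m) :=
  isGamma_sob h.hfin h.rcd.quadratic h.rcd.sobolev_to_lipschitz

theorem std_bei (h : Std m K N) : (sob m).BEi K := (std_gamma h).bei h.hN h.rcd.bochner

theorem testI_zero (h : Std m K N) : (0 : M →ₘ[m] ℝ) ∈ (sob m).TestI :=
  (std_gamma h).testI_zero (std_bei h)

variable {u : ℕ → ℝ → M →ₘ[m] ℝ} {φ : (M →ₘ[m] ℝ) → ℕ → ℝ → M →ₘ[m] ℝ} {l : M →ₘ[m] ℝ}

/-- the pairs -/
theorem pair_of (hA : OutA m K N P p s₀ C₀ u φ) (hl : l ∈ (sob m).TestI) :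
    ∀ᶠ n in atTop, Pair (sob m) P (en n) 0 1 (φ l n) (u n) := by
  filter_upwards [hA.fam] with n hn using (hn l hl).pair

/-- a bound of a bounded class from above, in the form needed for `OutA.levF` -/
theorem exists_R (hC : IsGamma (sob m)) (hl : l ∈ (sob m).TestI) :
    ∃ R : ℝ, 1 ≤ R ∧ ∀ᵐ x ∂m, l x ≤ Real.log R := by
  obtain ⟨k, hk⟩ := mem_top_iff.1 (hC.test_A hl.1).2
  refine ⟨Real.exp |k|, Real.one_le_exp (abs_nonneg k), ?_⟩
  filter_upwards [hk] with x hx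
  rw [Real.log_exp]
  exact (le_abs_self _).trans (hx.trans (le_abs_self _))

/-- the density bound on `[s,1]`, uniform in the level -/
theorem dens_bd (hyp : CHyp M m K N P p s₀ C₀) (hA : OutA m K N P p s₀ C₀ u φ)
    (hl : l ∈ (sob m).TestI) {s : ℝ} (hs : 0 < s) : ∃ B : ℝ, 0 ≤ B ∧ ∀ᶠ n in atTop,
      ∀ t ∈ Icc s 1, ∀ᵐ x ∂m, rn u φ l n t x ≤ B := by
  obtain ⟨R, hR, hlR⟩ := exists_R (std_gamma hyp.std) hl
  obtain ⟨D, D', hD⟩ := hA.levF l hl R hR hlR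
  refine ⟨s ^ (-N) * Real.exp ((1 + |K|) * |K| * C₀) * R, by
    have := Real.rpow_nonneg hs.le (-N); have : 0 ≤ R := by linarith
    positivity, ?_⟩
  filter_upwards [hD] with n hn t ht
  have ht0 : t ∈ Ioc (0 : ℝ) 1 := ⟨hs.trans_le ht.1, ht.2⟩
  filter_upwards [hn.dens t ht0] with x hx
  refine hx.trans ?_
  have hC0 := hyp.hC0.le
  have e1 : t ^ (-N) ≤ s ^ (-N) := Real.rpow_le_rpow_of_nonpos hs ht.1 (by
    have := hyp.std.hN; linarith)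
  have e2 : PA.c1 K (en n) C₀ * (1 - t) ≤ (1 + |K|) * |K| * C₀ := by
    have h1 : PA.c1 K (en n) C₀ ≤ (1 + |K|) * |K| * C₀ := by
      unfold PA.c1
      have hK := abs_nonneg K
      have : en n * |K| ≤ |K| := by
        have := en_le_one n
        nlinarith
      gcongr
    have h0 : 0 ≤ (1 + |K|) * |K| * C₀ := by have := abs_nonneg K; positivity
    have h2 : 0 ≤ 1 - t := by linarith [ht.2]
    have h3 : 1 - t ≤ 1 := by linarith [ht0.1]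
    calc PA.c1 K (en n) C₀ * (1 - t) ≤ (1 + |K|) * |K| * C₀ * (1 - t) :=
          mul_le_mul_of_nonneg_right h1 h2
      _ ≤ (1 + |K|) * |K| * C₀ * 1 := mul_le_mul_of_nonneg_left h3 h0
      _ = _ := mul_one _
  have hR0 : 0 ≤ R := by linarith
  have hs0 := Real.rpow_nonneg hs.le (-N)
  exact mul_le_mul_of_nonneg_right (mul_le_mul e1 (Real.exp_le_exp.2 e2) (Real.exp_pos _).le hs0) hR0

/-- `ρ - 1` is bounded in `L²` on `[s,1]` -/
theorem rn_L2 (hyp : CHyp M m K N P p s₀ C₀) (hA : OutA m K N P p s₀ C₀ u φ)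
    (hl : l ∈ (sob m).TestI) {s : ℝ} (hs : 0 < s) (hs1 : s ≤ 1) : ∃ S : ℝ, 0 ≤ S ∧ ∀ᶠ n in atTop,
      ∀ t ∈ Icc s 1, MemLp (rn u φ l n t - 1 : M →ₘ[m] ℝ) 2 m ∧
        I ((rn u φ l n t - 1) ^ 2) ≤ S ^ 2 := by
  have hC := std_gamma hyp.std
  obtain ⟨R, hR, hlR⟩ := exists_R hC hl
  obtain ⟨D, D', hD⟩ := hA.levF l hl R hR hlR
  refine ⟨√|D' s|, Real.sqrt_nonneg _, ?_⟩
  filter_upwards [hD, pair_of hA hl] with n hn hp t ht
  have hF := TT.FG.of_pair hp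
  have ht' : t ∈ Icc (0 : ℝ) 1 := ⟨hs.le.trans ht.1, ht.2⟩
  constructor
  · have e : rn u φ l n t - 1 = TT.ff (en n) (φ l n) t * (TT.gg (en n) (u n) t - 1)
        + (TT.ff (en n) (φ l n) t - 1) := by
      unfold rn
      rw [rh_eq_fg]; ring
    rw [e]
    exact mem_add (mem_mul_top (hF.top_f hC ht') (hF.g2 hC ht')) (hF.f2 hC ht')
  · rw [Real.sq_sqrt (abs_nonneg _)]
    exact (hn.rho2 s ⟨hs, hs1⟩ t ht).trans (le_abs_self _)

/-- Lipschitz bound in time, uniform in the level -/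
theorem rn_lip (hyp : CHyp M m K N P p s₀ C₀) (hA : OutA m K N P p s₀ C₀ u φ)
    (hl : l ∈ (sob m).TestI) {s : ℝ} (hs : 0 < s) (hs1 : s ≤ 1) {h : M →ₘ[m] ℝ}
    (hh : h ∈ (sob m).Test) : ∃ Λ : ℝ, ∀ᶠ n in atTop, ∀ x ∈ Icc s 1, ∀ y ∈ Icc s 1,
      |I (h * (rn u φ l n x - 1)) - I (h * (rn u φ l n y - 1))| ≤ Λ * |x - y| := by
  have hC := std_gamma hyp.std
  obtain ⟨B, hB0, hB⟩ := dens_bd hyp hA hl hs
  obtain ⟨S, hS0, hS⟩ := rn_L2 hyp hA hl hs hs1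
  obtain ⟨D, D', hU⟩ := hA.levU
  set En := √|D' s| with hEn
  have hEn0 : 0 ≤ En := Real.sqrt_nonneg _
  refine ⟨B * (En * √(I ((sob m).Γ h h))) + (S * √(I ((sob m).lap h ^ 2))), ?_⟩
  filter_upwards [hB, hS, hU, pair_of hA hl] with n h1 h2 h3 hp x hx y hy
  have key := rh_lip hC (std_bei hyp.std) hyp.heat hp hh hs.le le_rfl hB0 hS0 hEn0 h1
    (fun t ht => (h2 t ht).2) (fun t ht => by
      rw [hEn, Real.sq_sqrt (abs_nonneg _)]
      exact (h3.en s ⟨hs, hs1⟩ t ht).trans (le_abs_self _)) x hx y hy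
  refine key.trans (mul_le_mul_of_nonneg_right (add_le_add le_rfl ?_) (abs_nonneg _))
  have h5 : 0 ≤ S * √(I ((sob m).lap h ^ 2)) := mul_nonneg hS0 (Real.sqrt_nonneg _)
  have := en_le_one n
  nlinarith

/-- test functions are dense in `L²` -/
theorem test_dense_L2 (hyp : Std m K N) {b : M →ₘ[m] ℝ} (hb : MemLp b 2 m) {δ : ℝ} (hδ : 0 < δ) :
    ∃ h ∈ (sob m).TestI, MemLp h 2 m ∧ I ((b - h) ^ 2) < δ := by
  haveI : SigmaFinite m := sigmaFinite_of_ball hyp.hfin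
  have hC := std_gamma hyp
  obtain ⟨g, hg, hg2⟩ := hC.dense_L2 b hb (δ / 4) (by positivity)
  obtain ⟨h, hh, hh2⟩ := hC.testI_dense (std_bei hyp) hg (ε := δ / 4) (by positivity)
  have g2 := hC.memLp _ hg
  have hW := (hC.test_A hh.1).1
  have h2 := hC.memLp _ hW
  refine ⟨h, hh, h2, ?_⟩
  have e1 : I ((h - g) ^ 2) ≤ (sob m).nrm2 (h - g) := hC.toIsDir.I_sq_le_nrm2 (hC.sub_mem hW hg)
  have m1 : MemLp ((2 : ℝ) • (b - g) ^ 2 + (2 : ℝ) • (h - g) ^ 2 : M →ₘ[m] ℝ) 1 m :=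
    mem_add (mem_smul _ (mem_sq (mem_sub hb g2))) (mem_smul _ (mem_sq (mem_sub h2 g2)))
  have e2 : I ((b - h) ^ 2) ≤ 2 * I ((b - g) ^ 2) + 2 * I ((h - g) ^ 2) := by
    rw [← I_smul, ← I_smul, ← I_add (mem_smul _ (mem_sq (mem_sub hb g2)))
      (mem_smul _ (mem_sq (mem_sub h2 g2)))]
    refine I_mono (mem_sq (mem_sub hb h2)) m1 (le_iff_ae.2 ?_)
    filter_upwards [sq_ae (b - h), sub_ae b h, add_ae ((2 : ℝ) • (b - g) ^ 2) ((2 : ℝ) • (h - g) ^ 2),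
      smul_ae ((b - g) ^ 2) 2, smul_ae ((h - g) ^ 2) 2, sq_ae (b - g), sq_ae (h - g), sub_ae b g,
      sub_ae h g] with x a1 a2 a3 a4 a5 a6 a7 a8 a9
    rw [a1, a2, a3, a4, a5, a6, a7, a8, a9]
    nlinarith [sq_nonneg (b x - g x + (h x - g x))]
  linarith

/-- (T): the families `t ↦ ∫ b (ρ_n(t) - 1)`, `b ∈ L²`, are equicontinuous on `[s,1]`. -/
theorem rn_equi (hyp : CHyp M m K N P p s₀ C₀) (hA : OutA m K N P p s₀ C₀ u φ)
    (hl : l ∈ (sob m).TestI) {s : ℝ} (hs : 0 < s) (hs1 : s ≤ 1) {b : M →ₘ[m] ℝ}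
    (hb : MemLp b 2 m) {δ : ℝ} (hδ : 0 < δ) : ∃ η > 0, ∀ᶠ n in atTop, ∀ x ∈ Icc s 1, ∀ y ∈ Icc s 1,
      |x - y| < η → |I (b * (rn u φ l n x - 1)) - I (b * (rn u φ l n y - 1))| ≤ δ := by
  obtain ⟨S, hS0, hS⟩ := rn_L2 hyp hA hl hs hs1
  set δ' : ℝ := (δ / (4 * (S + 1))) with hδ'
  have hδ0 : 0 < δ' := by positivity
  obtain ⟨h, hh, hh2, hbh⟩ := test_dense_L2 hyp.std hb (δ := δ' ^ 2) (by positivity)
  obtain ⟨Λ, hΛ⟩ := rn_lip hyp hA hl hs hs1 hh.1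
  refine ⟨δ / (4 * (|Λ| + 1)), by positivity, ?_⟩
  filter_upwards [hS, hΛ] with n a1 a2 x hx y hy hxy
  obtain ⟨r1, r1'⟩ := a1 x hx
  obtain ⟨r2, r2'⟩ := a1 y hy
  have m2 := mem_sub hb hh2
  have sq : ∀ {Y : M →ₘ[m] ℝ}, MemLp Y 2 m → I (Y ^ 2) ≤ S ^ 2 → |I ((b - h) * Y)| ≤ δ' * S := by
    intro Y hY h2
    refine (I_abs_le m2 hY).trans ?_
    have e1 : √(I ((b - h) ^ 2)) ≤ δ' := by
      rw [Real.sqrt_le_left hδ0.le]; exact hbh.le
    have e2 : √(I (Y ^ 2)) ≤ S := by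
      rw [Real.sqrt_le_left hS0]; exact h2
    exact mul_le_mul e1 e2 (Real.sqrt_nonneg _) hδ0.le
  have k2 := sq r1 r1'
  have k3 := sq r2 r2'
  have k4 := a2 x hx y hy
  have e : I (b * (rn u φ l n x - 1)) - I (b * (rn u φ l n y - 1))
      = I ((b - h) * (rn u φ l n x - 1)) - I ((b - h) * (rn u φ l n y - 1))
        + (I (h * (rn u φ l n x - 1)) - I (h * (rn u φ l n y - 1))) := by
    rw [sub_mul, sub_mul, I_sub (mem_mul_22 hb r1) (mem_mul_22 hh2 r1),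
      I_sub (mem_mul_22 hb r2) (mem_mul_22 hh2 r2)]
    ring
  have k5 : |I (h * (rn u φ l n x - 1)) - I (h * (rn u φ l n y - 1))| ≤ δ / 4 := by
    refine k4.trans ?_
    calc Λ * |x - y| ≤ |Λ| * |x - y| := mul_le_mul_of_nonneg_right (le_abs_self _) (abs_nonneg _)
      _ ≤ |Λ| * (δ / (4 * (|Λ| + 1))) := mul_le_mul_of_nonneg_left hxy.le (abs_nonneg _)
      _ ≤ (|Λ| + 1) * (δ / (4 * (|Λ| + 1))) :=
          mul_le_mul_of_nonneg_right (by linarith) (by positivity)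
      _ = δ / 4 := by
          have : |Λ| + 1 ≠ 0 := by positivity
          field_simp
  have k6 : δ' * S ≤ δ / 4 := by
    calc δ' * S ≤ δ' * (S + 1) := mul_le_mul_of_nonneg_left (by linarith) hδ0.le
      _ = δ / 4 := by
          rw [hδ']
          have : S + 1 ≠ 0 := by positivity
          field_simp
  rw [e]
  have t1 := abs_add_le (I ((b - h) * (rn u φ l n x - 1)) - I ((b - h) * (rn u φ l n y - 1)))
    (I (h * (rn u φ l n x - 1)) - I (h * (rn u φ l n y - 1)))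
  have t2 := abs_sub (I ((b - h) * (rn u φ l n x - 1))) (I ((b - h) * (rn u φ l n y - 1)))
  linarith

/-- (TU4), abstract limit: uniform convergence on `[s,1]` of `∫ b_t ρ_n(t)`. -/
theorem tu4 (hyp : CHyp M m K N P p s₀ C₀) (hA : OutA m K N P p s₀ C₀ u φ)
    (hl : l ∈ (sob m).TestI) {s : ℝ} (hs : 0 < s) (hs1 : s ≤ 1) {U : Filter ℕ} [U.NeBot]
    (hU : U ≤ atTop) {b : ℝ → M →ₘ[m] ℝ} (hb1 : ∀ t ∈ Icc s 1, MemLp (b t) 1 m)
    (hb2 : ∀ t ∈ Icc s 1, MemLp (b t) 2 m)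
    (hbc : ∀ t ∈ Icc s 1, Tendsto (fun τ => I ((b τ - b t) ^ 2)) (𝓝[Icc s 1] t) (𝓝 0))
    {G : ℝ → ℝ} (hlim : ∀ t ∈ Icc s 1, Tendsto (fun n => I (b t * rn u φ l n t)) U (𝓝 (G t))) :
    ContinuousOn (fun t => G t - I (b t)) (Icc s 1) ∧
    ∀ δ > 0, ∀ᶠ n in U, ∀ t ∈ Icc s 1, |I (b t * rn u φ l n t) - G t| ≤ δ := by
  obtain ⟨S, hS0, hS⟩ := rn_L2 hyp hA hl hs hs1
  have e : ∀ᶠ n in U, ∀ t ∈ Icc s 1,
      I (b t * rn u φ l n t) = I (b t * (rn u φ l n t - 1)) + I (b t) := by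
    filter_upwards [hU hS] with n hn t ht
    rw [← I_add (mem_mul_22 (hb2 t ht) (hn t ht).1) (hb1 t ht)]
    congr 1; ring
  have key := unif_lim (U := U) (s := s) (T := 1) hS0 (r := fun n t => rn u φ l n t - 1) (hU hS)
    (Dn := (sob m).TestI) (fun b hb δ hδ => test_dense_L2 hyp.std hb hδ)
    (fun h hh => by
      obtain ⟨Λ, hΛ⟩ := rn_lip hyp hA hl hs hs1 hh.1
      exact ⟨Λ, hU hΛ⟩) hb2 hbc (G := fun t => G t - I (b t)) (fun t ht => by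
      refine ((hlim t ht).sub_const (I (b t))).congr' ?_
      filter_upwards [e] with n hn
      rw [hn t ht]; ring)
  refine ⟨key.1, fun δ hδ => ?_⟩
  filter_upwards [key.2 δ hδ, e] with n h1 h2 t ht
  have := h1 t ht
  rw [h2 t ht]
  have e3 : I (b t * (rn u φ l n t - 1)) + I (b t) - G t
      = I (b t * (rn u φ l n t - 1)) - (G t - I (b t)) := by ring
  rw [e3]; exact this

/-- (TU4): `∫ b_t ρ_n(t) → ∫ b_t(Y_t x) e^{l(x)} dm`, uniformly on `[s,1]`. -/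
theorem tu4_strong (hyp : CHyp M m K N P p s₀ C₀) (hA : OutA m K N P p s₀ C₀ u φ)
    (hl : l ∈ (sob m).TestI) {s : ℝ} (hs : 0 < s) (hs1 : s ≤ 1) {U : Ultrafilter ℕ}
    (hU : (U : Filter ℕ) ≤ atTop) {Y : ℝ → M → M} (hSt : Strong p s₀ C₀ U u φ Y)
    {b : ℝ → M →ₘ[m] ℝ} (hb1 : ∀ t ∈ Icc s 1, MemLp (b t) 1 m)
    (hb2 : ∀ t ∈ Icc s 1, MemLp (b t) 2 m)
    (hbc : ∀ t ∈ Icc s 1, Tendsto (fun τ => I ((b τ - b t) ^ 2)) (𝓝[Icc s 1] t) (𝓝 0)) :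
    ContinuousOn (fun t => (∫ x, b t (Y t x) * Real.exp (l x) ∂m) - I (b t)) (Icc s 1) ∧
    ∀ δ > 0, ∀ᶠ n in (U : Filter ℕ), ∀ t ∈ Icc s 1,
      |I (b t * rn u φ l n t) - ∫ x, b t (Y t x) * Real.exp (l x) ∂m| ≤ δ :=
  tu4 hyp hA hl hs hs1 hU hb1 hb2 hbc fun t ht => hSt.ρ_lim l hl t ⟨hs.trans_le ht.1, ht.2⟩ (b t)
    (hb1 t ht)

end metric

end Vale.Agent.P233.H719
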