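import Vale.Agent.P233.Gig.IfC

/-! P233, part C, block C5: the integrated second derivative (output of the limit half, input of
the static half). -/

set_option linter.all false

open MeasureTheory Filter Topology Set
open scoped ENNReal NNReal InnerProductSpace

universe u

namespace Vale.Agent.P233.H719

open Vale.Agent.P233.PC

/-- The second derivative of `∫ (e^l - 1) b(Y_t) dm`, in integrated form. -/
def C5Int {M : Type u} [MetricSpace M] [MeasurableSpace M] (m : Measure M)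
    {E : Type} [NormedAddCommGroup E] [InnerProductSpace ℝ E]
    (Gr : (M →ₘ[m] ℝ) → M → E) (HO : (M →ₘ[m] ℝ) → M → E →L[ℝ] E)
    (p : M) (s₀ C₀ : ℝ) (Y : ℝ → M → M) : Prop :=
  ∀ b ∈ (sob m).TestI, ∀ l ∈ (sob m).TestI, ∀ a ∈ Ioc (0 : ℝ) 1, ∀ c ∈ Icc a 1,
    (∫ x, (Real.exp (l x) - 1) * (sob m).Γ b (zc m p s₀ C₀ c) (Y c x) ∂m)
      - (∫ x, (Real.exp (l x) - 1) * (sob m).Γ b (zc m p s₀ C₀ a) (Y a x) ∂m)
    = ∫ τ in a..c, ∫ x, (Real.exp (l x) - 1) * ⟪HO b (Y τ x) (Gr (zc m p s₀ C₀ τ) (Y τ x)),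
        Gr (zc m p s₀ C₀ τ) (Y τ x)⟫_ℝ ∂m

end Vale.Agent.P233.H719
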