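import Vale.Agent.P233.H719.TU5
import Vale.Agent.P233.H719.C5Def

/-! P233, part C, block C5, limit half: B7 passes to the limit. -/

set_option linter.all false

open MeasureTheory Filter Topology Set
open scoped ENNReal NNReal InnerProductSpace

universe u

namespace Vale.Agent.P233.H719

open Vale.Agent.P233.PA (en OutA PotLim)
open Vale.Agent.P233.PC

section metric

variable {M : Type u} [MetricSpace M] [SecondCountableTopology M] [MeasurableSpace M]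
  [BorelSpace M] {m : Measure M} {K N : ℝ} {P : ℝ → (M →ₘ[m] ℝ) → (M →ₘ[m] ℝ)} {p : M} {s₀ C₀ : ℝ}
variable {u : ℕ → ℝ → M →ₘ[m] ℝ} {φ : (M →ₘ[m] ℝ) → ℕ → ℝ → M →ₘ[m] ℝ} {l : M →ₘ[m] ℝ}
variable {E : Type} [NormedAddCommGroup E] [InnerProductSpace ℝ E]
  {Gr : (M →ₘ[m] ℝ) → M → E} {V : (M →ₘ[m] ℝ) → (M →ₘ[m] ℝ) → M → E}
  {D : (M →ₘ[m] ℝ) → (M →ₘ[m] ℝ)} {κ : ℝ}
  {HO : (M →ₘ[m] ℝ) → M → E →L[ℝ] E} {e : ℕ → M →ₘ[m] ℝ}

/-- the class of `⟨Hess b (∇f), ∇f⟩` -/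
noncomputable def qc (m : Measure M) (Gr : (M →ₘ[m] ℝ) → M → E)
    (HO : (M →ₘ[m] ℝ) → M → E →L[ℝ] E) (b f : M →ₘ[m] ℝ) : M →ₘ[m] ℝ :=
  cl m fun x => ⟪HO b x (Gr f x), Gr f x⟫_ℝ

theorem qc_meas (hS : Stat (sob m) Gr HO e) {b f : M →ₘ[m] ℝ} (hb : b ∈ (sob m).Test)
    (hf : f ∈ (sob m).W) : AEStronglyMeasurable (fun x => ⟪HO b x (Gr f x), Gr f x⟫_ℝ) m := by
  have hg := (hS.gmeas f hf).aestronglyMeasurable (μ := m)
  exact (H362.OM.apply (hS.hess.meas b hb) hg).inner hg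

theorem qc_ae (hS : Stat (sob m) Gr HO e) {b f : M →ₘ[m] ℝ} (hb : b ∈ (sob m).Test)
    (hf : f ∈ (sob m).W) : ⇑(qc m Gr HO b f) =ᵐ[m] fun x => ⟪HO b x (Gr f x), Gr f x⟫_ℝ := by
  unfold qc cl
  rw [dif_pos (qc_meas hS hb hf)]
  exact AEEqFun.coeFn_mk _ _

theorem exists_HB (hS : Stat (sob m) Gr HO e) {b : M →ₘ[m] ℝ} (hb : b ∈ (sob m).Test) :
    ∃ Λ : M →ₘ[m] ℝ, 0 ≤ Λ ∧ MemLp Λ 2 m ∧ ∀ᵐ x ∂m, ‖HO b x‖ ≤ Λ x := by
  obtain ⟨c, hc⟩ := hS.hess.norm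
  obtain ⟨L, hL, hn, -⟩ := hc b hb
  have hae : ⇑(AEEqFun.mk L hL.1) =ᵐ[m] L := AEEqFun.coeFn_mk _ _
  refine ⟨AEEqFun.mk L hL.1, ?_, (memLp_congr_ae hae).2 hL, ?_⟩
  · rw [nonneg_iff_ae]
    filter_upwards [hae, hn] with x h1 h2
    rw [h1]; exact (norm_nonneg _).trans h2
  · filter_upwards [hae, hn] with x h1 h2
    rw [h1]; exact h2

theorem qc_sub_le (hC : IsGamma (sob m)) (hS : Stat (sob m) Gr HO e) {b f g Λ : M →ₘ[m] ℝ}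
    (hb : b ∈ (sob m).Test) (hΛ : ∀ᵐ x ∂m, ‖HO b x‖ ≤ Λ x) (hf : f ∈ (sob m).W)
    (hg : g ∈ (sob m).W) :
    ∀ᵐ x ∂m, |qc m Gr HO b f x - qc m Gr HO b g x| ≤ Λ x * √((sob m).Γ (f - g) (f - g) x)
      * (√((sob m).Γ f f x) + √((sob m).Γ g g x)) := by
  filter_upwards [qc_ae hS hb hf, qc_ae hS hb hg, hΛ, Gr_sub hC.toIsDir hS.grad hf hg,
    hS.grad.norm_eq hf, hS.grad.norm_eq hg, hS.grad.norm_eq (hC.sub_mem hf hg)]
    with x a1 a2 a3 a4 a5 a6 a7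
  rw [a1, a2, ← a5, ← a6, ← a7, a4]
  exact op_sub_le a3

theorem qc_abs_le (hC : IsGamma (sob m)) (hS : Stat (sob m) Gr HO e) {b f Λ : M →ₘ[m] ℝ}
    (hb : b ∈ (sob m).Test) (hΛ : ∀ᵐ x ∂m, ‖HO b x‖ ≤ Λ x) (hf : f ∈ (sob m).W) :
    ∀ᵐ x ∂m, |qc m Gr HO b f x| ≤ Λ x * (sob m).Γ f f x := by
  filter_upwards [qc_ae hS hb hf, hΛ, hS.grad.norm_eq hf, hC.Γ_nonneg_ae hf] with x a1 a2 a3 a4
  rw [a1]
  refine (abs_real_inner_le_norm _ _).trans ?_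
  have h1 : ‖HO b x (Gr f x)‖ ≤ Λ x * ‖Gr f x‖ :=
    ((HO b x).le_opNorm _).trans (mul_le_mul_of_nonneg_right a2 (norm_nonneg _))
  calc ‖HO b x (Gr f x)‖ * ‖Gr f x‖ ≤ Λ x * ‖Gr f x‖ * ‖Gr f x‖ :=
        mul_le_mul_of_nonneg_right h1 (norm_nonneg _)
    _ = Λ x * (√((sob m).Γ f f x)) ^ 2 := by rw [a3]; ring
    _ = Λ x * (sob m).Γ f f x := by rw [Real.sq_sqrt a4]

theorem qc_mem (hC : IsGamma (sob m)) (hS : Stat (sob m) Gr HO e) {b f Λ : M →ₘ[m] ℝ}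
    (hb : b ∈ (sob m).Test) (hΛ0 : 0 ≤ Λ) (hΛ2 : MemLp Λ 2 m) (hΛ : ∀ᵐ x ∂m, ‖HO b x‖ ≤ Λ x)
    (hf : f ∈ (sob m).W) {L : ℝ} (hL : ∀ᵐ x ∂m, (sob m).Γ f f x ≤ L ^ 2) :
    MemLp (qc m Gr HO b f) 1 m ∧ MemLp (qc m Gr HO b f) 2 m := by
  have h1 := qc_abs_le hC hS hb hΛ hf
  constructor
  · refine mem_of_le (mem_add (mem_sq hΛ2) (mem_smul (L ^ 2) (hC.mem1 _ hf))) ?_
    filter_upwards [h1, hL, nonneg_iff_ae.1 hΛ0, hC.Γ_nonneg_ae hf,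
      add_ae (Λ ^ 2) (L ^ 2 • (sob m).Γ f f), sq_ae Λ, smul_ae ((sob m).Γ f f) (L ^ 2)]
      with x a1 a2 a3 a4 a5 a6 a7
    rw [a5, a6, a7]
    refine a1.trans (le_trans ?_ (le_abs_self _))
    have h2 : (sob m).Γ f f x ^ 2 ≤ L ^ 2 * (sob m).Γ f f x := by nlinarith
    nlinarith [sq_nonneg (Λ x - (sob m).Γ f f x), sq_nonneg (Λ x), mul_nonneg a3 a4]
  · refine mem_of_le (mem_smul (L ^ 2) hΛ2) ?_
    filter_upwards [h1, hL, nonneg_iff_ae.1 hΛ0, smul_ae Λ (L ^ 2)] with x a1 a2 a3 a4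
    rw [a4]
    refine a1.trans (le_trans ?_ (le_abs_self _))
    nlinarith

/-- `t ↦ ⟨Hess b (∇z_t), ∇z_t⟩` is continuous in `L²` -/
theorem qc_cont (hyp : CHyp M m K N P p s₀ C₀) (hA : OutA m K N P p s₀ C₀ u φ)
    (hS : Stat (sob m) Gr HO e) {b Λ : M →ₘ[m] ℝ}
    (hb : b ∈ (sob m).Test) (hΛ0 : 0 ≤ Λ) (hΛ2 : MemLp Λ 2 m) (hΛ : ∀ᵐ x ∂m, ‖HO b x‖ ≤ Λ x)
    {s t : ℝ} (hs : 0 < s) (ht : t ∈ Icc s 1) :
    Tendsto (fun τ => I ((qc m Gr HO b (zc m p s₀ C₀ τ) - qc m Gr HO b (zc m p s₀ C₀ t)) ^ 2))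
      (𝓝[Icc s 1] t) (𝓝 0) := by
  have hC := std_gamma hyp.std
  obtain ⟨L, hL0, -, hz⟩ := z_bd hyp hA
  have ht0 : t ∈ Icc (0 : ℝ) 1 := ⟨hs.le.trans ht.1, ht.2⟩
  have h1 := z_gradw hyp hA hs ht (A := Λ ^ 2) (sq_nonneg' Λ) (mem_sq hΛ2)
  have h2 := h1.const_mul (4 * L ^ 2)
  rw [mul_zero] at h2
  refine squeeze_zero' ?_ ?_ h2
  · filter_upwards with τ using I_nonneg (sq_nonneg' _)
  · filter_upwards [self_mem_nhdsWithin] with τ hτ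
    have hτ0 : τ ∈ Icc (0 : ℝ) 1 := ⟨hs.le.trans hτ.1, hτ.2⟩
    have zt := zc_W hA ht0
    have zτ := zc_W hA hτ0
    have dW := hC.sub_mem zτ zt
    have q1 := (qc_mem hC hS hb hΛ0 hΛ2 hΛ zτ (hz τ hτ0)).2
    have q2 := (qc_mem hC hS hb hΛ0 hΛ2 hΛ zt (hz t ht0)).2
    have dT : MemLp ((sob m).Γ (zc m p s₀ C₀ τ - zc m p s₀ C₀ t)
        (zc m p s₀ C₀ τ - zc m p s₀ C₀ t)) ∞ m := mem_top_iff.2 ⟨4 * L ^ 2, by
      filter_upwards [hC.toIsDir.Γ_sub_le zτ zt, hC.Γ_nonneg_ae dW, hz τ hτ0, hz t ht0]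
        with x a1 a2 a3 a4
      rw [abs_of_nonneg a2]; linarith⟩
    rw [← I_smul]
    refine I_mono (mem_sq (mem_sub q1 q2)) (mem_smul _ (mem_top_mul (mem_sq hΛ2) dT))
      (le_iff_ae.2 ?_)
    filter_upwards [qc_sub_le hC hS hb hΛ zτ zt, sq_ae (qc m Gr HO b (zc m p s₀ C₀ τ)
        - qc m Gr HO b (zc m p s₀ C₀ t)), sub_ae (qc m Gr HO b (zc m p s₀ C₀ τ))
        (qc m Gr HO b (zc m p s₀ C₀ t)),
      smul_ae (Λ ^ 2 * (sob m).Γ (zc m p s₀ C₀ τ - zc m p s₀ C₀ t)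
        (zc m p s₀ C₀ τ - zc m p s₀ C₀ t)) (4 * L ^ 2),
      mul_ae (Λ ^ 2) ((sob m).Γ (zc m p s₀ C₀ τ - zc m p s₀ C₀ t)
        (zc m p s₀ C₀ τ - zc m p s₀ C₀ t)), sq_ae Λ, hz τ hτ0, hz t ht0, hC.Γ_nonneg_ae dW,
      nonneg_iff_ae.1 hΛ0] with x a1 a2 a3 a4 a5 a6 a7 a8 a9 a10
    rw [a2, a3, a4, a5, a6, ← sq_abs]
    have b1 : √((sob m).Γ (zc m p s₀ C₀ τ) (zc m p s₀ C₀ τ) x) ≤ L := by
      rw [Real.sqrt_le_left hL0]; exact a7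
    have b2 : √((sob m).Γ (zc m p s₀ C₀ t) (zc m p s₀ C₀ t) x) ≤ L := by
      rw [Real.sqrt_le_left hL0]; exact a8
    have b3 := Real.sq_sqrt a9
    set y := √((sob m).Γ (zc m p s₀ C₀ τ - zc m p s₀ C₀ t)
        (zc m p s₀ C₀ τ - zc m p s₀ C₀ t) x) with hy
    have y0 : 0 ≤ y := Real.sqrt_nonneg _
    have b4 : |qc m Gr HO b (zc m p s₀ C₀ τ) x - qc m Gr HO b (zc m p s₀ C₀ t) x|
        ≤ Λ x * y * (2 * L) :=
      a1.trans (mul_le_mul_of_nonneg_left (by linarith) (mul_nonneg a10 y0))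
    calc _ ≤ (Λ x * y * (2 * L)) ^ 2 := pow_le_pow_left₀ (abs_nonneg _) b4 2
      _ = 4 * L ^ 2 * (Λ x ^ 2 * y ^ 2) := by ring
      _ = _ := by rw [b3]

/-- The right side of B7 converges uniformly on `[s,1]`. -/
theorem hess_lim (hyp : CHyp M m K N P p s₀ C₀) (hA : OutA m K N P p s₀ C₀ u φ)
    (hS : Stat (sob m) Gr HO e)
    (hB : LevB m Gr V D κ u φ) (hl : l ∈ (sob m).TestI) {s : ℝ} (hs : s ∈ Ioo (0 : ℝ) 1)
    {U : Ultrafilter ℕ} (hU : (U : Filter ℕ) ≤ atTop) {Y : ℝ → M → M}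
    (hSt : Strong p s₀ C₀ U u φ Y) {b : M →ₘ[m] ℝ} (hb : b ∈ (sob m).Test) {δ : ℝ} (hδ : 0 < δ) :
    ∀ᶠ n in (U : Filter ℕ), ∀ t ∈ Icc s 1,
      |I (rn u φ l n t * (sob m).hess b (tn u φ l n t) (tn u φ l n t))
        - ∫ x, qc m Gr HO b (zc m p s₀ C₀ t) (Y t x) * Real.exp (l x) ∂m| ≤ δ := by
  have hC := std_gamma hyp.std
  obtain ⟨Λ, hΛ0, hΛ2, hΛ⟩ := exists_HB hS hb
  obtain ⟨L, hL0, hθ, hz⟩ := tn_bd hyp hA hl
  have hq : ∀ t ∈ Icc s 1, MemLp (qc m Gr HO b (zc m p s₀ C₀ t)) 1 m ∧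
      MemLp (qc m Gr HO b (zc m p s₀ C₀ t)) 2 m := fun t ht => by
    have ht0 : t ∈ Icc (0 : ℝ) 1 := ⟨hs.1.le.trans ht.1, ht.2⟩
    exact qc_mem hC hS hb hΛ0 hΛ2 hΛ (zc_W hA ht0) (hz t ht0)
  have h4 := (tu4_strong hyp hA hl hs.1 hs.2.le hU hSt (b := fun t => qc m Gr HO b (zc m p s₀ C₀ t))
    (fun t ht => (hq t ht).1) (fun t ht => (hq t ht).2)
    (fun t ht => qc_cont hyp hA hS hb hΛ0 hΛ2 hΛ hs.1 ht)).2 (δ / 2) (by positivity)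
  have h6 := tu6_pair hyp hA hB hl hs (F := (4 * L ^ 2) • Λ ^ 2)
    (by
      rw [nonneg_iff_ae]
      filter_upwards [smul_ae (Λ ^ 2) (4 * L ^ 2), sq_ae Λ] with x a1 a2
      rw [a1, a2]; positivity)
    (mem_smul _ (mem_sq hΛ2)) (δ := δ / 2) (by positivity)
  obtain ⟨B, hB0, hBd⟩ := dens_bd hyp hA hl hs.1
  filter_upwards [h4, hU h6, hU hθ, hU hBd] with n a1 a2 a3 a4 t ht
  have ht0 : t ∈ Icc (0 : ℝ) 1 := ⟨hs.1.le.trans ht.1, ht.2⟩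
  obtain ⟨θT, θL⟩ := a3 t ht0
  have θW := (hC.test_A θT).1
  have zW := zc_W hA ht0
  have r0 : 0 ≤ rn u φ l n t := rh_nonneg
  have rt : MemLp (rn u φ l n t) ∞ m := mem_top_iff.2 ⟨B, by
    filter_upwards [a4 t ht, nonneg_iff_ae.1 r0] with x b1 b2
    rwa [abs_of_nonneg b2]⟩
  have hX := a2 t ht ((sob m).hess b (tn u φ l n t) (tn u φ l n t)
      - qc m Gr HO b (zc m p s₀ C₀ t)) (by
    filter_upwards [hS.hess.grad b hb _ θT _ θT, qc_ae hS hb θW, qc_sub_le hC hS hb hΛ θW zW,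
      sub_ae ((sob m).hess b (tn u φ l n t) (tn u φ l n t)) (qc m Gr HO b (zc m p s₀ C₀ t)), θL,
      hz t ht0, smul_ae (Λ ^ 2) (4 * L ^ 2), sq_ae Λ, nonneg_iff_ae.1 hΛ0]
      with x b1 b2 b3 b4 b5 b6 b7 b8 b9
    rw [b4, ← b1, ← b2, b7, b8]
    refine b3.trans ?_
    have c1 : √((sob m).Γ (tn u φ l n t) (tn u φ l n t) x) ≤ L := by
      rw [Real.sqrt_le_left hL0]; exact b5
    have c2 : √((sob m).Γ (zc m p s₀ C₀ t) (zc m p s₀ C₀ t) x) ≤ L := by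
      rw [Real.sqrt_le_left hL0]; exact b6
    have c3 : √(4 * L ^ 2 * Λ x ^ 2) = 2 * L * Λ x := by
      rw [show 4 * L ^ 2 * Λ x ^ 2 = (2 * L * Λ x) ^ 2 by ring]
      exact Real.sqrt_sq (by positivity)
    rw [c3]
    have c4 := mul_nonneg b9 (Real.sqrt_nonneg ((sob m).Γ (tn u φ l n t - zc m p s₀ C₀ t)
        (tn u φ l n t - zc m p s₀ C₀ t) x))
    nlinarith)
  obtain ⟨mX, hXδ⟩ := hX
  have e1 : I (rn u φ l n t * (sob m).hess b (tn u φ l n t) (tn u φ l n t))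
      = I (rn u φ l n t * ((sob m).hess b (tn u φ l n t) (tn u φ l n t)
        - qc m Gr HO b (zc m p s₀ C₀ t))) + I (qc m Gr HO b (zc m p s₀ C₀ t) * rn u φ l n t) := by
    rw [← I_add (mem_mul_top rt mX) (mem_top_mul (hq t ht).1 rt)]
    congr 1; ring
  rw [e1]
  have h7 := a1 t ht
  rw [abs_le] at h7 hXδ ⊢
  constructor <;> linarith [h7.1, h7.2, hXδ.1, hXδ.2]

/-- The left side of B7 converges. -/
theorem gam_lim (hyp : CHyp M m K N P p s₀ C₀) (hA : OutA m K N P p s₀ C₀ u φ)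
    (hB : LevB m Gr V D κ u φ) (hl : l ∈ (sob m).TestI) {s : ℝ} (hs : s ∈ Ioo (0 : ℝ) 1)
    {U : Ultrafilter ℕ} (hU : (U : Filter ℕ) ≤ atTop) {Y : ℝ → M → M}
    (hSt : Strong p s₀ C₀ U u φ Y) {b : M →ₘ[m] ℝ} (hb : b ∈ (sob m).W) {t : ℝ}
    (ht : t ∈ Icc s 1) :
    Tendsto (fun n => I (rn u φ l n t * (sob m).Γ b (tn u φ l n t))) U
      (𝓝 (∫ x, (sob m).Γ b (zc m p s₀ C₀ t) (Y t x) * Real.exp (l x) ∂m)) := by
  have hC := std_gamma hyp.std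
  have ht0 : t ∈ Icc (0 : ℝ) 1 := ⟨hs.1.le.trans ht.1, ht.2⟩
  have ht1 : t ∈ Ioc (0 : ℝ) 1 := ⟨hs.1.trans_le ht.1, ht.2⟩
  obtain ⟨L, hL0, hθ, hz⟩ := tn_bd hyp hA hl
  obtain ⟨B, hB0, hBd⟩ := dens_bd hyp hA hl hs.1
  have zW := zc_W hA ht0
  have mΓ := hC.toIsDir.Γ_mem1 hb zW
  have h1 := hSt.ρ_lim l hl t ht1 ((sob m).Γ b (zc m p s₀ C₀ t)) mΓ
  rw [Metric.tendsto_nhds] at h1 ⊢
  intro δ hδ
  have h2 := tu6_pair hyp hA hB hl hs (hC.nonneg _ hb) (hC.mem1 _ hb) (δ := δ / 2) (by positivity)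
  filter_upwards [h1 (δ / 2) (by positivity), hU h2, hU hθ, hU hBd] with n a1 a2 a3 a4
  obtain ⟨θT, θL⟩ := a3 t ht0
  have θW := (hC.test_A θT).1
  have r0 : 0 ≤ rn u φ l n t := rh_nonneg
  have rt : MemLp (rn u φ l n t) ∞ m := mem_top_iff.2 ⟨B, by
    filter_upwards [a4 t ht, nonneg_iff_ae.1 r0] with x b1 b2
    rwa [abs_of_nonneg b2]⟩
  obtain ⟨mX, hX⟩ := a2 t ht ((sob m).Γ b (tn u φ l n t - zc m p s₀ C₀ t))
    (hC.toIsDir.Γ_abs_ae hb (hC.sub_mem θW zW))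
  have e1 : I (rn u φ l n t * (sob m).Γ b (tn u φ l n t))
      = I (rn u φ l n t * (sob m).Γ b (tn u φ l n t - zc m p s₀ C₀ t))
        + I ((sob m).Γ b (zc m p s₀ C₀ t) * rn u φ l n t) := by
    rw [← I_add (mem_mul_top rt mX) (mem_top_mul mΓ rt), hC.toIsDir.Γ_sub_right hb θW zW]
    congr 1; ring
  rw [e1]
  rw [Real.dist_eq] at a1 ⊢
  rw [abs_lt] at a1 ⊢
  rw [abs_le] at hX
  constructor <;> linarith [a1.1, a1.2, hX.1, hX.2]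

/-- **C5, integrated form** with the final density `e^l`. -/
theorem c5_id (hyp : CHyp M m K N P p s₀ C₀) (hA : OutA m K N P p s₀ C₀ u φ)
    (hS : Stat (sob m) Gr HO e)
    (hB : LevB m Gr V D κ u φ) (hl : l ∈ (sob m).TestI)
    {U : Ultrafilter ℕ} (hU : (U : Filter ℕ) ≤ atTop) {Y : ℝ → M → M}
    (hSt : Strong p s₀ C₀ U u φ Y) {b : M →ₘ[m] ℝ} (hb : b ∈ (sob m).Test) {a : ℝ}
    (ha : a ∈ Ioc (0 : ℝ) 1) :
    ContinuousOn (fun t => ∫ x, qc m Gr HO b (zc m p s₀ C₀ t) (Y t x) * Real.exp (l x) ∂m)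
      (Icc a 1) ∧ ∀ c ∈ Icc a 1,
    (∫ x, (sob m).Γ b (zc m p s₀ C₀ c) (Y c x) * Real.exp (l x) ∂m)
      - (∫ x, (sob m).Γ b (zc m p s₀ C₀ a) (Y a x) * Real.exp (l x) ∂m)
    = ∫ t in a..c, ∫ x, qc m Gr HO b (zc m p s₀ C₀ t) (Y t x) * Real.exp (l x) ∂m := by
  have hC := std_gamma hyp.std
  set s : ℝ := a / 2 with hsdef
  have hs : s ∈ Ioo (0 : ℝ) 1 := ⟨by have := ha.1; positivity, by linarith [ha.1, ha.2]⟩
  have hsa : s ≤ a := by linarith [ha.1]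
  obtain ⟨e7, he7, h7⟩ := hB.b7 l hl b hb s hs
  have hun := fun (δ : ℝ) (hδ : 0 < δ) => hess_lim hyp hA hS hB hl hs hU hSt hb hδ
  have hcont : ContinuousOn (fun t => ∫ x, qc m Gr HO b (zc m p s₀ C₀ t) (Y t x)
      * Real.exp (l x) ∂m) (Icc s 1) := by
    have hT : TendstoUniformlyOn (fun (n : ℕ) (t : ℝ) =>
        I (rn u φ l n t * (sob m).hess b (tn u φ l n t) (tn u φ l n t)))
        (fun t => ∫ x, qc m Gr HO b (zc m p s₀ C₀ t) (Y t x) * Real.exp (l x) ∂m)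
        (U : Filter ℕ) (Icc s 1) := by
      rw [Metric.tendstoUniformlyOn_iff]
      intro δ hδ
      filter_upwards [hun (δ / 2) (by positivity)] with n hn t ht
      rw [Real.dist_eq, abs_sub_comm]
      exact (hn t ht).trans_lt (by linarith)
    refine hT.continuousOn ?_
    exact (Filter.Eventually.mono (hU h7) fun n hn => hn.1).frequently
  refine ⟨hcont.mono (Icc_subset_Icc_left hsa), fun c hc => ?_⟩
  have hsub : Icc a c ⊆ Icc s 1 := Icc_subset_Icc hsa hc.2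
  have hint : Tendsto (fun n => ∫ t in a..c,
      I (rn u φ l n t * (sob m).hess b (tn u φ l n t) (tn u φ l n t))) U
      (𝓝 (∫ t in a..c, ∫ x, qc m Gr HO b (zc m p s₀ C₀ t) (Y t x) * Real.exp (l x) ∂m)) := by
    refine tendsto_int_of_unif hc.1 ?_ ?_ ?_
    · filter_upwards [hU h7] with n hn
      refine ContinuousOn.intervalIntegrable ?_
      rw [uIcc_of_le hc.1]
      exact hn.1.mono hsub
    · refine ContinuousOn.intervalIntegrable ?_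
      rw [uIcc_of_le hc.1]
      exact hcont.mono hsub
    · intro δ hδ
      filter_upwards [hun δ hδ] with n hn t ht using hn t (hsub ht)
  have hg1 := gam_lim hyp hA hB hl hs hU hSt (hC.test_A hb).1 (t := c) ⟨hsa.trans hc.1, hc.2⟩
  have hg2 := gam_lim hyp hA hB hl hs hU hSt (hC.test_A hb).1 (t := a) ⟨hsa, ha.2⟩
  have hlim := (hg1.sub hg2).sub hint
  have hz : Tendsto (fun n => I (rn u φ l n c * (sob m).Γ b (tn u φ l n c))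
      - I (rn u φ l n a * (sob m).Γ b (tn u φ l n a))
      - ∫ t in a..c, I (rn u φ l n t * (sob m).hess b (tn u φ l n t) (tn u φ l n t))) U (𝓝 0) := by
    refine squeeze_zero_norm' ?_ (he7.mono_left hU)
    filter_upwards [hU h7] with n hn
    rw [Real.norm_eq_abs]
    exact hn.2 a c hsa hc.1 hc.2
  have := tendsto_nhds_unique hlim hz
  linarith

variable {φ' ρ : ℝ → M →ₘ[m] ℝ} {R : ℝ → ℝ → (M →ₘ[m] ℝ) → (M →ₘ[m] ℝ)} {Y : ℝ → M → M}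

/-- compositions of integrable classes with `Y t` are integrable -/
theorem int_comp (hLim : Lim m K N p s₀ C₀ φ' ρ R) (hM : Maps ρ R Y) {t : ℝ}
    (ht : t ∈ Ioc (0 : ℝ) 1) {f : M →ₘ[m] ℝ} (hf : MemLp f 1 m) :
    Integrable (fun x => f (Y t x)) m := by
  have h0 := hLim.ρ_nonneg t ht
  refine H183.map_integrable hM ht h0 f.aestronglyMeasurable ?_
  have ρt : MemLp (ρ t) ∞ m := mem_top_iff.2 ⟨cK K C₀ * t ^ (-N), by
    filter_upwards [hLim.ρ_le t ht, nonneg_iff_ae.1 h0] with x b1 b2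
    rwa [abs_of_nonneg b2]⟩
  exact (int_of_mem (mem_mul_top ρt hf)).congr (mul_ae (ρ t) f)

theorem int_comp_exp (hC : IsGamma (sob m)) (hLim : Lim m K N p s₀ C₀ φ' ρ R) (hM : Maps ρ R Y)
    {t : ℝ} (ht : t ∈ Ioc (0 : ℝ) 1) {f : M →ₘ[m] ℝ} (hf : MemLp f 1 m)
    (hl : l ∈ (sob m).TestI) : Integrable (fun x => f (Y t x) * Real.exp (l x)) m := by
  obtain ⟨k, hk⟩ := mem_top_iff.1 (hC.test_A hl.1).2
  have h1 := int_comp hLim hM ht hf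
  have hm : AEStronglyMeasurable (fun x => Real.exp (l x)) m :=
    Real.continuous_exp.comp_aestronglyMeasurable l.aestronglyMeasurable
  refine (h1.norm.mul_const (Real.exp k)).mono (h1.aestronglyMeasurable.mul hm) ?_
  filter_upwards [hk] with x hx
  rw [norm_mul, norm_mul, norm_norm, Real.norm_eq_abs (Real.exp (l x)), Real.norm_eq_abs
    (Real.exp k), Real.abs_exp, Real.abs_exp]
  exact mul_le_mul_of_nonneg_left (Real.exp_le_exp.2 ((le_abs_self _).trans hx)) (norm_nonneg _)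

/-- subtraction of the final density `1` -/
theorem int_diff (hC : IsGamma (sob m)) (h00 : (0 : M →ₘ[m] ℝ) ∈ (sob m).TestI)
    (hLim : Lim m K N p s₀ C₀ φ' ρ R) (hM : Maps ρ R Y)
    {t : ℝ} (ht : t ∈ Ioc (0 : ℝ) 1) {f : M →ₘ[m] ℝ} (hf : MemLp f 1 m)
    (hl : l ∈ (sob m).TestI) {g : M → ℝ} (hg : ∀ᵐ x ∂m, f x = g x) :
    ∫ x, (Real.exp (l x) - 1) * g (Y t x) ∂m = (∫ x, f (Y t x) * Real.exp (l x) ∂m)
      - ∫ x, f (Y t x) * Real.exp ((0 : M →ₘ[m] ℝ) x) ∂m := by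
  rw [← integral_sub (int_comp_exp hC hLim hM ht hf hl) (int_comp_exp hC hLim hM ht hf h00)]
  refine integral_congr_ae ?_
  filter_upwards [H183.map_ae hM ht hg, zero_ae (M := M) (m := m)] with x a1 a2
  rw [← a1, a2, Real.exp_zero]; ring

/-- **C5, limit half.** -/
theorem c5Int (hyp : CHyp M m K N P p s₀ C₀) (hA : OutA m K N P p s₀ C₀ u φ)
    (hS : Stat (sob m) Gr HO e) (hB : LevB m Gr V D κ u φ)
    {U : Ultrafilter ℕ} (hU : (U : Filter ℕ) ≤ atTop)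
    (hLim : Lim m K N p s₀ C₀ φ' ρ R) (hM : Maps ρ R Y) (hSt : Strong p s₀ C₀ U u φ Y) :
    C5Int m Gr HO p s₀ C₀ Y := by
  intro b hb l hl a ha c hc
  have hC := std_gamma hyp.std
  have h00 := testI_zero hyp.std
  obtain ⟨k1, k1'⟩ := c5_id hyp hA hS hB hl hU hSt hb.1 ha
  obtain ⟨k2, k2'⟩ := c5_id hyp hA hS hB h00 hU hSt hb.1 ha
  have k1c := k1' c hc
  have k2c := k2' c hc
  have hc0 : c ∈ Ioc (0 : ℝ) 1 := ⟨ha.1.trans_le hc.1, hc.2⟩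
  have bW := (hC.test_A hb.1).1
  obtain ⟨L, hL0, -, hz⟩ := z_bd hyp hA
  obtain ⟨Λ, hΛ0, hΛ2, hΛ⟩ := exists_HB hS hb.1
  have hΓ : ∀ t ∈ Ioc (0 : ℝ) 1, MemLp ((sob m).Γ b (zc m p s₀ C₀ t)) 1 m := fun t ht =>
    hC.toIsDir.Γ_mem1 bW (zc_W hA ⟨ht.1.le, ht.2⟩)
  rw [int_diff hC h00 hLim hM hc0 (hΓ c hc0) hl (ae_of_all _ fun x => rfl),
    int_diff hC h00 hLim hM ha (hΓ a ha) hl (ae_of_all _ fun x => rfl)]
  have e1 : ∫ τ in a..c, ∫ x, (Real.exp (l x) - 1) * ⟪HO b (Y τ x) (Gr (zc m p s₀ C₀ τ) (Y τ x)),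
        Gr (zc m p s₀ C₀ τ) (Y τ x)⟫_ℝ ∂m
      = ∫ τ in a..c, ((∫ x, qc m Gr HO b (zc m p s₀ C₀ τ) (Y τ x) * Real.exp (l x) ∂m)
        - ∫ x, qc m Gr HO b (zc m p s₀ C₀ τ) (Y τ x) * Real.exp ((0 : M →ₘ[m] ℝ) x) ∂m) := by
    refine intervalIntegral.integral_congr fun τ hτ => ?_
    rw [uIcc_of_le hc.1] at hτ
    have hτ0 : τ ∈ Ioc (0 : ℝ) 1 := ⟨ha.1.trans_le hτ.1, hτ.2.trans hc.2⟩
    have zW := zc_W hA (t := τ) ⟨hτ0.1.le, hτ0.2⟩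
    exact int_diff (g := fun y => ⟪HO b y (Gr (zc m p s₀ C₀ τ) y), Gr (zc m p s₀ C₀ τ) y⟫_ℝ)
      hC h00 hLim hM hτ0
      (qc_mem hC hS hb.1 hΛ0 hΛ2 hΛ zW (hz τ ⟨hτ0.1.le, hτ0.2⟩)).1 hl (qc_ae hS hb.1 zW)
  have hsub : Icc a c ⊆ Icc a 1 := Icc_subset_Icc_right hc.2
  rw [e1, intervalIntegral.integral_sub
    (ContinuousOn.intervalIntegrable (by rw [uIcc_of_le hc.1]; exact k1.mono hsub))
    (ContinuousOn.intervalIntegrable (by rw [uIcc_of_le hc.1]; exact k2.mono hsub)),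
    ← k1c, ← k2c]
  ring

end metric

end Vale.Agent.P233.H719
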