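import Vale.Agent.P233.H326.CDLip
import Vale.Agent.P233.H719.CDLip

/-! P233, stage 3a (helper719): `LipE` from block LIP. -/

set_option linter.all false

open MeasureTheory Filter Topology Set Metric
open scoped ENNReal NNReal MeasureTheory

universe u

namespace Vale.Agent.P233.H719.CD3

theorem lipE {M : Type u} [MetricSpace M] [CompleteSpace M] {κ : ℝ} (hA : T.IsAlexandrov M κ)
    (hd : 0 < κ → ∀ x y : M, √κ * dist x y ≤ Real.pi) {s : ℝ} (hs : s ∈ Ioo (0 : ℝ) 1) :
    LipE M s := by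
  intro R hR
  obtain ⟨C, hC, h⟩ := CDc.lip hA hd hs R
  exact ⟨C, hC, fun x y x' y' w w' h1 h2 h3 h4 h5 =>
    h x y x' y' w w' h1 h2 h3 h4.1 h4.2 h5.1 h5.2⟩

end Vale.Agent.P233.H719.CD3
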