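import Vale.Agent.P233.H719.RADef
import Vale.Agent.P233.H992.BlkD1

/-! P233, RCDA, block RL2: Hausdorff measures and the radial contraction; Bishop-Gromov, proper,
doubling; almost every point is interior to a geodesic (helper719). -/

set_option linter.all false

open MeasureTheory Filter Topology Set Metric
open scoped ENNReal NNReal MeasureTheory

universe u

namespace Vale.Agent.P233.H719

open Vale.Agent.P233.RA

section haus

variable {X : Type*} [MetricSpace X] [MeasurableSpace X] [BorelSpace X]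

/-- a map that shrinks distances at most by the factor `C⁻¹` -/
theorem haus_le_image {T : Set X} {f : X → X} {C : ℝ≥0} {d : ℝ} (hd : 0 ≤ d)
    (h : ∀ x ∈ T, ∀ y ∈ T, dist x y ≤ C * dist (f x) (f y)) :
    μH[d] T ≤ (C : ℝ≥0∞) ^ d * μH[d] (f '' T) := by
  have hA : AntilipschitzWith C (fun x : T => f x) := AntilipschitzWith.of_le_mul_dist fun x y =>
    h x x.2 y y.2
  have h1 := hA.le_hausdorffMeasure_image hd (univ : Set T)
  have h2 : μH[d] (univ : Set T) = μH[d] T := by
    have := (isometry_subtype_coe (s := T)).hausdorffMeasure_image (Or.inl hd) (univ : Set T)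
    rw [image_univ, Subtype.range_coe] at this
    exact this.symm
  have h3 : (fun x : T => f x) '' (univ : Set T) = f '' T := by
    ext y
    simp
  rwa [h2, h3] at h1

/-- countably many measurable pieces of small diameter -/
theorem exists_pieces [TopologicalSpace.SeparableSpace X] [Nonempty X] {η : ℝ} (hη : 0 < η) :
    ∃ B : ℕ → Set X, (∀ i, MeasurableSet (B i)) ∧ Pairwise (Function.onFun Disjoint B) ∧
      (⋃ i, B i) = univ ∧ ∀ i, ∀ x ∈ B i, ∀ y ∈ B i, dist x y < η := by
  let s : ℕ → Set X := fun i => ball (TopologicalSpace.denseSeq X i) (η / 2)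
  refine ⟨disjointed s, fun i => MeasurableSet.disjointed (fun j => measurableSet_ball) i,
    disjoint_disjointed s, ?_, ?_⟩
  · rw [iUnion_disjointed]
    refine eq_univ_of_forall fun x => ?_
    obtain ⟨i, hi⟩ := (TopologicalSpace.denseRange_denseSeq X).exists_dist_lt x (half_pos hη)
    exact mem_iUnion.2 ⟨i, by simpa [s] using hi⟩
  · intro i x hx y hy
    have h1 : x ∈ s i := disjointed_subset s i hx
    have h2 : y ∈ s i := disjointed_subset s i hy
    simp only [s, mem_ball] at h1 h2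
    have := dist_triangle_right x y (TopologicalSpace.denseSeq X i)
    linarith

/-- the same with a local condition -/
theorem haus_le_local [TopologicalSpace.SeparableSpace X] {S T : Set X} (hS : MeasurableSet S) {f : X → X}
    {C : ℝ≥0} {d η : ℝ} (hd : 0 ≤ d) (hη : 0 < η) (hf : ∀ x ∈ T, f x ∈ S)
    (h : ∀ x ∈ T, ∀ y ∈ T, dist (f x) (f y) < η → dist x y ≤ C * dist (f x) (f y)) :
    μH[d] T ≤ (C : ℝ≥0∞) ^ d * μH[d] S := by
  rcases T.eq_empty_or_nonempty with rfl | ⟨x0, _⟩
  · simp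
  haveI : Nonempty X := ⟨x0⟩
  obtain ⟨B, hBm, hBd, hBu, hBη⟩ := exists_pieces (X := X) hη
  have h1 : T ⊆ ⋃ i, T ∩ f ⁻¹' B i := by
    intro x hx
    have : f x ∈ ⋃ i, B i := by rw [hBu]; trivial
    obtain ⟨i, hi⟩ := mem_iUnion.1 this
    exact mem_iUnion.2 ⟨i, hx, hi⟩
  have h2 : ∀ i, μH[d] (T ∩ f ⁻¹' B i) ≤ (C : ℝ≥0∞) ^ d * μH[d] (S ∩ B i) := by
    intro i
    refine (haus_le_image (f := f) (C := C) hd fun x hx y hy =>
      h x hx.1 y hy.1 (hBη i _ hx.2 _ hy.2)).trans ?_
    gcongr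
    rintro _ ⟨x, hx, rfl⟩
    exact ⟨hf x hx.1, hx.2⟩
  have h3 : μH[d] S = ∑' i, μH[d] (S ∩ B i) := by
    rw [← measure_iUnion (fun i j hij => (hBd hij).mono inter_subset_right inter_subset_right)
      (fun i => hS.inter (hBm i)), ← inter_iUnion, hBu, inter_univ]
  calc μH[d] T ≤ μH[d] (⋃ i, T ∩ f ⁻¹' B i) := measure_mono h1
    _ ≤ ∑' i, μH[d] (T ∩ f ⁻¹' B i) := measure_iUnion_le _
    _ ≤ ∑' i, (C : ℝ≥0∞) ^ d * μH[d] (S ∩ B i) := ENNReal.tsum_le_tsum h2
    _ = (C : ℝ≥0∞) ^ d * μH[d] S := by rw [ENNReal.tsum_mul_left, ← h3]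

end haus

section metric

variable {M : Type u} [MetricSpace M]

theorem exists_rat (hg : Gig.Geo M) (p x : M) {lam : ℝ} (h : lam ∈ Icc (0 : ℝ) 1) :
    ∃ z, Rat p x z lam := by
  obtain ⟨w, h1, h2⟩ := hg p x (lam * dist p x) ((1 - lam) * dist p x)
    (mul_nonneg h.1 dist_nonneg) (mul_nonneg (by linarith [h.2]) dist_nonneg) (by ring)
  exact ⟨w, h1, h2⟩

/-- the set of the endpoints is closed -/
theorem isClosed_ext [ProperSpace M] (p : M) {lam : ℝ} (h : 0 < lam) :
    IsClosed {z : M | ∃ y, Rat p y z lam} := by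
  refine IsSeqClosed.isClosed ?_
  intro z z0 hz hlim
  choose y hy using hz
  have hzb : Tendsto (fun k => dist p (z k)) atTop (𝓝 (dist p z0)) :=
    tendsto_const_nhds.dist hlim
  have hyd : ∀ k, dist p (y k) = dist p (z k) / lam := by
    intro k
    rw [(hy k).1]; field_simp
  have hyb : Tendsto (fun k => dist p (y k)) atTop (𝓝 (dist p z0 / lam)) := by
    simp only [hyd]; exact hzb.div_const lam
  obtain ⟨R, hR⟩ := hyb.bddAbove_range
  have hb : ∀ k, y k ∈ closedBall p R := by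
    intro k
    rw [mem_closedBall, dist_comm]
    exact hR ⟨k, rfl⟩
  obtain ⟨y0, -, φ, hφ, hy0⟩ := (isCompact_closedBall p R).tendsto_subseq hb
  refine ⟨y0, ?_, ?_⟩
  · have h1 : Tendsto (fun k => dist p (z (φ k))) atTop (𝓝 (dist p z0)) :=
      hzb.comp hφ.tendsto_atTop
    have h2 : Tendsto (fun k => lam * dist p (y (φ k))) atTop (𝓝 (lam * dist p y0)) :=
      (tendsto_const_nhds.dist hy0).const_mul lam
    exact tendsto_nhds_unique h1 (h2.congr fun k => ((hy (φ k)).1).symm)
  · have h1 : Tendsto (fun k => dist (z (φ k)) (y (φ k))) atTop (𝓝 (dist z0 y0)) :=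
      (hlim.comp hφ.tendsto_atTop).dist hy0
    have h2 : Tendsto (fun k => (1 - lam) * dist p (y (φ k))) atTop (𝓝 ((1 - lam) * dist p y0)) :=
      (tendsto_const_nhds.dist hy0).const_mul (1 - lam)
    exact tendsto_nhds_unique h1 (h2.congr fun k => ((hy (φ k)).2).symm)

variable [MeasurableSpace M] [BorelSpace M] {m : Measure M} {n : ℕ}

/-- the measure estimate of the contraction -/
theorem meas_le_of_rat (h : AH m n) {R C : ℝ} (hC : 0 < C)
    (hI : ∀ p x y z w : M, ∀ lam ∈ Ioc (0 : ℝ) 1, dist p x < R →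
      dist p y < R → Rat p x z lam → Rat p y w lam → lam * dist x y ≤ C * dist z w)
    {p : M} {lam : ℝ} (hlam : lam ∈ Ioc (0 : ℝ) 1) {T A : Set M}
    (hT : ∀ x ∈ T, dist p x < R ∧ ∃ z ∈ A, Rat p x z lam) :
    m T ≤ ENNReal.ofReal ((C / lam) ^ n) * m A := by
  classical
  rcases T.eq_empty_or_nonempty with rfl | ⟨x0, hx0⟩
  · simp
  choose! f hf using fun x hx => (hT x hx).2
  have h0 : 0 ≤ C / lam := by have := hlam.1; positivity
  have h1 : μH[(n : ℝ)] T ≤ ((C / lam).toNNReal : ℝ≥0∞) ^ (n : ℝ) * μH[(n : ℝ)] (f '' T) := by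
    refine haus_le_image (Nat.cast_nonneg n) fun x hx y hy => ?_
    rw [Real.coe_toNNReal _ h0, div_mul_eq_mul_div, le_div_iff₀ hlam.1, mul_comm]
    exact hI p x y (f x) (f y) lam hlam (hT x hx).1 (hT y hy).1 (hf x hx).2 (hf y hy).2
  rw [h.haus]
  refine h1.trans ?_
  rw [ENNReal.rpow_natCast, ENNReal.ofReal_pow h0]
  have h2 : f '' T ⊆ A := by rintro _ ⟨x, hx, rfl⟩; exact (hf x hx).1
  gcongr
  exact le_rfl

theorem bg_of_AH (h : AH m n) : PD.BG m n := by
  intro R₀ hR₀
  obtain ⟨C, hC, hI⟩ := h.inv R₀ hR₀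
  refine ⟨(C ^ n)⁻¹, by positivity, fun p R t hR hRR ht ht1 => ?_⟩
  have h1 : m (ball p R) ≤ ENNReal.ofReal ((C / t) ^ n) * m (ball p (t * R)) := by
    refine meas_le_of_rat h hC hI (p := p) ⟨ht, ht1⟩ fun x hx => ?_
    rw [mem_ball, dist_comm] at hx
    obtain ⟨z, hz⟩ := exists_rat h.geo p x (lam := t) ⟨ht.le, ht1⟩
    refine ⟨hx.trans_le hRR, z, ?_, hz⟩
    rw [mem_ball, dist_comm, hz.1]
    exact mul_lt_mul_of_pos_left hx ht
  have h2 : ENNReal.ofReal ((C ^ n)⁻¹ * t ^ n) * ENNReal.ofReal ((C / t) ^ n) = 1 := by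
    rw [← ENNReal.ofReal_mul (by positivity), ← ENNReal.ofReal_one]
    congr 1
    rw [div_pow]
    field_simp
  calc ENNReal.ofReal ((C ^ n)⁻¹ * t ^ n) * m (ball p R)
      ≤ ENNReal.ofReal ((C ^ n)⁻¹ * t ^ n) *
        (ENNReal.ofReal ((C / t) ^ n) * m (ball p (t * R))) := by gcongr
    _ = m (ball p (t * R)) := by rw [← mul_assoc, h2, one_mul]

theorem geo_of_AH [CompleteSpace M] [SecondCountableTopology M] (h : AH m n) : PD.Geo m n := by
  have hop : m.IsOpenPosMeasure := h.full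
  have hU := H992.bgUnif_of_bg (bg_of_AH h)
  have hlen : H992.IsLen M := by
    intro x y s t hs ht hst e he
    obtain ⟨w, h1, h2⟩ := h.geo x y s t hs ht hst
    exact ⟨w, by linarith, by linarith⟩
  obtain ⟨hP, hT⟩ := H992.metric_D1 h.haus h.fin hlen hU.bgLoc
  exact ⟨hP, h.geo, hT.vol h.fin, hU.doubling⟩

theorem aeInt_of_AH [ProperSpace M] [SecondCountableTopology M] (h : AH m n) : AeInt m := by
  intro p
  -- the union of the sets of extendable points
  set U : Set M := ⋃ k : ℕ, {z : M | ∃ y, Rat p y z (1 - 1 / ((k : ℝ) + 2))} with hU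
  have hk : ∀ k : ℕ, 1 - 1 / ((k : ℝ) + 2) ∈ Ioo (0 : ℝ) 1 := by
    intro k
    have h2 : (0 : ℝ) < (k : ℝ) + 2 := by positivity
    have h3 : 1 / ((k : ℝ) + 2) < 1 := by
      rw [div_lt_one h2]; have := Nat.cast_nonneg (α := ℝ) k; linarith
    have h4 : 0 < 1 / ((k : ℝ) + 2) := by positivity
    exact ⟨by linarith, by linarith⟩
  have hUm : MeasurableSet U := MeasurableSet.iUnion fun k =>
    (isClosed_ext p (hk k).1).measurableSet
  have key : ∀ R > 0, m (ball p R \ U) = 0 := by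
    intro R hR
    have hfin := h.fin p R
    have h1 : ∀ ε > (0 : ℝ), m (ball p R) ≤ ENNReal.ofReal ((1 + ε) ^ n) * m (U ∩ ball p R) := by
      intro ε hε
      obtain ⟨lam₀, hl0, hl⟩ := h.sharp R hR ε hε
      obtain ⟨k, hk'⟩ := exists_nat_one_div_lt (sub_pos.2 hl0.2)
      have hlam : 1 - 1 / ((k : ℝ) + 2) ∈ Ioo lam₀ 1 := by
        refine ⟨?_, (hk k).2⟩
        have : 1 / ((k : ℝ) + 2) ≤ 1 / ((k : ℝ) + 1) :=
          one_div_le_one_div_of_le (by positivity) (by linarith)
        linarith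
      obtain ⟨η, hη, hI⟩ := hl _ hlam
      set lam := 1 - 1 / ((k : ℝ) + 2) with hlamdef
      have hex : ∀ x : M, ∃ z, Rat p x z lam := fun x =>
        exists_rat h.geo p x ⟨(hk k).1.le, (hk k).2.le⟩
      choose f hf using hex
      have h2 : μH[(n : ℝ)] (ball p R) ≤ (((1 + ε).toNNReal : ℝ≥0∞)) ^ (n : ℝ)
          * μH[(n : ℝ)] (U ∩ ball p R) := by
        refine haus_le_local (f := f) (hUm.inter measurableSet_ball) (Nat.cast_nonneg n) hη ?_ ?_
        · intro x hx
          rw [mem_ball, dist_comm] at hx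
          refine ⟨mem_iUnion.2 ⟨k, x, hf x⟩, ?_⟩
          rw [mem_ball, dist_comm, (hf x).1]
          have h3 : lam * dist p x ≤ 1 * dist p x :=
            mul_le_mul_of_nonneg_right (hk k).2.le dist_nonneg
          linarith
        · intro x hx y hy hxy
          rw [mem_ball, dist_comm] at hx hy
          rw [Real.coe_toNNReal _ (by linarith)]
          exact hI p x y (f x) (f y) hx hy (hf x) (hf y) hxy
      rw [h.haus]
      refine h2.trans (le_of_eq ?_)
      rw [ENNReal.rpow_natCast, ENNReal.ofReal_pow (by linarith)]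
      rfl
    have h2 : m (ball p R) ≤ m (U ∩ ball p R) := by
      have hlim : Tendsto (fun ε : ℝ => ENNReal.ofReal ((1 + ε) ^ n) * m (U ∩ ball p R))
          (𝓝[>] 0) (𝓝 (ENNReal.ofReal ((1 + 0) ^ n) * m (U ∩ ball p R))) := by
        refine ENNReal.Tendsto.mul_const ?_ (Or.inr ?_)
        · refine (ENNReal.continuous_ofReal.tendsto _).comp ?_
          have : Continuous fun ε : ℝ => (1 + ε) ^ n := by fun_prop
          exact (this.tendsto 0).mono_left nhdsWithin_le_nhds
        · exact ((measure_mono inter_subset_right).trans_lt hfin).ne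
      have h3 := ge_of_tendsto hlim (by
        filter_upwards [self_mem_nhdsWithin] with ε hε using h1 ε hε)
      simpa using h3
    have h3 : ball p R \ U = ball p R \ (U ∩ ball p R) := by
      ext x; simp only [mem_diff, mem_inter_iff]; tauto
    rw [h3, measure_diff inter_subset_right (hUm.inter measurableSet_ball).nullMeasurableSet
      ((measure_mono inter_subset_right).trans_lt hfin).ne]
    exact tsub_eq_zero_of_le h2
  have h4 : m Uᶜ = 0 := by
    have h5 : Uᶜ ⊆ ⋃ k : ℕ, ball p ((k : ℝ) + 1) \ U := by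
      intro x hx
      obtain ⟨k, hk⟩ := exists_nat_gt (dist x p)
      exact mem_iUnion.2 ⟨k, by rw [mem_ball]; linarith, hx⟩
    refine measure_mono_null h5 (measure_iUnion_null fun k => key _ (by positivity))
  have h5 : ∀ᵐ x ∂m, x ∈ U := by
    rw [ae_iff]; exact h4
  filter_upwards [h5] with x hx
  obtain ⟨k, y, hy⟩ := mem_iUnion.1 hx
  exact ⟨y, _, hk k, hy⟩

end metric

/-- **Block RL2** -/
theorem blk_RL2 : RA.Blk_RL2.{u} := by
  intro M _ _ _ _ _ m n h
  have hg := geo_of_AH h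
  have := hg.proper
  exact ⟨bg_of_AH h, hg, aeInt_of_AH h⟩

end Vale.Agent.P233.H719
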