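import Vale.Agent.P233.H719.RAFlow
import Vale.Agent.P233.H719.RAHaus

/-! P233, RCDA, block RL3 (`Blk_Contr`): the contraction maps (helper719). -/

set_option linter.all false

open MeasureTheory Filter Topology Set Metric
open scoped ENNReal NNReal MeasureTheory

universe u

namespace Vale.Agent.P233.H719

open Vale.Agent.P233.RA

section measure

variable {M : Type u} [MetricSpace M] [SecondCountableTopology M] [MeasurableSpace M]
  [BorelSpace M] {m : Measure M}

theorem lint_le_of_eLpNorm {B : Set M} {f : M → ℝ} (hf : AEStronglyMeasurable f m) {ε : ℝ≥0∞}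
    (h : eLpNorm f 2 m ≤ ε) : ∫⁻ x in B, ‖f x‖ₑ ∂m ≤ ε * (m B) ^ (1 / 2 : ℝ) := by
  have h1 : ∫⁻ x in B, ‖f x‖ₑ ∂m = eLpNorm f 1 (m.restrict B) := eLpNorm_one_eq_lintegral_enorm.symm
  rw [h1]
  refine (eLpNorm_le_eLpNorm_mul_rpow_measure_univ (p := 1) (q := 2) (by norm_num)
    hf.restrict).trans ?_
  rw [Measure.restrict_apply_univ]
  have h2 : (1 / (1 : ℝ≥0∞).toReal - 1 / (2 : ℝ≥0∞).toReal) = (1 / 2 : ℝ) := by norm_num
  rw [h2]
  gcongr
  exact (eLpNorm_mono_measure f Measure.restrict_le_self).trans h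

/-- The inequality along the flow for Sobolev functions, at a fixed time. -/
theorem curve_W [SFinite m] {p : M} {s₀ R n K : ℝ} {Y : ℝ → M → M} (hs₀ : 0 ≤ s₀) (hR : 0 < R)
    (hn : 0 ≤ n) (hK : 0 ≤ K) (hB : m {x | dist p x < R} ≠ ∞)
    (meas : Measurable fun q : ℝ × M => Y q.1 q.2)
    (one : ∀ᵐ x ∂m, dist p x < R → Y 1 x = x)
    (speed : ∀ᵐ x ∂m, dist p x < R → ∀ s ∈ Ioc (0 : ℝ) 1, ∀ t ∈ Ioc (0 : ℝ) 1,
      dist (Y s x) (Y t x) = dist p x / (1 + s₀) * |s - t|)
    (stay : ∀ᵐ x ∂m, dist p x < R → ∀ t ∈ Ioc (0 : ℝ) 1, dist p (Y t x) < R)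
    (dens : ∀ t ∈ Ioc (0 : ℝ) 1, ∀ A : Set M, MeasurableSet A →
      m {x | dist p x < R ∧ Y t x ∈ A} ≤ ENNReal.ofReal (K * t ^ (-n)) * m A)
    {h G : M → ℝ} (hG : Met.RSlope m h G) (hh : Measurable h) (hGm : Measurable G) {t : ℝ}
    (ht : t ∈ Ioo (0 : ℝ) 1) :
    ∀ᵐ x ∂m, dist p x < R → ‖h x - h (Y t x)‖ₑ ≤ ENNReal.ofReal (dist p x / (1 + s₀)) *
      ∫⁻ τ in Ioc t 1, ENNReal.ofReal (G (Y τ x)) := by
  have hBm : MeasurableSet {x : M | dist p x < R} := H276.measurableSet_dist_lt p R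
  set B : Set M := {x : M | dist p x < R} with hBdef
  have ht1 : t ∈ Ioc (0 : ℝ) 1 := ⟨ht.1, ht.2.le⟩
  have hYt : ∀ τ, Measurable (Y τ) := fun τ => meas.comp (measurable_const.prodMk measurable_id)
  have hG0 : ∀ᵐ x ∂m, 0 ≤ G x := by
    obtain ⟨-, h2, u, g, hug, -, hg⟩ := hG
    exact Met.nonneg_of_tendsto_L2 (fun k => (hug k).2.2.1.1) h2.1 hg
      fun k => by filter_upwards [(hug k).lipBd] with x hx using hx.1
  set v : M → ℝ := fun x => dist p x / (1 + s₀) with hv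
  have hv0 : ∀ x, 0 ≤ v x := fun x => by simp only [hv]; positivity
  have hvm : Measurable v := by
    have : Continuous fun x : M => dist p x / (1 + s₀) :=
      (continuous_const.dist continuous_id).div_const _
    exact this.measurable
  set c : M → ℝ≥0∞ := fun x => ENNReal.ofReal (v x) * ∫⁻ τ in Ioc t 1, ENNReal.ofReal (G (Y τ x))
    with hc
  have hcm : Measurable c := by
    refine (ENNReal.measurable_ofReal.comp hvm).mul ?_
    exact Measurable.lintegral_prod_left' (f := fun z : ℝ × M => ENNReal.ofReal (G (Y z.1 z.2)))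
      (ENNReal.measurable_ofReal.comp (hGm.comp meas))
  set a : M → ℝ≥0∞ := fun x => ‖h x - h (Y t x)‖ₑ with ha
  have ham : Measurable a := (hh.sub (hh.comp (hYt t))).enorm
  have eG0 := H276.ae_ae_flow_of_ae hBm meas (c := fun t => ENNReal.ofReal (K * t ^ (-n))) dens hG0
  have eGi := H276.ae_intervalIntegrable_flow hBm meas dens hGm hG.2.1
  set Kt : ℝ≥0∞ := ENNReal.ofReal (K * t ^ (-n)) with hKt
  set Bc : ℝ≥0∞ := (m B) ^ (1 / 2 : ℝ) with hBc
  have hBcf : Bc ≠ ∞ := ENNReal.rpow_ne_top_of_nonneg (by norm_num) hB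
  have push : ∀ τ ∈ Icc t 1, ∀ f : M → ℝ≥0∞, Measurable f →
      ∫⁻ x in B, f (Y τ x) ∂m ≤ Kt * ∫⁻ x in B, f x ∂m := by
    intro τ hτ f hf
    have hτ0 : τ ∈ Ioc (0 : ℝ) 1 := ⟨ht.1.trans_le hτ.1, hτ.2⟩
    refine (H276.lintegral_push_le hBm hBm (hYt τ) (dens τ hτ0) ?_ hf).trans ?_
    · filter_upwards [stay] with x hx hxB using hx hxB τ hτ0
    · have hnn : -n ≤ 0 := by linarith
      exact mul_le_mul' (ENNReal.ofReal_le_ofReal (mul_le_mul_of_nonneg_left
        (Real.rpow_le_rpow_of_nonpos ht.1 hτ.1 hnn) hK)) le_rfl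
  -- the main estimate
  have main : ∀ ε : ℝ≥0∞, ε ≠ 0 → ∫⁻ x in B, (a x - c x) ∂m
      ≤ (Bc + Kt * Bc + ENNReal.ofReal R * (Kt * Bc)) * ε := by
    intro ε hε
    obtain ⟨u, g, hug, h1, h2⟩ := (Met.rSlope_iff_eps.1 hG).2.2 ε hε
    obtain ⟨hu, hu2, hg2, -⟩ := id hug
    set g' : M → ℝ := fun x => max (hg2.1.mk g x) 0 with hg'
    have hg'm : Measurable g' := (hg2.1.stronglyMeasurable_mk.measurable).max measurable_const
    have hgg : g' =ᵐ[m] g := by
      filter_upwards [hg2.1.ae_eq_mk, hug.lipBd] with x x1 x2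
      simp only [hg']
      rw [← x1, max_eq_left x2.1]
    have hg'2 : MemLp g' 2 m := (memLp_congr_ae hgg).2 hg2
    have hum : Measurable u := by
      obtain ⟨L, hL⟩ := hu
      exact hL.continuous.measurable
    have e1 : ∀ᵐ x ∂m, 0 ≤ g' x ∧ Met.LipBd u x (g' x) := by
      filter_upwards [hgg, hug.lipBd] with x x1 x2
      rw [x1]; exact x2
    have e2 := H276.ae_ae_flow_of_ae hBm meas (c := fun t => ENNReal.ofReal (K * t ^ (-n))) dens e1
    have e3 := H276.ae_intervalIntegrable_flow hBm meas dens hg'm hg'2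
    set F1 : M → ℝ≥0∞ := fun x => ‖u x - h x‖ₑ with hF1
    set F2 : M → ℝ≥0∞ := fun x => ‖g' x - G x‖ₑ with hF2
    have hF1m : Measurable F1 := (hum.sub hh).enorm
    have hF2m : Measurable F2 := (hg'm.sub hGm).enorm
    have pt : ∀ᵐ x ∂m, x ∈ B → a x - c x ≤ F1 x + F1 (Y t x)
        + ENNReal.ofReal R * ∫⁻ τ in Ioc t 1, F2 (Y τ x) := by
      filter_upwards [one, speed, e2, e3, eG0, eGi] with x x1 x2 x3 x4 x5 x6 hxB
      have hxR : dist p x < R := hxB
      have k1 : |u (Y 1 x) - u (Y t x)| ≤ v x * ∫ τ in t..1, g' (Y τ x) := by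
        refine lip_curve (γ := fun τ => Y τ x) ht.2.le (hv0 x) (fun s hs r hr => ?_) hu
          (x4 hxB t ht1) ?_
        · exact x2 hxR s ⟨ht.1.trans_le hs.1, hs.2⟩ r ⟨ht.1.trans_le hr.1, hr.2⟩
        · filter_upwards [x3 hxB] with τ hτ hτI
          exact hτ ⟨ht.1.trans hτI.1, hτI.2.le⟩
      rw [x1 hxR] at k1
      have i1 := x4 hxB t ht1
      have i2 := x6 hxB t ht1
      have k2 : ∫ τ in t..1, g' (Y τ x) = (∫ τ in t..1, G (Y τ x))
          + ∫ τ in t..1, (g' (Y τ x) - G (Y τ x)) := by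
        rw [intervalIntegral.integral_sub i1 i2]; ring
      have k3 : ENNReal.ofReal (v x * ∫ τ in t..1, G (Y τ x)) ≤ c x := by
        rw [ENNReal.ofReal_mul (hv0 x), intervalIntegral.integral_of_le ht.2.le]
        simp only [hc]
        gcongr
        rw [ofReal_integral_eq_lintegral_ofReal
          ((intervalIntegrable_iff_integrableOn_Ioc_of_le ht.2.le).1 i2)]
        rw [Filter.EventuallyLE, ae_restrict_iff' measurableSet_Ioc]
        filter_upwards [x5 hxB] with τ hτ hτI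
        exact hτ ⟨ht.1.trans hτI.1, hτI.2⟩
      have k4 : ENNReal.ofReal (v x * ∫ τ in t..1, (g' (Y τ x) - G (Y τ x)))
          ≤ ENNReal.ofReal R * ∫⁻ τ in Ioc t 1, F2 (Y τ x) := by
        rw [ENNReal.ofReal_mul (hv0 x)]
        have hvR : v x ≤ R := by
          simp only [hv]
          rw [div_le_iff₀ (by linarith)]
          have : 0 ≤ dist p x := dist_nonneg
          nlinarith
        refine mul_le_mul' (ENNReal.ofReal_le_ofReal hvR) ?_
        rw [intervalIntegral.integral_of_le ht.2.le]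
        refine le_trans ?_ (enorm_integral_le_lintegral_enorm _)
        rw [Real.enorm_eq_ofReal_abs]
        exact ENNReal.ofReal_le_ofReal (le_abs_self _)
      have k5 : a x ≤ F1 x + F1 (Y t x) + ‖u x - u (Y t x)‖ₑ := by
        have : h x - h (Y t x) = -(u x - h x) + (u (Y t x) - h (Y t x)) + (u x - u (Y t x)) := by
          ring
        simp only [ha]
        rw [this]
        refine (enorm_add_le _ _).trans ?_
        gcongr
        refine (enorm_add_le _ _).trans ?_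
        rw [enorm_neg]
      have k6 : ‖u x - u (Y t x)‖ₑ ≤ c x + ENNReal.ofReal R * ∫⁻ τ in Ioc t 1, F2 (Y τ x) := by
        rw [Real.enorm_eq_ofReal_abs]
        refine (ENNReal.ofReal_le_ofReal k1).trans ?_
        rw [k2, mul_add]
        exact ENNReal.ofReal_add_le.trans (add_le_add k3 k4)
      rw [tsub_le_iff_right]
      refine k5.trans ((add_le_add le_rfl k6).trans (le_of_eq ?_))
      ring
    have hm3 : Measurable fun x => ∫⁻ τ in Ioc t 1, F2 (Y τ x) :=
      Measurable.lintegral_prod_left' (f := fun z : ℝ × M => F2 (Y z.1 z.2)) (hF2m.comp meas)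
    have j1 : ∫⁻ x in B, F1 x ∂m ≤ ε * Bc :=
      lint_le_of_eLpNorm (hum.sub hh).aestronglyMeasurable h1
    have j2 : ∫⁻ x in B, F2 x ∂m ≤ ε * Bc := by
      refine lint_le_of_eLpNorm (f := fun x => g' x - G x) (hg'm.sub hGm).aestronglyMeasurable ?_
      refine le_trans (le_of_eq (eLpNorm_congr_ae ?_)) h2
      filter_upwards [hgg] with x hx
      simp [hx]
    have j3 : ∫⁻ x in B, F1 (Y t x) ∂m ≤ Kt * (ε * Bc) :=
      (push t ⟨le_rfl, ht.2.le⟩ F1 hF1m).trans (by gcongr)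
    have j4 : ∫⁻ x in B, (∫⁻ τ in Ioc t 1, F2 (Y τ x)) ∂m ≤ Kt * (ε * Bc) := by
      have hmm : Measurable (Function.uncurry fun (x : M) (τ : ℝ) => F2 (Y τ x)) :=
        hF2m.comp (meas.comp measurable_swap)
      rw [lintegral_lintegral_swap hmm.aemeasurable]
      calc ∫⁻ τ in Ioc t 1, (∫⁻ x in B, F2 (Y τ x) ∂m) ≤ ∫⁻ τ in Ioc t 1, Kt * (ε * Bc) := by
            refine setLIntegral_mono' measurableSet_Ioc fun τ hτ => ?_
            exact (push τ ⟨hτ.1.le, hτ.2⟩ F2 hF2m).trans (by gcongr)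
        _ = Kt * (ε * Bc) * ENNReal.ofReal (1 - t) := by
            rw [setLIntegral_const, Real.volume_Ioc]
        _ ≤ Kt * (ε * Bc) * 1 := by
            gcongr
            rw [← ENNReal.ofReal_one]
            exact ENNReal.ofReal_le_ofReal (by linarith [ht.1])
        _ = _ := mul_one _
    calc ∫⁻ x in B, (a x - c x) ∂m
        ≤ ∫⁻ x in B, (F1 x + F1 (Y t x) + ENNReal.ofReal R * ∫⁻ τ in Ioc t 1, F2 (Y τ x)) ∂m := by
          refine lintegral_mono_ae ?_
          rw [ae_restrict_iff' hBm]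
          exact pt
      _ = (∫⁻ x in B, F1 x ∂m + ∫⁻ x in B, F1 (Y t x) ∂m)
          + ENNReal.ofReal R * ∫⁻ x in B, (∫⁻ τ in Ioc t 1, F2 (Y τ x)) ∂m := by
          rw [lintegral_add_right _ (hm3.const_mul _), lintegral_add_left hF1m,
            lintegral_const_mul _ hm3]
      _ ≤ (ε * Bc + Kt * (ε * Bc)) + ENNReal.ofReal R * (Kt * (ε * Bc)) := by gcongr
      _ = _ := by ring
  have hzero : ∫⁻ x in B, (a x - c x) ∂m = 0 := by
    set D : ℝ≥0∞ := Bc + Kt * Bc + ENNReal.ofReal R * (Kt * Bc) with hD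
    have hDf : D ≠ ∞ := by
      have h1 : Kt * Bc ≠ ∞ := ENNReal.mul_ne_top ENNReal.ofReal_ne_top hBcf
      exact ENNReal.add_ne_top.2 ⟨ENNReal.add_ne_top.2 ⟨hBcf, h1⟩,
        ENNReal.mul_ne_top ENNReal.ofReal_ne_top h1⟩
    have hlim : Tendsto (fun k : ℕ => D * ENNReal.ofReal (1 / ((k : ℝ) + 1))) atTop
        (𝓝 (D * ENNReal.ofReal 0)) :=
      ENNReal.Tendsto.const_mul ((ENNReal.continuous_ofReal.tendsto 0).comp
        tendsto_one_div_add_atTop_nhds_zero_nat) (Or.inr hDf)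
    rw [ENNReal.ofReal_zero, mul_zero] at hlim
    refine le_antisymm (ge_of_tendsto' hlim fun k => main _ ?_) bot_le
    have : (0 : ℝ) < 1 / ((k : ℝ) + 1) := by positivity
    exact (ENNReal.ofReal_pos.2 this).ne'
  have hz := (lintegral_eq_zero_iff (ham.sub hcm)).1 hzero
  rw [Filter.EventuallyEq, ae_restrict_iff' hBm] at hz
  filter_upwards [hz] with x hx hxR
  exact tsub_eq_zero_iff_le.1 (hx hxR)

theorem gn_rslope {h : M →ₘ[m] ℝ} (hh : h ∈ (sob m).W) : Met.RSlope m h (PD.gn m h) := by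
  refine (mem_sob_iff.1 hh).rSlope.congr Filter.EventuallyEq.rfl ?_
  filter_upwards [sob_Γ_self_ae hh, (mem_sob_iff.1 hh).mslope_nonneg] with x h1 h2
  rw [PD.gn, h1, Real.sqrt_sq h2]

/-- from the flow to the contraction maps -/
theorem contr_of_flow [SFinite m] {p : M} {s₀ R n K : ℝ} {Y : ℝ → M → M} (hs₀ : 0 ≤ s₀)
    (hR : 0 < R) (hn : 0 ≤ n) (hK : 0 ≤ K) (hB : m {x | dist p x < R} ≠ ∞)
    (meas : Measurable fun q : ℝ × M => Y q.1 q.2)
    (one : ∀ᵐ x ∂m, dist p x < R → Y 1 x = x)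
    (speed : ∀ᵐ x ∂m, dist p x < R → ∀ s ∈ Ioc (0 : ℝ) 1, ∀ t ∈ Ioc (0 : ℝ) 1,
      dist (Y s x) (Y t x) = dist p x / (1 + s₀) * |s - t|)
    (rad : ∀ᵐ x ∂m, dist p x < R → ∀ t ∈ Ioc (0 : ℝ) 1,
      dist p (Y t x) = (t + s₀) / (1 + s₀) * dist p x)
    (dens : ∀ t ∈ Ioc (0 : ℝ) 1, ∀ A : Set M, MeasurableSet A →
      m {x | dist p x < R ∧ Y t x ∈ A} ≤ ENNReal.ofReal (K * t ^ (-n)) * m A) :
    PD.Contr m p s₀ R n K Y := by
  have hBm : MeasurableSet {x : M | dist p x < R} := H276.measurableSet_dist_lt p R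
  have stay : ∀ᵐ x ∂m, dist p x < R → ∀ t ∈ Ioc (0 : ℝ) 1, dist p (Y t x) < R := by
    filter_upwards [rad] with x hx hxR t ht
    rw [hx hxR t ht]
    have : (t + s₀) / (1 + s₀) ≤ 1 := by
      rw [div_le_one (by linarith)]; linarith [ht.2]
    calc (t + s₀) / (1 + s₀) * dist p x ≤ 1 * dist p x :=
          mul_le_mul_of_nonneg_right this dist_nonneg
      _ < R := by rw [one_mul]; exact hxR
  refine ⟨meas, ?_, dens, ?_⟩
  · filter_upwards [one, speed, rad] with x h1 h2 h3 hx t ht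
    refine ⟨h3 hx t ht, ?_⟩
    have h4 := h2 hx t ht 1 ⟨one_pos, le_rfl⟩
    rw [h1 hx] at h4
    rw [h4, abs_of_nonpos (by linarith [ht.2])]
    ring
  · rintro h b ⟨hW, ⟨L, hL⟩, hb⟩
    have hgm := H276.gn_measurable m h
    have hRS := gn_rslope hW
    have eGi := H276.ae_intervalIntegrable_flow hBm meas dens hgm hRS.2.1
    have key : ∀ q : ℚ, (q : ℝ) ∈ Ioo (0 : ℝ) 1 → ∀ᵐ x ∂m, dist p x < R →
        |b x - b (Y q x)| ≤ dist p x / (1 + s₀) * ∫ τ in (q : ℝ)..1, PD.gn m h (Y τ x) := by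
      intro q hq
      have hq1 : (q : ℝ) ∈ Ioc (0 : ℝ) 1 := ⟨hq.1, hq.2.le⟩
      filter_upwards [curve_W hs₀ hR hn hK hB meas one speed stay dens hRS h.measurable hgm hq, hb,
        H276.ae_flow_of_ae (S := {x | dist p x < R}) (dens q hq1) hb, eGi] with x x1 x2 x3 x4 hxR
      have y1 := x1 hxR
      rw [x2, x3 hxR, ← ofReal_integral_eq_lintegral_ofReal
        ((intervalIntegrable_iff_integrableOn_Ioc_of_le hq.2.le).1 (x4 hxR q hq1))
        (ae_of_all _ fun τ => H276.gn_nonneg m h _),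
        ← ENNReal.ofReal_mul (by positivity), Real.enorm_eq_ofReal_abs,
        ← intervalIntegral.integral_of_le hq.2.le] at y1
      refine (ENNReal.ofReal_le_ofReal_iff ?_).1 y1
      refine mul_nonneg (by positivity) (intervalIntegral.integral_nonneg hq.2.le fun τ _ =>
        H276.gn_nonneg m h _)
    have key' : ∀ᵐ x ∂m, ∀ q : ℚ, (q : ℝ) ∈ Ioo (0 : ℝ) 1 → dist p x < R →
        |b x - b (Y q x)| ≤ dist p x / (1 + s₀) * ∫ τ in (q : ℝ)..1, PD.gn m h (Y τ x) := by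
      rw [ae_all_iff]; intro q
      by_cases hq : (q : ℝ) ∈ Ioo (0 : ℝ) 1
      · filter_upwards [key q hq] with x hx _ using hx
      · exact ae_of_all _ fun x h => absurd h hq
    filter_upwards [one, speed, key', eGi] with x x1 x2 x3 x4 hx t ht
    refine ⟨x4 hx t ht, ?_⟩
    rcases eq_or_lt_of_le ht.2 with h1 | h1
    · rw [h1, x1 hx]; simp
    refine le_of_forall_pos_le_add fun ε hε => ?_
    obtain ⟨δ, hδ, hδε⟩ : ∃ δ > 0, L * (dist p x / (1 + s₀)) * δ ≤ ε := by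
      have hc : 0 ≤ L * (dist p x / (1 + s₀)) := by positivity
      refine ⟨ε / (L * (dist p x / (1 + s₀)) + 1), by positivity, ?_⟩
      rw [mul_div_assoc', div_le_iff₀ (by positivity)]
      nlinarith
    obtain ⟨q, hq1, hq2⟩ := exists_rat_btwn (lt_min h1 (lt_add_of_pos_right t hδ))
    have hqI : (q : ℝ) ∈ Ioo (0 : ℝ) 1 := ⟨ht.1.trans hq1, hq2.trans_le (min_le_left _ _)⟩
    have hqI' : (q : ℝ) ∈ Ioc (0 : ℝ) 1 := ⟨hqI.1, hqI.2.le⟩
    have a1 : |b (Y q x) - b (Y t x)| ≤ ε := by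
      have := hL.dist_le_mul (Y q x) (Y t x)
      rw [Real.dist_eq, x2 hx q hqI' t ht, abs_of_nonneg (by linarith : 0 ≤ (q : ℝ) - t)] at this
      refine this.trans (le_trans ?_ hδε)
      rw [← mul_assoc]
      have h3 : (q : ℝ) - t ≤ δ := by
        have := hq2.trans_le (min_le_right _ _)
        linarith
      exact mul_le_mul_of_nonneg_left h3 (by positivity)
    have a2 : ∫ τ in (q : ℝ)..1, PD.gn m h (Y τ x) ≤ ∫ τ in t..1, PD.gn m h (Y τ x) := by
      refine intervalIntegral.integral_mono_interval hq1.le hqI.2.le le_rfl ?_ (x4 hx t ht)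
      exact ae_of_all _ fun τ => H276.gn_nonneg m h _
    calc |b x - b (Y t x)| ≤ |b x - b (Y q x)| + |b (Y q x) - b (Y t x)| := abs_sub_le _ _ _
      _ ≤ (dist p x / (1 + s₀) * ∫ τ in (q : ℝ)..1, PD.gn m h (Y τ x)) + ε :=
          add_le_add (x3 q hqI hx) a1
      _ ≤ (dist p x / (1 + s₀) * ∫ τ in t..1, PD.gn m h (Y τ x)) + ε := by gcongr

/-- **RL3** -/
theorem hasContr_of_AH [ProperSpace M] [SFinite m] {n : ℕ} (hA : AH m n) (hE : AeInt m) :
    PD.HasContr m n := by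
  classical
  intro R hR
  obtain ⟨C, hC, hI⟩ := hA.inv R hR
  refine ⟨(2 * C) ^ n, fun p s₀ hs₀ => ?_⟩
  -- the contraction
  have hex : ∀ (μ : ℝ) (x : M), ∃ z, μ ∈ Icc (0 : ℝ) 1 → Rat p x z μ := by
    intro μ x
    by_cases h : μ ∈ Icc (0 : ℝ) 1
    · obtain ⟨z, hz⟩ := exists_rat hA.geo p x h
      exact ⟨z, fun _ => hz⟩
    · exact ⟨x, fun h' => absurd h' h⟩
  choose f hf' using hex
  have hf : ∀ μ ∈ Icc (0 : ℝ) 1, ∀ x, Rat p x (f μ x) μ := fun μ hμ x => hf' μ x hμ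
  -- the good set
  obtain ⟨N, hN, hNm, hN0⟩ := exists_measurable_superset_of_null (ae_iff.1 (hE p))
  set S : Set M := Nᶜ with hS
  have hSm : MeasurableSet S := hNm.compl
  have hSE : S ⊆ Ext p := by
    intro x hx
    by_contra h
    exact hx (hN h)
  have hSae : ∀ᵐ x ∂m, x ∈ S := by
    rw [ae_iff]; simpa [hS] using hN0
  have h1s : 0 < 1 + s₀ := by linarith [hs₀.1]
  set ν : ℝ → ℝ := fun t => (max 0 (min 1 t) + s₀) / (1 + s₀) with hν
  have hνc : Continuous ν := by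
    have : Continuous fun t : ℝ => max (0 : ℝ) (min 1 t) :=
      continuous_const.max (continuous_const.min continuous_id)
    exact (this.add continuous_const).div_const _
  have hνI : ∀ t, ν t ∈ Icc (0 : ℝ) 1 := by
    intro t
    have h0 : 0 ≤ max 0 (min 1 t) := le_max_left _ _
    have h1 : max 0 (min 1 t) ≤ 1 := max_le zero_le_one (min_le_left _ _)
    refine ⟨div_nonneg (by linarith [hs₀.1]) h1s.le, (div_le_one h1s).2 (by linarith)⟩
  have hνt : ∀ t ∈ Ioc (0 : ℝ) 1, ν t = (t + s₀) / (1 + s₀) := by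
    intro t ht
    simp only [hν]
    rw [min_eq_right ht.2, max_eq_right ht.1.le]
  have hcont : ContinuousOn (fun q : ℝ × M => f (ν q.1) q.2) (univ ×ˢ S) := by
    have h1 := rat_cont hA.inv hf
    have h2 : Continuous fun q : ℝ × M => (ν q.1, q.2) :=
      (hνc.comp continuous_fst).prodMk continuous_snd
    exact h1.comp h2.continuousOn fun q hq => ⟨hνI q.1, hSE hq.2⟩
  set Y : ℝ → M → M := fun t x => if x ∈ S then f (ν t) x else x with hY
  have hYS : ∀ t, ∀ x ∈ S, Y t x = f (ν t) x := fun t x hx => by simp only [hY]; rw [if_pos hx]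
  have meas : Measurable fun q : ℝ × M => Y q.1 q.2 := by
    have hms : MeasurableSet ((univ : Set ℝ) ×ˢ S) := MeasurableSet.univ.prod hSm
    have h1 := hcont.measurable_piecewise (g := fun q : ℝ × M => q.2)
      (continuous_snd.continuousOn) hms
    convert h1 using 1
    ext q
    simp only [hY, Set.piecewise, mem_prod, mem_univ, true_and]
  have hrat : ∀ t, ∀ x ∈ S, Rat p x (Y t x) (ν t) := fun t x hx => by
    rw [hYS t x hx]; exact hf _ (hνI t) x
  have hfin : m {x | dist p x < R} ≠ ∞ := by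
    have h1 : {x | dist p x < R} = ball p R := by
      ext x; rw [mem_setOf_eq, mem_ball, dist_comm]
    rw [h1]; exact (hA.fin p R).ne
  refine ⟨Y, contr_of_flow hs₀.1.le hR (Nat.cast_nonneg n) (by positivity) hfin meas ?_ ?_ ?_ ?_⟩
  · filter_upwards [hSae] with x hx _
    have h1 := hrat 1 x hx
    rw [hνt 1 ⟨one_pos, le_rfl⟩, div_self h1s.ne'] at h1
    exact rat_one h1
  · filter_upwards [hSae] with x hx _ s hs t ht
    have key : ∀ s ∈ Ioc (0 : ℝ) 1, ∀ t ∈ Ioc (0 : ℝ) 1, s ≤ t →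
        dist (Y s x) (Y t x) = dist p x / (1 + s₀) * (t - s) := by
      intro s hs t ht hst
      have h1 : ν s ≤ ν t := by
        rw [hνt s hs, hνt t ht]
        exact div_le_div_of_nonneg_right (by linarith) h1s.le
      rw [rat_speed hA.geo hA.inv (hνI s).1 h1 (hνI t).2 (hSE hx) (hrat s x hx) (hrat t x hx),
        hνt s hs, hνt t ht]
      field_simp
      ring
    rcases le_total s t with h | h
    · rw [key s hs t ht h, abs_of_nonpos (by linarith)]; ring
    · rw [dist_comm, key t ht s hs h, abs_of_nonneg (by linarith)]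
  · filter_upwards [hSae] with x hx _ t ht
    rw [(hrat t x hx).1, hνt t ht]
  · intro t ht A hAm
    have hl : ν t ∈ Ioc (0 : ℝ) 1 := by
      refine ⟨?_, (hνI t).2⟩
      rw [hνt t ht]
      exact div_pos (by linarith [ht.1, hs₀.1]) h1s
    have h1 : m {x | dist p x < R ∧ Y t x ∈ A} ≤ m ({x | dist p x < R ∧ Y t x ∈ A} ∩ S) := by
      refine measure_mono_ae ?_
      filter_upwards [hSae] with x hx hxA using ⟨hxA, hx⟩
    have h2 : m ({x | dist p x < R ∧ Y t x ∈ A} ∩ S) ≤ ENNReal.ofReal ((C / ν t) ^ n) * m A :=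
      meas_le_of_rat hA hC hI (p := p) hl fun x hx =>
        ⟨hx.1.1, Y t x, hx.1.2, hrat t x hx.2⟩
    refine (h1.trans h2).trans ?_
    gcongr
    rw [Real.rpow_neg ht.1.le, Real.rpow_natCast, ← div_eq_mul_inv, ← div_pow]
    refine pow_le_pow_left₀ (by have := hl.1; positivity) ?_ n
    rw [hνt t ht, div_div_eq_mul_div, div_le_div_iff₀ (by linarith [ht.1, hs₀.1]) ht.1]
    have h3 : t * (1 + s₀) ≤ 2 * (t + s₀) := by nlinarith [ht.1, ht.2, hs₀.1, hs₀.2]
    nlinarith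

/-- **Block RL3** -/
theorem blk_RL3 : RA.Blk_RL3.{u} := by
  intro M _ _ _ _ _ m n hA _ hG hE
  have := hG.proper
  have : SigmaFinite m := sigmaFinite_of_ball hA.fin
  exact hasContr_of_AH hA hE

end measure

end Vale.Agent.P233.H719
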