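import Vale.Agent.P233.H719.RADef
import Vale.Agent.P233.H276.CContr

/-! P233, RCDA, block RL3 (`Blk_Contr`), metric part: uniqueness and continuity of the radial
contraction on extendable points; Lipschitz functions along curves (helper719). -/

set_option linter.all false

open MeasureTheory Filter Topology Set Metric
open scoped ENNReal NNReal MeasureTheory

universe u

namespace Vale.Agent.P233.H719

open Vale.Agent.P233.RA

section metric

variable {M : Type u} [MetricSpace M]

/-- points in the interior of a geodesic from `p` -/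
def Ext (p : M) : Set M := {x | ∃ y : M, ∃ lam ∈ Ioo (0 : ℝ) 1, Rat p y x lam}

theorem rat_unique (hI : InvLip M) {p x z z' : M} {μ : ℝ} (hμ : μ ∈ Icc (0 : ℝ) 1)
    (hx : x ∈ Ext p) (hz : Rat p x z μ) (hz' : Rat p x z' μ) : z = z' := by
  obtain ⟨y, lam, hlam, h1, h2⟩ := hx
  have hpy : dist p y = dist p x + dist x y := by rw [h1, h2]; ring
  rcases (dist_nonneg (x := p) (y := y)).eq_or_lt with h0 | h0
  · have hpx : dist p x = 0 := by rw [h1, ← h0, mul_zero]
    have e1 : dist p z = 0 := by rw [hz.1, hpx, mul_zero]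
    have e2 : dist p z' = 0 := by rw [hz'.1, hpx, mul_zero]
    rw [← dist_eq_zero.1 e1, ← dist_eq_zero.1 e2]
  have ha : 0 < dist x y := by
    rw [h2]; exact mul_pos (by linarith [hlam.2]) h0
  have key : ∀ w, Rat p x w μ → dist y w = dist x y + (1 - μ) * dist p x := by
    intro w hw
    have t1 := dist_triangle y x w
    have t2 := dist_triangle p w y
    rw [hw.1, hpy, dist_comm w y] at t2
    have t3 := hw.2
    rw [dist_comm w x] at t3
    rw [dist_comm y x] at t1
    refine le_antisymm (by linarith) (by linarith)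
  set D : ℝ := dist x y + (1 - μ) * dist p x with hD
  have hD0 : 0 < D := by
    have : 0 ≤ (1 - μ) * dist p x := mul_nonneg (by linarith [hμ.2]) dist_nonneg
    linarith
  have hDx : dist x y ≤ D := by
    have : 0 ≤ (1 - μ) * dist p x := mul_nonneg (by linarith [hμ.2]) dist_nonneg
    linarith
  have hr : ∀ w, Rat p x w μ → Rat y w x (dist x y / D) := by
    intro w hw
    refine ⟨?_, ?_⟩
    · rw [key w hw, dist_comm y x]; field_simp
    · rw [key w hw, dist_comm x w, hw.2]
      have : (1 - dist x y / D) * D = D - dist x y := by field_simp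
      rw [this, hD]; ring
  obtain ⟨C, hC, hI⟩ := hI (D + 1) (by linarith)
  have hl : dist x y / D ∈ Ioc (0 : ℝ) 1 := ⟨by positivity, (div_le_one hD0).2 hDx⟩
  have h3 := hI y z z' x x (dist x y / D) hl (by rw [key z hz]; linarith)
    (by rw [key z' hz']; linarith) (hr z hz) (hr z' hz')
  rw [dist_self, mul_zero] at h3
  have h4 : dist z z' ≤ 0 := by
    by_contra h5
    push Not at h5
    have := mul_pos hl.1 h5
    linarith
  exact dist_le_zero.1 h4

/-- constant speed -/
theorem rat_speed (hg : Gig.Geo M) (hI : InvLip M) {p x z w : M} {μ lam : ℝ}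
    (hμ : 0 ≤ μ) (hμl : μ ≤ lam) (hl : lam ≤ 1) (hx : x ∈ Ext p) (hz : Rat p x z μ)
    (hw : Rat p x w lam) : dist z w = (lam - μ) * dist p x := by
  rcases (hμ.trans hμl).eq_or_lt with h0 | h0
  · have hμ0 : μ = 0 := le_antisymm (by linarith) hμ
    have e1 : dist p z = 0 := by rw [hz.1, hμ0, zero_mul]
    have e2 : dist p w = 0 := by rw [hw.1, ← h0, zero_mul]
    rw [← dist_eq_zero.1 e1, ← dist_eq_zero.1 e2, dist_self, ← h0, hμ0]; ring
  obtain ⟨v, hv1, hv2⟩ := hg p w (μ * dist p x) ((lam - μ) * dist p x)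
    (mul_nonneg hμ dist_nonneg) (mul_nonneg (by linarith) dist_nonneg) (by rw [hw.1]; ring)
  have hv : Rat p x v μ := by
    refine ⟨hv1, ?_⟩
    have t1 := dist_triangle v w x
    have t2 := dist_triangle p v x
    rw [hv2, hw.2] at t1
    rw [hv1] at t2
    refine le_antisymm (by linarith) (by linarith)
  rw [← rat_unique hI ⟨hμ, by linarith⟩ hx hv hz, hv2]

theorem rat_one {p x z : M} (h : Rat p x z 1) : z = x := by
  have := h.2
  rw [sub_self, zero_mul] at this
  exact dist_eq_zero.1 this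

/-- continuity of the contraction -/
theorem rat_cont [ProperSpace M] (hI : InvLip M) {p : M} {f : ℝ → M → M}
    (hf : ∀ μ ∈ Icc (0 : ℝ) 1, ∀ x, Rat p x (f μ x) μ) :
    ContinuousOn (fun q : ℝ × M => f q.1 q.2) (Icc 0 1 ×ˢ Ext p) := by
  rintro ⟨μ, x⟩ ⟨hμ, hx⟩
  simp only at hμ hx
  have hmem : ∀ᶠ q : ℝ × M in 𝓝[Icc 0 1 ×ˢ Ext p] (μ, x), q.1 ∈ Icc (0 : ℝ) 1 := by
    filter_upwards [self_mem_nhdsWithin] with q hq using hq.1
  have hc1 : Tendsto (fun q : ℝ × M => q.1) (𝓝[Icc 0 1 ×ˢ Ext p] (μ, x)) (𝓝 μ) :=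
    (continuous_fst.tendsto (μ, x)).mono_left nhdsWithin_le_nhds
  have hc2 : Tendsto (fun q : ℝ × M => q.2) (𝓝[Icc 0 1 ×ˢ Ext p] (μ, x)) (𝓝 x) :=
    (continuous_snd.tendsto (μ, x)).mono_left nhdsWithin_le_nhds
  have hd2 : Tendsto (fun q : ℝ × M => dist p q.2) (𝓝[Icc 0 1 ×ˢ Ext p] (μ, x)) (𝓝 (dist p x)) :=
    tendsto_const_nhds.dist hc2
  refine (isCompact_closedBall p (dist p x + 1)).tendsto_nhds_of_unique_mapClusterPt ?_ ?_
  · filter_upwards [hmem, hd2.eventually (gt_mem_nhds (lt_add_one _))] with q h1 h2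
    rw [mem_closedBall, dist_comm, (hf q.1 h1 q.2).1]
    calc q.1 * dist p q.2 ≤ 1 * dist p q.2 := mul_le_mul_of_nonneg_right h1.2 dist_nonneg
      _ ≤ dist p x + 1 := by linarith
  · intro y _ hy
    rw [mapClusterPt_iff_ultrafilter] at hy
    obtain ⟨V, hV, hVy⟩ := hy
    refine rat_unique hI hμ hx ?_ (hf μ hμ x)
    constructor
    · have h1 : Tendsto (fun q : ℝ × M => dist p (f q.1 q.2)) V (𝓝 (dist p y)) :=
        tendsto_const_nhds.dist hVy
      have h2 : Tendsto (fun q : ℝ × M => q.1 * dist p q.2) V (𝓝 (μ * dist p x)) :=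
        (hc1.mul hd2).mono_left hV
      refine tendsto_nhds_unique h1 (h2.congr' ?_)
      filter_upwards [hV hmem] with q hq using ((hf q.1 hq q.2).1).symm
    · have h1 : Tendsto (fun q : ℝ × M => dist (f q.1 q.2) q.2) V (𝓝 (dist y x)) :=
        hVy.dist (hc2.mono_left hV)
      have h2 : Tendsto (fun q : ℝ × M => (1 - q.1) * dist p q.2) V (𝓝 ((1 - μ) * dist p x)) :=
        ((tendsto_const_nhds.sub hc1).mul hd2).mono_left hV
      refine tendsto_nhds_unique h1 (h2.congr' ?_)
      filter_upwards [hV hmem] with q hq using ((hf q.1 hq q.2).2).symm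

/-- Lipschitz functions along curves of constant speed -/
theorem lip_curve {γ : ℝ → M} {a b v : ℝ} (hab : a ≤ b) (hv : 0 ≤ v)
    (hγ : ∀ s ∈ Icc a b, ∀ t ∈ Icc a b, dist (γ s) (γ t) = v * |s - t|) {u : M → ℝ}
    (hu : Met.IsLip u) {g : ℝ → ℝ} (hg : IntervalIntegrable g volume a b)
    (hb : ∀ᵐ t : ℝ, t ∈ Ioo a b → 0 ≤ g t ∧ Met.LipBd u (γ t) (g t)) :
    |u (γ b) - u (γ a)| ≤ v * ∫ t in a..b, g t := by
  obtain ⟨L, hL⟩ := hu
  have hlip : LipschitzOnWith (L * v.toNNReal) (fun t => u (γ t)) (uIcc a b) := by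
    refine LipschitzOnWith.of_dist_le_mul fun s hs t ht => ?_
    rw [uIcc_of_le hab] at hs ht
    refine (hL.dist_le_mul _ _).trans ?_
    rw [hγ s hs t ht, Real.dist_eq]
    push_cast
    rw [Real.coe_toNNReal _ hv, mul_assoc]
  have hac := hlip.absolutelyContinuousOnInterval
  rw [← hac.integral_deriv_eq_sub, ← Real.norm_eq_abs, ← intervalIntegral.integral_const_mul]
  refine intervalIntegral.norm_integral_le_of_norm_le hab ?_ (hg.const_mul v)
  have hne : ∀ᵐ t : ℝ, t ≠ b := by
    rw [ae_iff]; simp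
  filter_upwards [hb, hne] with t ht1 htb ht
  have htI : t ∈ Ioo a b := ⟨ht.1, lt_of_le_of_ne ht.2 htb⟩
  obtain ⟨h0, h1⟩ := ht1 htI
  by_cases hd : DifferentiableAt ℝ (fun t => u (γ t)) t
  · have hnhds : Icc a b ∈ 𝓝 t := Icc_mem_nhds htI.1 htI.2
    have hcont : Tendsto γ (𝓝 t) (𝓝 (γ t)) := by
      rw [tendsto_iff_dist_tendsto_zero]
      have h2 : Tendsto (fun s => v * |s - t|) (𝓝 t) (𝓝 (v * |t - t|)) :=
        (((continuous_id.sub continuous_const).abs.const_mul v).tendsto t)
      rw [sub_self, abs_zero, mul_zero] at h2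
      refine h2.congr' ?_
      filter_upwards [hnhds] with s hs using (hγ s hs t ⟨htI.1.le, htI.2.le⟩).symm
    refine le_of_forall_pos_le_add fun δ hδ => ?_
    have h3 : ‖deriv (fun t => u (γ t)) t‖ ≤ v * (g t + δ / (v + 1)) := by
      refine hd.hasDerivAt.le_of_lip' (by positivity) ?_
      filter_upwards [hcont.eventually (h1 (g t + δ / (v + 1)) (by
        have : 0 < δ / (v + 1) := by positivity
        linarith)), hnhds] with s hs hsI
      rw [hγ s hsI t ⟨htI.1.le, htI.2.le⟩] at hs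
      rw [Real.norm_eq_abs, Real.norm_eq_abs]
      linarith
    refine h3.trans ?_
    have h4 : v * (δ / (v + 1)) ≤ δ := by
      rw [mul_div_assoc', div_le_iff₀ (by linarith)]
      nlinarith
    linarith
  · rw [deriv_zero_of_not_differentiableAt hd, norm_zero]
    exact mul_nonneg hv h0

end metric

end Vale.Agent.P233.H719
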