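import Vale.Agent.P233.H933.Str4

/-!
# Charts at regular points, part 1: comparison cosines at small scale, uniformly

* `tendsto_cvm` : the comparison cosine of curvature `-1` at small scale, all three sides varying.
* `cvm_close` : the same as an `ε`-`η` statement, for all `κ < 0`.
* `apx_neg` : the first variation estimate with explicit constants, for `κ < 0`.
-/

set_option linter.all false

open Real Filter Topology Set

namespace Vale.Agent.P233.RegCh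

open Vale.Agent.P233.AB Vale.Agent.P233.Str

/-- scaling, for `κ < 0` -/
lemma cvA_neg {κ : ℝ} (hκ : κ < 0) (a b c : ℝ) :
    cvA κ a b c = cvA (-1) (√(-κ) * a) (√(-κ) * b) (√(-κ) * c) := by
  unfold cvA
  rw [if_neg hκ.ne, if_neg (not_lt.2 hκ.le), if_neg (by norm_num), if_neg (by norm_num)]
  simp only [neg_neg, Real.sqrt_one, one_mul]

lemma tendsto_cvm {a₀ b₀ c₀ : ℝ} {ρ a b c : ℕ → ℝ} (ha0 : 0 < a₀) (hb0 : 0 < b₀)
    (hρ : Tendsto ρ atTop (𝓝 0)) (hρ0 : ∀ n, ρ n ≠ 0) (ha : Tendsto a atTop (𝓝 a₀))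
    (hb : Tendsto b atTop (𝓝 b₀)) (hc : Tendsto c atTop (𝓝 c₀)) :
    Tendsto (fun n => cvA (-1) (a n * ρ n) (b n * ρ n) (c n * ρ n)) atTop
      (𝓝 ((a₀ ^ 2 + b₀ ^ 2 - c₀ ^ 2) / (2 * a₀ * b₀))) := by
  have ta := tendsto_cosh_sub_one (k := 1) hρ hρ0 ha
  have tb := tendsto_cosh_sub_one (k := 1) hρ hρ0 hb
  have tc := tendsto_cosh_sub_one (k := 1) hρ hρ0 hc
  have sa := tendsto_div_of_deriv (f := sinh) (by simpa using Real.hasDerivAt_sinh 0)
    Real.sinh_zero hρ hρ0 ha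
  have sb := tendsto_div_of_deriv (f := sinh) (by simpa using Real.hasDerivAt_sinh 0)
    Real.sinh_zero hρ hρ0 hb
  have t1 := ((ta.add tb).add ((ta.mul tb).mul (hρ.pow 2))).sub tc
  have t2 := t1.div (sa.mul sb) (by positivity)
  have e : ((1 : ℝ) ^ 2 * a₀ ^ 2 / 2 + 1 ^ 2 * b₀ ^ 2 / 2 +
      1 ^ 2 * a₀ ^ 2 / 2 * (1 ^ 2 * b₀ ^ 2 / 2) * 0 ^ 2 - 1 ^ 2 * c₀ ^ 2 / 2) /
      (a₀ * b₀) = (a₀ ^ 2 + b₀ ^ 2 - c₀ ^ 2) / (2 * a₀ * b₀) := by
    field_simp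
    ring
  rw [e] at t2
  refine t2.congr fun n => ?_
  have hn := hρ0 n
  unfold cvA
  rw [if_neg (by norm_num), if_neg (by norm_num)]
  simp only [neg_neg, Real.sqrt_one, one_mul, Pi.div_apply]
  have e3 : (cosh (a n * ρ n) - 1) / ρ n ^ 2 + (cosh (b n * ρ n) - 1) / ρ n ^ 2 +
      (cosh (a n * ρ n) - 1) / ρ n ^ 2 * ((cosh (b n * ρ n) - 1) / ρ n ^ 2) * ρ n ^ 2 -
      (cosh (c n * ρ n) - 1) / ρ n ^ 2 =
      (cosh (a n * ρ n) * cosh (b n * ρ n) - cosh (c n * ρ n)) / ρ n ^ 2 := by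
    field_simp
    ring
  rw [e3, div_mul_div_comm, ← pow_two, div_div_div_cancel_right₀ (by positivity)]

/-- **The comparison cosine at small scale.** -/
theorem cvm_close {a₀ b₀ c₀ : ℝ} (ha0 : 0 < a₀) (hb0 : 0 < b₀) {ε : ℝ} (hε : 0 < ε) :
    ∃ η > 0, ∀ κ r a b c : ℝ, κ < 0 → 0 < r → √(-κ) * r ≤ η → |a - a₀| ≤ η → |b - b₀| ≤ η →
      |c - c₀| ≤ η → |cvA κ (a * r) (b * r) (c * r) - (a₀ ^ 2 + b₀ ^ 2 - c₀ ^ 2) / (2 * a₀ * b₀)| ≤ ε := by
  by_contra hcon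
  push Not at hcon
  have h1 : ∀ m : ℕ, ∃ κ r a b c : ℝ, κ < 0 ∧ 0 < r ∧ √(-κ) * r ≤ 1 / ((m : ℝ) + 1) ∧
      |a - a₀| ≤ 1 / ((m : ℝ) + 1) ∧ |b - b₀| ≤ 1 / ((m : ℝ) + 1) ∧ |c - c₀| ≤ 1 / ((m : ℝ) + 1) ∧
      ε < |cvA κ (a * r) (b * r) (c * r) - (a₀ ^ 2 + b₀ ^ 2 - c₀ ^ 2) / (2 * a₀ * b₀)| :=
    fun m => hcon (1 / ((m : ℝ) + 1)) (by positivity)
  choose κ r a b c hκ hr hκr ha hb hc hbig using h1
  have hlim : Tendsto (fun m : ℕ => 1 / ((m : ℝ) + 1)) atTop (𝓝 0) :=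
    tendsto_one_div_add_atTop_nhds_zero_nat (𝕜 := ℝ)
  have key : ∀ (u : ℕ → ℝ) (u₀ : ℝ), (∀ m, |u m - u₀| ≤ 1 / ((m : ℝ) + 1)) →
      Tendsto u atTop (𝓝 u₀) := by
    intro u u₀ h
    rw [tendsto_iff_dist_tendsto_zero]
    exact squeeze_zero (fun _ => dist_nonneg) (fun m => by rw [Real.dist_eq]; exact h m) hlim
  have hk : ∀ m, 0 < √(-κ m) := fun m => Real.sqrt_pos.2 (by linarith [hκ m])
  have hρ0 : ∀ m, √(-κ m) * r m ≠ 0 := fun m => (mul_pos (hk m) (hr m)).ne'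
  have hρ : Tendsto (fun m => √(-κ m) * r m) atTop (𝓝 0) :=
    squeeze_zero (fun m => (mul_pos (hk m) (hr m)).le) hκr hlim
  have T := tendsto_cvm ha0 hb0 hρ hρ0 (key a a₀ ha) (key b b₀ hb) (key c c₀ hc)
  have T2 : ∀ᶠ m in atTop, |cvA (-1) (a m * (√(-κ m) * r m)) (b m * (√(-κ m) * r m))
      (c m * (√(-κ m) * r m)) - (a₀ ^ 2 + b₀ ^ 2 - c₀ ^ 2) / (2 * a₀ * b₀)| < ε := by
    have := (tendsto_iff_dist_tendsto_zero.1 T).eventually (gt_mem_nhds hε)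
    simpa only [Real.dist_eq] using this
  obtain ⟨m, hm⟩ := T2.exists
  have hb' := hbig m
  rw [cvA_neg (hκ m), show √(-κ m) * (a m * r m) = a m * (√(-κ m) * r m) by ring,
    show √(-κ m) * (b m * r m) = b m * (√(-κ m) * r m) by ring,
    show √(-κ m) * (c m * r m) = c m * (√(-κ m) * r m) by ring] at hb'
  linarith

/-- **First variation with explicit constants.** -/
theorem apx_neg {κ r ε : ℝ} (hκ : κ < 0) (hr : 0 < r) (hκr : √(-κ) * r ≤ 1) (hε : 0 < ε)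
    (hε1 : ε ≤ 1) : Apx κ r (r / 4) ε (ε / 12 * r) := by
  intro a t c ha haR ht ht0 hc
  have hk : 0 < √(-κ) := Real.sqrt_pos.2 (by linarith)
  have ha0 : 0 < a := by linarith
  unfold cvA
  rw [if_neg hκ.ne, if_neg (not_lt.2 hκ.le)]
  set k := √(-κ) with hkd
  have hkt0 : 0 < k * t := by positivity
  have hkt : k * t ≤ ε / 12 := by
    calc k * t ≤ k * (ε / 12 * r) := mul_le_mul_of_nonneg_left ht0 hk.le
      _ = ε / 12 * (k * r) := by ring
      _ ≤ ε / 12 * 1 := mul_le_mul_of_nonneg_left hκr (by positivity)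
      _ = ε / 12 := mul_one _
  have h3 := hyp_approx (v := k * a) (u := k * (a - c)) (y := k * t) (by positivity) hkt0
    (by linarith) (by rw [abs_mul, abs_of_pos hk]; exact mul_le_mul_of_nonneg_left hc hk.le)
  have e1 : k * a - k * (a - c) = k * c := by ring
  have e2 : k * (a - c) / (k * t) = (a - c) / t := mul_div_mul_left _ _ hk.ne'
  rw [e1, e2] at h3
  refine h3.trans ?_
  have hka : k * a ≤ 1 := (mul_le_mul_of_nonneg_left haR hk.le).trans hκr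
  have hcosh : cosh (k * a) ≤ 2 := by
    have h4 := cosh_sub_one_le (x := k * a) (by rwa [abs_of_pos (by positivity)])
    have : (k * a) ^ 2 ≤ 1 := by nlinarith [mul_pos hk ha0]
    linarith
  have hsinh : k * a ≤ sinh (k * a) := Real.self_le_sinh_iff.2 (by positivity)
  have h5 : k * t * (cosh (k * a) / sinh (k * a)) ≤ 8 * (ε / 12) := by
    calc k * t * (cosh (k * a) / sinh (k * a)) ≤ k * t * (2 / (k * a)) := by
          refine mul_le_mul_of_nonneg_left ?_ hkt0.le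
          exact div_le_div₀ (by norm_num) hcosh (by positivity) hsinh
      _ = 2 * t / a := by field_simp
      _ ≤ 8 * (ε / 12) := by
          rw [div_le_iff₀ ha0]
          have : ε / 12 * (r / 4) ≤ ε / 12 * a := mul_le_mul_of_nonneg_left ha (by positivity)
          linarith
  have h6 : (k * t) ^ 2 ≤ ε / 12 := by
    calc (k * t) ^ 2 = k * t * (k * t) := by ring
      _ ≤ ε / 12 * 1 := mul_le_mul hkt (by linarith) hkt0.le (by positivity)
      _ = ε / 12 := mul_one _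
  linarith

end Vale.Agent.P233.RegCh
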