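import Vale.Agent.P233.H719.RegCh1

/-!
# Charts at regular points, part 2: every radius is admissible if `κ < 0`
-/

set_option linter.all false

open Real Filter Topology Set

namespace Vale.Agent.P233.RegCh

open Vale.Agent.P233.AB Vale.Agent.P233.Str

theorem angle_sum_of {M : Type*} [MetricSpace M] [CompleteSpace M] {κ : ℝ}
    (h : IsAlexandrov M κ) {r₀ : ℝ} (hr0 : 0 < r₀) (hr : Sml κ (2 * r₀)) :
    ∀ z x₁ x₂ x₃ : M, z ≠ x₁ → z ≠ x₂ → z ≠ x₃ → dist z x₁ ≤ r₀ → dist z x₂ ≤ r₀ →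
      dist z x₃ ≤ r₀ →
      cang κ (dist z x₁) (dist z x₂) (dist x₁ x₂) + cang κ (dist z x₂) (dist z x₃) (dist x₂ x₃)
        + cang κ (dist z x₁) (dist z x₃) (dist x₁ x₃) ≤ 2 * π := by
  intro z x₁ x₂ x₃ n1 n2 n3 d1 d2 d3
  have p1 : 0 < dist z x₁ := dist_pos.2 n1
  have p2 : 0 < dist z x₂ := dist_pos.2 n2
  have p3 : 0 < dist z x₃ := dist_pos.2 n3
  have ex : ∀ n : ℕ, ∃ w, dist z w = dist z x₁ * (1 / ((n : ℝ) + 1 + 1)) ∧
      dist w x₁ = dist z x₁ - dist z x₁ * (1 / ((n : ℝ) + 1 + 1)) := by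
    intro n
    have : 1 / ((n : ℝ) + 1 + 1) ≤ 1 := by
      rw [div_le_one (by positivity)]; linarith [Nat.cast_nonneg (α := ℝ) n]
    exact h.geodesic z x₁ _ _ (by positivity)
      (by linarith only [mul_le_mul_of_nonneg_left this p1.le]) (by ring)
  choose w hw1 hw2 using ex
  have hε : Tendsto (fun n : ℕ => dist z x₁ * (1 / ((n : ℝ) + 1 + 1))) atTop (𝓝 0) := by
    have h1 := (tendsto_one_div_add_atTop_nhds_zero_nat (𝕜 := ℝ)).comp (tendsto_add_atTop_nat 1)
    have h2 := h1.const_mul (dist z x₁)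
    rw [mul_zero] at h2
    refine h2.congr fun n => ?_
    simp [Function.comp]
  have hwz : Tendsto (fun n => dist z (w n)) atTop (𝓝 0) := by
    simpa only [hw1] using hε
  have hwt : Tendsto w atTop (𝓝 z) := by
    rw [tendsto_iff_dist_tendsto_zero]
    simpa only [dist_comm] using hwz
  have t1 : Tendsto (fun n => dist (w n) x₁) atTop (𝓝 (dist z x₁)) :=
    hwt.dist tendsto_const_nhds
  have t2 : Tendsto (fun n => dist (w n) x₂) atTop (𝓝 (dist z x₂)) :=
    hwt.dist tendsto_const_nhds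
  have t3 : Tendsto (fun n => dist (w n) x₃) atTop (𝓝 (dist z x₃)) :=
    hwt.dist tendsto_const_nhds
  have T := ((tendsto_cang (κ := κ) (c := dist x₁ x₂) hr p1 p2 (by linarith) (by linarith) t1 t2).add
    (tendsto_cang (κ := κ) (c := dist x₂ x₃) hr p2 p3 (by linarith) (by linarith) t2 t3)).add
    (tendsto_cang (κ := κ) (c := dist x₁ x₃) hr p1 p3 (by linarith) (by linarith) t1 t3)
  refine le_of_tendsto T ?_
  filter_upwards [t2.eventually (lt_mem_nhds p2), t3.eventually (lt_mem_nhds p3)] with n e2 e3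
  have hlt : 1 / ((n : ℝ) + 1 + 1) < 1 := by
    rw [div_lt_one (by positivity)]; linarith [Nat.cast_nonneg (α := ℝ) n]
  have hlt0 : 0 < 1 / ((n : ℝ) + 1 + 1) := by positivity
  have hzw : dist z (w n) ≤ dist z x₁ := by rw [hw1]; (by_contra nlg; linarith only [nlg, mul_pos (sub_pos.2 p1) (sub_pos.2 hlt), mul_pos (sub_pos.2 (not_le.1 nlg)) (sub_pos.2 hlt0), mul_pos (sub_pos.2 (not_le.1 nlg)) (sub_pos.2 hlt)])
  have hzw0 : 0 < dist z (w n) := by rw [hw1]; positivity
  have tr : ∀ x, dist z x ≤ r₀ → dist (w n) x ≤ 2 * r₀ := by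
    intro x hx
    have := dist_triangle (w n) z x
    rw [dist_comm (w n) z] at this
    linarith
  refine h.sum_at hr (o := w n) (z := z) (by rw [hw1, hw2]; ring) (by rw [dist_comm]; exact hzw0)
    (by rw [hw2]; (by_contra nlg; linarith only [nlg, mul_pos (sub_pos.2 hlt) (sub_pos.2 hzw0), mul_nonneg (le_of_lt (sub_pos.2 hlt)) (sub_nonneg.2 hzw), mul_nonneg (sub_nonneg.2 (not_lt.1 nlg)) (le_of_lt (sub_pos.2 hlt0)), mul_nonneg (sub_nonneg.2 (not_lt.1 nlg)) (le_of_lt (sub_pos.2 hlt))])) e2 e3 (by rw [dist_comm]; linarith) (tr _ d1) (tr _ d2) (tr _ d3)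

/-- for `κ < 0` every radius is admissible -/
theorem rad_of {M : Type*} [MetricSpace M] [CompleteSpace M] {κ ρ : ℝ} (h : T.IsAlexandrov M κ)
    (hκ : κ < 0) (hρ0 : 0 < ρ) : Rad M κ ρ := by
  have hA : IsAlexandrov M κ := T_alex h
  have hρ : ∀ R, Sml κ R := fun R h' => absurd h' (not_lt.2 hκ.le)
  refine ⟨hρ0, hρ ρ, hA.geodesic, ?_, ?_, angle_sum_of hA hρ0 (hρ _)⟩
  · intro o p x w hw how hop hox hopR
    exact hA.mono_cv (hρ ρ) hw (dist_pos.2 how) (dist_pos.2 hop) hox hopR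
  · intro o p x y hxy hox hoy hop hoxR hoyR hopR
    have hpx : dist p x ≤ 2 * ρ := by
      have := dist_triangle p o x
      rw [dist_comm p o] at this
      linarith
    have hpy : dist p y ≤ 2 * ρ := by
      have := dist_triangle p o y
      rw [dist_comm p o] at this
      linarith
    have hC := hA.comparison p x y o hxy
      (perim_lt (hρ ρ) hρ0 (by rw [← hxy, dist_comm x o]; linarith))
    have h1 := cvA_adj (hρ ρ) (s := dist x o) (t := dist o y) (r := dist p o)
      (by rw [dist_comm]; exact dist_pos.2 hox) (dist_pos.2 hoy)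
      (by rw [dist_comm]; exact dist_pos.2 hop)
      (by rw [dist_comm]; linarith) (by linarith) (by rw [dist_comm]; linarith) hC
    unfold cc
    rwa [dist_comm x o, dist_comm p o, dist_comm p x, dist_comm p y] at h1

end Vale.Agent.P233.RegCh
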