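import Vale.Agent.P233.H719.RegCh2
import Vale.Agent.P233.H933.Str5

/-!
# Charts at regular points, part 3: explicit constants in the chart, long strainers do not exist
-/

set_option linter.all false

open Real Filter Topology Set Metric MeasureTheory
open scoped ENNReal NNReal

namespace Vale.Agent.P233.RegCh

open Vale.Agent.P233.AB Vale.Agent.P233.Str

universe u

/-- the strainer map of a maximal strainer is bi-Lipschitz, with explicit constants -/
theorem chart_core {M : Type*} [MetricSpace M] {κ ρ : ℝ} (hR : Rad M κ ρ) {δ δ' ε ℓ t₀ r r₁ : ℝ}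
    {k : ℕ} {a b : Fin k → M} {p : M}
    (hU : ∀ x ∈ ball p r, IsStr κ ρ δ a b x ∧ (∀ i, ℓ ≤ dist x (a i)) ∧ ∀ i, ℓ ≤ dist x (b i))
    (hδ : 0 ≤ δ) (hδδ' : δ ≤ δ') (hε : 0 < ε) (hε' : 2 * √(2 * δ) + 16 * ε ≤ δ') (hℓ : 0 < ℓ)
    (hA : Apx κ ρ ℓ ε t₀) (hrr : r₁ ≤ r / 2) (hrt : r₁ ≤ t₀) (hrρ : r₁ ≤ ρ)
    (hmax : ∀ (a' b' : Fin (k + 1) → M) (q : M), ¬ IsStr κ ρ δ' a' b' q) :
    ∀ x ∈ ball p r₁, ∀ y ∈ ball p r₁, dist x y ≤ 1 / ε * dist (stm a x) (stm a y) := by
  have hδ'0 : 0 < δ' := by linarith [Real.sqrt_nonneg (2 * δ)]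
  have hρ := hR.pos
  intro x hx y hy
  by_contra hcon
  push Not at hcon
  have hxy : 0 < dist x y := lt_of_le_of_lt (by positivity) hcon
  have hd : dist (stm a x) (stm a y) < ε * dist x y := by
    rw [one_div, inv_mul_lt_iff₀ hε] at hcon
    exact hcon
  have hd' : ∀ i, |dist x (a i) - dist y (a i)| ≤ ε * dist x y := fun i => by
    have := (dist_le_pi_dist (stm a x) (stm a y) i).trans hd.le
    rwa [Real.dist_eq] at this
  -- the midpoint
  obtain ⟨q, hq1, hq2⟩ := hR.geo x y (dist x y / 2) (dist x y / 2) (by positivity) (by positivity)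
    (by ring)
  have hxyr : dist x y < 2 * r₁ := by
    have := dist_triangle x p y
    rw [mem_ball] at hx hy
    rw [dist_comm p y] at this
    linarith
  have hxr : x ∈ ball p r := ball_subset_ball (by linarith) hx
  have hyr : y ∈ ball p r := ball_subset_ball (by linarith) hy
  have hqr : q ∈ ball p r := by
    rw [mem_ball] at hx ⊢
    have := dist_triangle q x p
    rw [dist_comm q x] at this
    linarith
  obtain ⟨hSx, hax, hbx⟩ := hU x hxr
  obtain ⟨hSy, hay, hby⟩ := hU y hyr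
  obtain ⟨hSq, haq, hbq⟩ := hU q hqr
  have hqx : q ≠ x := dist_pos.1 (by rw [dist_comm, hq1]; positivity)
  have hqy : q ≠ y := dist_pos.1 (by rw [hq2]; positivity)
  have hqx' : dist q x = dist x y / 2 := by rw [dist_comm]; exact hq1
  have hmid : dist x q + dist q y = dist x y := by rw [hq1, hq2]; ring
  have hη : 0 ≤ √(2 * δ) := Real.sqrt_nonneg _
  -- the difference quotients at `q`
  have est : ∀ i, DD q (a i) x ≤ 2 * √(2 * δ) + 8 * ε ∧ DD q (a i) y ≤ 2 * √(2 * δ) + 8 * ε ∧
      DD q (b i) x ≤ 2 * √(2 * δ) + 8 * ε ∧ DD q (b i) y ≤ 2 * √(2 * δ) + 8 * ε := by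
    intro i
    have c1 := hR.DD_add hA hℓ (haq i) (hSq.haρ i).le hqx hqy (by linarith) (by linarith)
      (by linarith) (by linarith) hmid
    have c2 := hR.DD_add hA hℓ (hbq i) (hSq.hbρ i).le hqx hqy (by linarith) (by linarith)
      (by linarith) (by linarith) hmid
    have c3 := hR.sum_DD hA hℓ hδ (hax i) (hbx i) (hSx.haρ i).le (hSx.hbρ i).le (hSx.opp i).le
      hqx.symm (by linarith) (by linarith)
    have c4 := hR.sum_DD hA hℓ hδ (hay i) (hby i) (hSy.haρ i).le (hSy.hbρ i).le (hSy.opp i).le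
      hqy.symm (by rw [dist_comm]; linarith) (by rw [dist_comm]; linarith)
    rw [DD_swap q (a i) x, DD_swap q (b i) x] at c3
    rw [DD_swap q (a i) y, DD_swap q (b i) y] at c4
    have c5 : |DD q (a i) x - DD q (a i) y| ≤ 2 * ε := by
      have e : DD q (a i) x - DD q (a i) y = (dist y (a i) - dist x (a i)) / (dist x y / 2) := by
        unfold DD
        rw [hqx', hq2]
        field_simp
        ring
      rw [e, abs_div, abs_of_pos (by positivity : 0 < dist x y / 2), div_le_iff₀ (by positivity),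
        abs_sub_comm]
      linarith [hd' i]
    have c6 := abs_le.1 c5
    refine ⟨?_, ?_, ?_, ?_⟩ <;> linarith
  have est' : ∀ i, cc κ q (a i) x < δ' ∧ cc κ q (a i) y < δ' ∧ cc κ q (b i) x < δ' ∧
      cc κ q (b i) y < δ' := by
    intro i
    obtain ⟨e1, e2, e3, e4⟩ := est i
    have hb' : 2 * √(2 * δ) + 9 * ε < δ' := by linarith
    have f1 := (abs_le.1 (hA.abs_le (haq i) (hSq.haρ i).le hqx (by linarith))).2
    have f2 := (abs_le.1 (hA.abs_le (haq i) (hSq.haρ i).le hqy (by linarith))).2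
    have f3 := (abs_le.1 (hA.abs_le (hbq i) (hSq.hbρ i).le hqx (by linarith))).2
    have f4 := (abs_le.1 (hA.abs_le (hbq i) (hSq.hbρ i).le hqy (by linarith))).2
    refine ⟨?_, ?_, ?_, ?_⟩ <;> linarith
  refine hmax (Fin.cons x a) (Fin.cons y b) q ⟨?_, ?_, ?_, ?_, ?_, ?_, ?_, ?_⟩
  · intro i
    refine Fin.cases ?_ (fun i => ?_) i
    · exact hqx
    · exact hSq.ha i
  · intro i
    refine Fin.cases ?_ (fun i => ?_) i
    · exact hqy
    · exact hSq.hb i
  · intro i
    refine Fin.cases ?_ (fun i => ?_) i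
    · rw [Fin.cons_zero]; linarith
    · exact hSq.haρ i
  · intro i
    refine Fin.cases ?_ (fun i => ?_) i
    · rw [Fin.cons_zero]; linarith
    · exact hSq.hbρ i
  · intro i
    refine Fin.cases ?_ (fun i => ?_) i
    · rw [Fin.cons_zero, Fin.cons_zero, cc_antipode hR.sml (by rw [hqx', hq2]) hqx
        (by rw [hqx']; ring) (by linarith)]
      linarith
    · exact (hSq.opp i).trans_le (by linarith)
  · intro i j
    refine Fin.cases ?_ (fun i => ?_) i
    · refine Fin.cases (fun h => absurd rfl h) (fun j _ => ?_) j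
      rw [Fin.cons_zero, Fin.cons_succ, cc_comm]
      exact (est' j).1
    · refine Fin.cases (fun _ => ?_) (fun j hij => ?_) j
      · rw [Fin.cons_zero, Fin.cons_succ]
        exact (est' i).1
      · exact (hSq.aa i j fun h => hij (congrArg _ h)).trans_le hδδ'
  · intro i j
    refine Fin.cases ?_ (fun i => ?_) i
    · refine Fin.cases (fun h => absurd rfl h) (fun j _ => ?_) j
      rw [Fin.cons_zero, Fin.cons_succ, cc_comm]
      exact (est' j).2.2.1
    · refine Fin.cases (fun _ => ?_) (fun j hij => ?_) j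
      · rw [Fin.cons_zero, Fin.cons_succ]
        exact (est' i).2.1
      · exact (hSq.ab i j fun h => hij (congrArg _ h)).trans_le hδδ'
  · intro i j
    refine Fin.cases ?_ (fun i => ?_) i
    · refine Fin.cases (fun h => absurd rfl h) (fun j _ => ?_) j
      rw [Fin.cons_zero, Fin.cons_succ, cc_comm]
      exact (est' j).2.2.2
    · refine Fin.cases (fun _ => ?_) (fun j hij => ?_) j
      · rw [Fin.cons_zero, Fin.cons_succ]
        exact (est' i).2.2.2
      · exact (hSq.bb i j fun h => hij (congrArg _ h)).trans_le hδδ'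

/-- there is no strainer longer than the dimension -/
theorem no_strainer {M : Type u} [MetricSpace M] [CompleteSpace M] {κ ρ : ℝ} (hR : Rad M κ ρ)
    {n : ℕ} (hdim : dimH (univ : Set M) = n) {δ : ℝ} (hδ : 0 ≤ δ)
    (hn : ((n + 1 : ℕ) : ℝ) * (δ + √(2 * δ)) < 1 / 2) (a b : Fin (n + 1) → M) (q : M) :
    ¬ IsStr κ ρ δ a b q := by
  intro hS
  borelize M
  obtain ⟨c, hc, hsub⟩ := open_of_isStr hR hS hδ hn 1 one_pos
  have h1 := haus_pos (lipschitz_stm a) hc hsub
  have h2 : (((n + 1 : ℕ) : ℝ≥0) : ℝ≥0∞) ≤ dimH (ball q 1) :=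
    le_dimH_of_hausdorffMeasure_ne_zero (d := ((n + 1 : ℕ) : ℝ≥0)) (by
      rw [NNReal.coe_natCast]
      exact h1.ne')
  rw [ENNReal.coe_natCast] at h2
  have h3 := h2.trans (dimH_mono (subset_univ _))
  rw [hdim] at h3
  have : n + 1 ≤ n := by exact_mod_cast h3
  omega

end Vale.Agent.P233.RegCh
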