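import Vale.Agent.P233.H719.RegCh3
import Vale.Agent.P242.H373.AEDefs

/-!
# Charts at regular points, part 4: balls which are close to Euclidean balls are strained

* `strained_of_close` : if `B(p, r)` is `η r`-close to a ball of `ℝⁿ` then `B(p, η r)` is
  `(n, δ)`-strained.
* `chart_alex` : charts for Alexandrov spaces.
-/

set_option linter.all false

open Real Filter Topology Set Metric MeasureTheory
open scoped ENNReal NNReal

namespace Vale.Agent.P233.RegCh

open Vale.Agent.P233.AB Vale.Agent.P233.Str Vale.Agent.P242.H373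

universe u

theorem ghClose_mono {X : Type u} [MetricSpace X] {n : ℕ} {δ δ' : ℝ} {x : X} {r : ℝ} (hr : 0 ≤ r)
    (hδ : δ ≤ δ') (h : GHClose n δ x r) : GHClose n δ' x r := by
  obtain ⟨f, h1, h2⟩ := h
  have h3 : δ * r ≤ δ' * r := mul_le_mul_of_nonneg_right hδ hr
  refine ⟨f, fun y hy z hz => (h1 y hy z hz).trans h3, fun w hw => ?_⟩
  obtain ⟨y, hy, hyw⟩ := h2 w hw
  exact ⟨y, hy, hyw.trans h3⟩

section pts

variable {n : ℕ}

/-- the points `±e_i / 2` -/
noncomputable def pm (s : ℝ) (i : Fin n) : EuclideanSpace ℝ (Fin n) :=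
  EuclideanSpace.single i (s / 2)

lemma norm_pm {s : ℝ} (hs : |s| = 1) (i : Fin n) : ‖pm s i‖ = 1 / 2 := by
  unfold pm
  rw [EuclideanSpace.norm_single, Real.norm_eq_abs, abs_div, hs]
  norm_num

lemma norm_pm_sub_same (i : Fin n) : ‖pm 1 i - pm (-1) i‖ = 1 := by
  unfold pm
  have : (EuclideanSpace.single i ((1 : ℝ) / 2) : EuclideanSpace ℝ (Fin n)) -
      EuclideanSpace.single i (-1 / 2) = EuclideanSpace.single i 1 := by
    ext j
    by_cases hj : j = i
    · subst hj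
      simp
      norm_num
    · simp [hj]
  rw [this, EuclideanSpace.norm_single]
  norm_num

lemma norm_pm_sub {s t : ℝ} (hs : |s| = 1) (ht : |t| = 1) {i j : Fin n} (hij : i ≠ j) :
    ‖pm s i - pm t j‖ = √(1 / 2) := by
  have h1 : inner ℝ (pm s i) (pm t j) = 0 := by
    unfold pm
    rw [EuclideanSpace.inner_single_left]
    simp [hij]
  have h2 := norm_sub_sq_eq_norm_sq_add_norm_sq_real h1
  rw [norm_pm hs, norm_pm ht] at h2
  rw [eq_comm, Real.sqrt_eq_iff_mul_self_eq (by norm_num) (norm_nonneg _), h2]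
  norm_num

end pts

section close

variable {X : Type u} [MetricSpace X] {n : ℕ} {η r : ℝ} {p : X}

/-- points at the positions `(r/2) (±e_i)` -/
theorem exists_pts (hr : 0 < r) (h : GHClose n η p r) (hη : 0 ≤ η) :
    ∃ a b : Fin n → X, (∀ i, |dist p (a i) - 1 / 2 * r| ≤ 2 * η * r) ∧
      (∀ i, |dist p (b i) - 1 / 2 * r| ≤ 2 * η * r) ∧
      (∀ i, |dist (a i) (b i) - 1 * r| ≤ 3 * η * r) ∧
      (∀ i j, i ≠ j → |dist (a i) (a j) - √(1 / 2) * r| ≤ 3 * η * r) ∧
      (∀ i j, i ≠ j → |dist (a i) (b j) - √(1 / 2) * r| ≤ 3 * η * r) ∧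
      ∀ i j, i ≠ j → |dist (b i) (b j) - √(1 / 2) * r| ≤ 3 * η * r := by
  obtain ⟨f, h1, h2⟩ := h
  -- the positions
  have hw : ∀ v : EuclideanSpace ℝ (Fin n), ‖v‖ = 1 / 2 → f p + r • v ∈ ball (f p) r := by
    intro v hv
    rw [mem_ball, dist_eq_norm, add_sub_cancel_left, norm_smul, hv, Real.norm_eq_abs, abs_of_pos hr]
    linarith
  have hd : ∀ v w : EuclideanSpace ℝ (Fin n), dist (f p + r • v) (f p + r • w) = ‖v - w‖ * r := by
    intro v w
    rw [dist_eq_norm, add_sub_add_left_eq_sub, ← smul_sub, norm_smul, Real.norm_eq_abs,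
      abs_of_pos hr, mul_comm]
  have hp : p ∈ ball p r := mem_ball_self hr
  choose A hA1 hA2 using fun i : Fin n => h2 _ (hw (pm 1 i) (norm_pm (by norm_num) i))
  choose B hB1 hB2 using fun i : Fin n => h2 _ (hw (pm (-1) i) (norm_pm (by norm_num) i))
  have gen : ∀ {y z : X} {v w : EuclideanSpace ℝ (Fin n)}, y ∈ ball p r → z ∈ ball p r →
      dist (f y) (f p + r • v) ≤ η * r → dist (f z) (f p + r • w) ≤ η * r →
      |dist y z - ‖v - w‖ * r| ≤ 3 * η * r := by
    intro y z v w hy hz hyv hzw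
    have e1 := h1 y hy z hz
    have e2 : |dist (f y) (f z) - dist (f p + r • v) (f p + r • w)| ≤ 2 * (η * r) := by
      rw [abs_le]
      constructor
      · have := dist_triangle4 (f p + r • v) (f y) (f z) (f p + r • w)
        rw [dist_comm (f p + r • v) (f y)] at this
        linarith
      · have := dist_triangle4 (f y) (f p + r • v) (f p + r • w) (f z)
        rw [dist_comm (f p + r • w) (f z)] at this
        linarith
    rw [hd] at e2
    rw [abs_le] at e1 e2 ⊢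
    constructor <;> linarith [e1.1, e1.2, e2.1, e2.2]
  have gen0 : ∀ {y : X} {v : EuclideanSpace ℝ (Fin n)}, y ∈ ball p r → ‖v‖ = 1 / 2 →
      dist (f y) (f p + r • v) ≤ η * r → |dist p y - 1 / 2 * r| ≤ 2 * η * r := by
    intro y v hy hv hyv
    have e1 := h1 p hp y hy
    have e3 : dist (f p) (f p + r • v) = 1 / 2 * r := by
      have := hd 0 v
      rw [smul_zero, add_zero, zero_sub, norm_neg, hv] at this
      exact this
    have e2 : |dist (f p) (f y) - dist (f p) (f p + r • v)| ≤ η * r := by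
      rw [abs_le]
      constructor
      · have := dist_triangle (f p) (f y) (f p + r • v)
        linarith
      · have := dist_triangle (f p) (f p + r • v) (f y)
        rw [dist_comm (f p + r • v) (f y)] at this
        linarith
    rw [e3] at e2
    rw [abs_le] at e1 e2 ⊢
    constructor <;> linarith [e1.1, e1.2, e2.1, e2.2]
  refine ⟨A, B, fun i => gen0 (hA1 i) (norm_pm (by norm_num) i) (hA2 i),
    fun i => gen0 (hB1 i) (norm_pm (by norm_num) i) (hB2 i), fun i => ?_, fun i j hij => ?_,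
    fun i j hij => ?_, fun i j hij => ?_⟩
  · have := gen (hA1 i) (hB1 i) (hA2 i) (hB2 i)
    rwa [norm_pm_sub_same] at this
  · have := gen (hA1 i) (hA1 j) (hA2 i) (hA2 j)
    rwa [norm_pm_sub (by norm_num) (by norm_num) hij] at this
  · have := gen (hA1 i) (hB1 j) (hA2 i) (hB2 j)
    rwa [norm_pm_sub (by norm_num) (by norm_num) hij] at this
  · have := gen (hB1 i) (hB1 j) (hB2 i) (hB2 j)
    rwa [norm_pm_sub (by norm_num) (by norm_num) hij] at this

end close

/-- **Balls close to Euclidean balls are strained.** -/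
theorem strained_of_close (n : ℕ) {δ : ℝ} (hδ : 0 < δ) : ∃ η > 0, ∀ {X : Type u} [MetricSpace X]
    {κ r : ℝ} {p : X}, κ < 0 → 0 < r → √(-κ) * r ≤ η → GHClose n η p r →
      ∃ a b : Fin n → X, ∀ x ∈ ball p (η * r), IsStr κ r δ a b x ∧ (∀ i, r / 4 ≤ dist x (a i)) ∧
        ∀ i, r / 4 ≤ dist x (b i) := by
  obtain ⟨η₁, hη₁, H1⟩ := cvm_close (a₀ := 1 / 2) (b₀ := 1 / 2) (c₀ := 1) (by norm_num)
    (by norm_num) (half_pos hδ)
  obtain ⟨η₂, hη₂, H2⟩ := cvm_close (a₀ := 1 / 2) (b₀ := 1 / 2) (c₀ := √(1 / 2)) (by norm_num)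
    (by norm_num) (half_pos hδ)
  have e1 : ((1 / 2 : ℝ) ^ 2 + (1 / 2) ^ 2 - 1 ^ 2) / (2 * (1 / 2) * (1 / 2)) = -1 := by norm_num
  have e2 : ((1 / 2 : ℝ) ^ 2 + (1 / 2) ^ 2 - √(1 / 2) ^ 2) / (2 * (1 / 2) * (1 / 2)) = 0 := by
    rw [Real.sq_sqrt (by norm_num)]
    norm_num
  rw [e1] at H1
  rw [e2] at H2
  refine ⟨min (1 / 20) (min (η₁ / 3) (η₂ / 3)), by positivity, ?_⟩
  intro X _ κ r p hκ hr hκr hcl
  set η := min (1 / 20) (min (η₁ / 3) (η₂ / 3)) with hη
  have hη0 : 0 < η := by positivity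
  have b1 : η ≤ 1 / 20 := min_le_left _ _
  have b2 : 3 * η ≤ η₁ := by
    have : η ≤ η₁ / 3 := (min_le_right _ _).trans (min_le_left _ _)
    linarith
  have b3 : 3 * η ≤ η₂ := by
    have : η ≤ η₂ / 3 := (min_le_right _ _).trans (min_le_right _ _)
    linarith
  obtain ⟨a, b, hpa, hpb, hab, haa, hab', hbb⟩ := exists_pts hr hcl hη0.le
  refine ⟨a, b, fun x hx => ?_⟩
  rw [mem_ball] at hx
  have side : ∀ c : X, |dist p c - 1 / 2 * r| ≤ 2 * η * r → |dist x c / r - 1 / 2| ≤ 3 * η := by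
    intro c hc
    have h3 : |dist x c - 1 / 2 * r| ≤ 3 * η * r := by
      have h4 := abs_dist_sub_le x p c
      rw [abs_le] at hc h4 ⊢
      constructor <;> linarith [hc.1, hc.2, h4.1, h4.2]
    have e : dist x c / r - 1 / 2 = (dist x c - 1 / 2 * r) / r := by field_simp
    rw [e, abs_div, abs_of_pos hr, div_le_iff₀ hr]
    exact h3
  have opp : ∀ (c d : X) (ℓ : ℝ), |dist c d - ℓ * r| ≤ 3 * η * r → |dist c d / r - ℓ| ≤ 3 * η := by
    intro c d ℓ h
    have e : dist c d / r - ℓ = (dist c d - ℓ * r) / r := by field_simp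
    rw [e, abs_div, abs_of_pos hr, div_le_iff₀ hr]
    exact h
  have ecc : ∀ c d : X, cc κ x c d =
      cvA κ (dist x c / r * r) (dist x d / r * r) (dist c d / r * r) := by
    intro c d
    rw [div_mul_cancel₀ _ hr.ne', div_mul_cancel₀ _ hr.ne', div_mul_cancel₀ _ hr.ne']
    rfl
  have far : ∀ c : X, |dist p c - 1 / 2 * r| ≤ 2 * η * r → r / 4 ≤ dist x c ∧ dist x c < r := by
    intro c hc
    have h3 := side c hc
    have e : dist x c = dist x c / r * r := (div_mul_cancel₀ _ hr.ne').symm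
    rw [abs_le] at h3
    have h4 : 1 / 4 ≤ dist x c / r := by linarith [h3.1]
    have h5 : dist x c / r < 1 := by linarith [h3.2]
    constructor
    · rw [e]
      calc r / 4 = 1 / 4 * r := by ring
        _ ≤ _ := mul_le_mul_of_nonneg_right h4 hr.le
    · rwa [div_lt_one hr] at h5
  have hne : ∀ c : X, |dist p c - 1 / 2 * r| ≤ 2 * η * r → x ≠ c := by
    intro c hc
    refine dist_pos.1 ?_
    linarith [(far c hc).1]
  have K0 : ∀ c d : X, |dist p c - 1 / 2 * r| ≤ 2 * η * r → |dist p d - 1 / 2 * r| ≤ 2 * η * r →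
      |dist c d - √(1 / 2) * r| ≤ 3 * η * r → cc κ x c d < δ := by
    intro c d hc hd hcd
    have h3 := H2 κ r (dist x c / r) (dist x d / r) (dist c d / r) hκ hr (by linarith)
      ((side c hc).trans b3) ((side d hd).trans b3) ((opp c d _ hcd).trans b3)
    rw [← ecc, sub_zero, abs_le] at h3
    linarith [h3.2]
  have K1 : ∀ c d : X, |dist p c - 1 / 2 * r| ≤ 2 * η * r → |dist p d - 1 / 2 * r| ≤ 2 * η * r →
      |dist c d - 1 * r| ≤ 3 * η * r → cc κ x c d < -1 + δ := by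
    intro c d hc hd hcd
    have h3 := H1 κ r (dist x c / r) (dist x d / r) (dist c d / r) hκ hr (by linarith)
      ((side c hc).trans b2) ((side d hd).trans b2) ((opp c d _ hcd).trans b2)
    rw [← ecc, abs_le] at h3
    linarith [h3.2]
  exact ⟨⟨fun i => hne _ (hpa i), fun i => hne _ (hpb i), fun i => (far _ (hpa i)).2,
    fun i => (far _ (hpb i)).2, fun i => K1 _ _ (hpa i) (hpb i) (hab i),
    fun i j hij => K0 _ _ (hpa i) (hpa j) (haa i j hij),
    fun i j hij => K0 _ _ (hpa i) (hpb j) (hab' i j hij),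
    fun i j hij => K0 _ _ (hpb i) (hpb j) (hbb i j hij)⟩, fun i => (far _ (hpa i)).1,
    fun i => (far _ (hpb i)).1⟩

/-- small `δ` -/
theorem exists_small (k : ℕ) {θ : ℝ} (hθ : 0 < θ) : ∃ δ > 0, δ ≤ θ ∧ 2 * √(2 * δ) < θ ∧
    k * (δ + √(2 * δ)) < 1 / 2 := by
  have h1 : Tendsto (fun δ : ℝ => 2 * √(2 * δ)) (𝓝 0) (𝓝 (2 * √(2 * 0))) :=
    (Continuous.tendsto (by fun_prop) 0)
  have h2 : Tendsto (fun δ : ℝ => k * (δ + √(2 * δ))) (𝓝 0) (𝓝 (k * (0 + √(2 * 0)))) :=
    (Continuous.tendsto (by fun_prop) 0)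
  simp only [mul_zero, Real.sqrt_zero, add_zero] at h1 h2
  have h3 : ∀ᶠ δ in 𝓝[>] (0 : ℝ), 0 < δ ∧ δ ≤ θ ∧ 2 * √(2 * δ) < θ ∧ k * (δ + √(2 * δ)) < 1 / 2 := by
    filter_upwards [self_mem_nhdsWithin,
      eventually_nhdsWithin_of_eventually_nhds (h1.eventually (gt_mem_nhds hθ)),
      eventually_nhdsWithin_of_eventually_nhds (h2.eventually (gt_mem_nhds (by norm_num : (0:ℝ) < 1 / 2))),
      eventually_nhdsWithin_of_eventually_nhds (ge_mem_nhds hθ)] with δ g1 g2 g3 g4
    exact ⟨g1, g4, g2, g3⟩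
  obtain ⟨δ, g1, g2, g3, g4⟩ := h3.exists
  exact ⟨δ, g1, g2, g3, g4⟩

/-- the strainer map with values in the Euclidean space -/
noncomputable def eum {X : Type u} [MetricSpace X] {n : ℕ} (a : Fin n → X) (x : X) :
    EuclideanSpace ℝ (Fin n) := (EuclideanSpace.equiv (Fin n) ℝ).symm (stm a x)

lemma dist_eum_ge {X : Type u} [MetricSpace X] {n : ℕ} (a : Fin n → X) (x y : X) :
    dist (stm a x) (stm a y) ≤ dist (eum a x) (eum a y) := by
  refine (dist_pi_le_iff dist_nonneg).2 fun i => ?_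
  rw [EuclideanSpace.dist_eq]
  refine Real.le_sqrt_of_sq_le ?_
  exact Finset.single_le_sum (f := fun i => dist (eum a x i) (eum a y i) ^ 2)
    (fun i _ => sq_nonneg _) (Finset.mem_univ i)

lemma dist_eum_le {X : Type u} [MetricSpace X] {n : ℕ} (a : Fin n → X) (x y : X) :
    dist (eum a x) (eum a y) ≤ √n * dist x y := by
  rw [EuclideanSpace.dist_eq, Real.sqrt_le_iff]
  refine ⟨by positivity, ?_⟩
  rw [mul_pow, Real.sq_sqrt (Nat.cast_nonneg n)]
  have h1 : ∀ i ∈ Finset.univ, dist (eum a x i) (eum a y i) ^ 2 ≤ dist x y ^ 2 := by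
    intro i _
    refine pow_le_pow_left₀ dist_nonneg ?_ 2
    show dist (dist x (a i)) (dist y (a i)) ≤ dist x y
    rw [Real.dist_eq]
    exact abs_dist_sub_le x y (a i)
  have := Finset.sum_le_card_nsmul Finset.univ _ _ h1
  simpa using this

/-- **Charts in Alexandrov spaces**: the `ε`-regularity theorem. -/
theorem chart_alex (n : ℕ) : ∃ η > 0, ∃ L ≥ 1, ∀ {X : Type u} [MetricSpace X] [CompleteSpace X]
    {κ r : ℝ} {p : X}, T.IsAlexandrov X κ → dimH (univ : Set X) = n → κ < 0 → 0 < r →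
      √(-κ) * r ≤ η → GHClose n η p r →
      ∃ F : X → EuclideanSpace ℝ (Fin n),
        (∀ x ∈ ball p (η * r), ∀ z ∈ ball p (η * r), L⁻¹ * dist x z ≤ dist (F x) (F z) ∧
          dist (F x) (F z) ≤ L * dist x z) ∧
        ∀ W ⊆ ball p (η * r), IsOpen W → IsOpen (F '' W) := by
  obtain ⟨δ', hδ', -, -, hδ'n⟩ := exists_small (n + 1) one_pos
  obtain ⟨δ, hδ, hδδ', hδ2, hδn⟩ := exists_small n hδ'
  obtain ⟨ε, hε, hε1, hε2⟩ : ∃ ε > 0, ε ≤ 1 ∧ 2 * √(2 * δ) + 16 * ε ≤ δ' := by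
    refine ⟨min 1 ((δ' - 2 * √(2 * δ)) / 16), lt_min one_pos (by linarith), min_le_left _ _, ?_⟩
    have := min_le_right 1 ((δ' - 2 * √(2 * δ)) / 16)
    linarith
  obtain ⟨η₀, hη₀, H⟩ := strained_of_close.{u} n hδ
  have hη : 0 < min (η₀ / 2) (ε / 12) := lt_min (by linarith) (by linarith)
  refine ⟨min (η₀ / 2) (ε / 12), hη, max 1 (max (√n) (1 / ε)), le_max_left _ _, ?_⟩
  intro X _ _ κ r p hA hdim hκ hr hκr hcl
  set η := min (η₀ / 2) (ε / 12) with hηd
  set L := max 1 (max (√n) (1 / ε)) with hL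
  have hη1 : η ≤ η₀ / 2 := min_le_left _ _
  have hη2 : η ≤ ε / 12 := min_le_right _ _
  have hL0 : 0 < L := lt_of_lt_of_le one_pos (le_max_left _ _)
  have hR : Rad X κ r := rad_of hA hκ hr
  obtain ⟨a, b, hU⟩ := H hκ hr (by linarith) (ghClose_mono hr.le (by linarith) hcl)
  have hmax := no_strainer hR hdim hδ'.le hδ'n
  have hcore := chart_core hR hU hδ.le hδδ' hε hε2 (by positivity)
    (apx_neg hκ hr (by linarith) hε hε1) (r₁ := η * r) (by nlinarith) (by nlinarith)
    (by nlinarith) hmax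
  refine ⟨eum a, fun x hx z hz => ⟨?_, ?_⟩, fun W hW hWo => ?_⟩
  · rw [inv_mul_le_iff₀ hL0]
    calc dist x z ≤ 1 / ε * dist (stm a x) (stm a z) := hcore x hx z hz
      _ ≤ L * dist (eum a x) (eum a z) := by
        refine mul_le_mul ((le_max_right _ _).trans (le_max_right _ _)) (dist_eum_ge a x z)
          dist_nonneg hL0.le
  · refine (dist_eum_le a x z).trans (mul_le_mul_of_nonneg_right ?_ dist_nonneg)
    exact (le_max_left _ _).trans (le_max_right _ _)
  · have h1 : IsOpen (stm a '' W) := by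
      rw [Metric.isOpen_iff]
      rintro _ ⟨x, hx, rfl⟩
      obtain ⟨s, hs, hsW⟩ := Metric.isOpen_iff.1 hWo x hx
      have hx' : x ∈ ball p (η₀ * r) := ball_subset_ball (by nlinarith) (hW hx)
      obtain ⟨c, hc, hsub⟩ := open_of_isStr hR (hU x hx').1 hδ.le hδn s hs
      exact ⟨c, hc, hsub.trans (image_mono hsW)⟩
    have h2 : eum a '' W = (EuclideanSpace.equiv (Fin n) ℝ).symm '' (stm a '' W) := by
      rw [image_image]
      rfl
    rw [h2]
    exact (EuclideanSpace.equiv (Fin n) ℝ).symm.toHomeomorph.isOpenMap _ h1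

end Vale.Agent.P233.RegCh
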