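import Vale.Agent.P233.H326.Curv
import Vale.Agent.P233.H368.TauCD
import Vale.Agent.P233.CD.Final

/-!
# Charts at regular points, part 5: monotonicity of the curvature conditions in the bounds
-/

set_option linter.all false

open MeasureTheory Filter Topology Set
open scoped ENNReal NNReal InnerProductSpace

universe u

namespace Vale.Agent.P233.RegCh

/-- `CD(K, N)` implies `CD(K', N)` for `K' ≤ K` -/
theorem isCD_mono {X : Type u} [MetricSpace X] [MeasurableSpace X] {m : Measure X} {K K' N : ℝ}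
    (hN : 1 < N) (hK : K' ≤ K) (h : P242.IsCD K N m) : P242.IsCD K' N m := by
  intro μ₀ μ₁ h0 h1
  obtain ⟨q, Γ, hq, e0, e1, hΓ, hP, hconv⟩ := h μ₀ μ₁ h0 h1
  refine ⟨q, Γ, hq, e0, e1, hΓ, hP, fun t ht N' hN' => le_trans ?_ (hconv t ht N' hN')⟩
  refine lintegral_mono fun z => ?_
  have hle : K' * dist z.1 z.2 ^ 2 ≤ K * dist z.1 z.2 ^ 2 :=
    mul_le_mul_of_nonneg_right hK (sq_nonneg _)
  refine add_le_add (mul_le_mul' ?_ le_rfl) (mul_le_mul' ?_ le_rfl)
  · exact H368.Tau.tau_mono (by linarith) dist_nonneg dist_nonneg (by linarith [ht.2])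
      (by linarith [ht.1]) hle
  · exact H368.Tau.tau_mono (by linarith) dist_nonneg dist_nonneg ht.1 ht.2 hle

theorem isRCD_mono {X : Type u} [MetricSpace X] [MeasurableSpace X] {m : Measure X} {K K' N : ℝ}
    (hN : 1 < N) (hK : K' ≤ K) (h : CD.IsRCD m K N) : CD.IsRCD m K' N :=
  ⟨h.ne, h.fin, isCD_mono hN hK h.cd, h.quadratic⟩

variable {M : Type u} [MetricSpace M] [MeasurableSpace M] [BorelSpace M]
  [SecondCountableTopology M] {m : Measure M}

/-- the Cauchy-Schwarz inequality for test vector fields -/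
theorem cs_ae {K N : ℝ} (h : H326.Base m K N) {X Y : T.VF M} (hX : (T.sob m).TestV X)
    (hY : (T.sob m).TestV Y) :
    ∀ᵐ x ∂m, (T.sob m).ip X Y x ^ 2 ≤ (T.sob m).ip X X x * (T.sob m).ip Y Y x := by
  obtain ⟨Gr, U, hG, -, -⟩ := h.exists_grad
  have rX := RV_clsV (m := m) hX
  have rY := RV_clsV (m := m) hY
  have wX : ∀ p ∈ clsV m X, p.2 ∈ (sob m).W := fun p hp => (h.hC.test_A (rX.isTestV p hp).2).1
  have wY : ∀ p ∈ clsV m Y, p.2 ∈ (sob m).W := fun p hp => (h.hC.test_A (rY.isTestV p hp).2).1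
  filter_upwards [rX.ip rY h.hC, rX.ip rX h.hC, rY.ip rY h.hC, hG.inner_fvec wX wY,
    hG.inner_fvec wX wX, hG.inner_fvec wY wY] with x e1 e2 e3 e4 e5 e6
  change (S.sob m).ip X Y x ^ 2 ≤ (S.sob m).ip X X x * (S.sob m).ip Y Y x
  rw [e1, e2, e3, ← e4, ← e5, ← e6, pow_two]
  exact real_inner_mul_inner_self_le _ _

theorem distSec_mono {K N κ κ' : ℝ} (h : H326.Base m K N) (hκ : κ' ≤ κ)
    (hD : T.DistSecGE (T.sob m) κ) : T.DistSecGE (T.sob m) κ' := by
  obtain ⟨H, i1, i2, ι, hι, hD⟩ := hD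
  refine ⟨H, i1, i2, ι, hι, fun X Y hX hY f hf hf0 => ?_⟩
  obtain ⟨A, B, D, E, F, G, c1, c2, c3, c4, c5, c6, hle⟩ := hD X Y hX hY f hf hf0
  refine ⟨A, B, D, E, F, G, c1, c2, c3, c4, c5, c6, le_trans ?_ hle⟩
  refine mul_le_mul_of_nonneg_right hκ ?_
  refine integral_nonneg_of_ae ?_
  have hf0' : ∀ᵐ x ∂m, 0 ≤ f x := hf0
  filter_upwards [hf0', cs_ae h hX hY] with x h1 h2
  exact mul_nonneg h1 (by linarith)

end Vale.Agent.P233.RegCh
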