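import Vale.Agent.P242.H373.Defs
import Mathlib.Data.List.GetD

/-!
# Charts at regular points, part 6: Gromov precompactness for the rescalings of a space

`precompact` : if the balls `B(p, r_j R)` have `r_j ε`-nets of bounded cardinality, the rescaled
spaces `(X, r_j⁻¹ d, p)` have a pointed Gromov-Hausdorff limit along a subsequence.
-/

set_option linter.all false

open Filter Topology Set Metric

universe u

namespace Vale.Agent.P233.RegCh

open Vale.Agent.P242.H373

/-- completion of a pseudometric -/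
theorem exists_space {I : Type u} (D : I → I → ℝ) (h0 : ∀ a, D a a = 0)
    (hs : ∀ a b, D a b = D b a) (ht : ∀ a b c, D a c ≤ D a b + D b c) :
    ∃ (Y : Type u) (_ : MetricSpace Y) (ι : I → Y), CompleteSpace Y ∧ DenseRange ι ∧
      ∀ a b, dist (ι a) (ι b) = D a b := by
  letI : PseudoMetricSpace I :=
    { dist := D
      dist_self := h0
      dist_comm := hs
      dist_triangle := ht }
  refine ⟨UniformSpace.Completion I, inferInstance, fun a => (a : UniformSpace.Completion I),
    inferInstance, UniformSpace.Completion.denseRange_coe, fun a b => ?_⟩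
  rw [UniformSpace.Completion.dist_eq]
  rfl

/-- nets as sequences -/
theorem exists_seq {X : Type u} [MetricSpace X] {p : X} {r : ℕ → ℝ} (hr : ∀ j, 0 < r j)
    {R ε : ℝ} (hR : 0 < R) (hε : 0 < ε)
    (hcov : ∃ N : ℕ, ∀ᶠ j in atTop, ∃ T : Finset X, T.card ≤ N ∧
      ball p (r j * R) ⊆ ⋃ y ∈ T, ball y (r j * ε)) :
    ∃ (N : ℕ) (g : ℕ → ℕ → X), (∀ j i, dist p (g j i) ≤ r j * (R + ε)) ∧
      ∀ᶠ j in atTop, ∀ x ∈ ball p (r j * R), ∃ i < N, dist x (g j i) < r j * ε := by
  classical
  obtain ⟨N, hN⟩ := hcov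
  have key : ∀ j, ∃ g : ℕ → X, (∀ i, dist p (g i) ≤ r j * (R + ε)) ∧
      ((∃ T : Finset X, T.card ≤ N ∧ ball p (r j * R) ⊆ ⋃ y ∈ T, ball y (r j * ε)) →
        ∀ x ∈ ball p (r j * R), ∃ i < N, dist x (g i) < r j * ε) := by
    intro j
    by_cases hT : ∃ T : Finset X, T.card ≤ N ∧ ball p (r j * R) ⊆ ⋃ y ∈ T, ball y (r j * ε)
    · obtain ⟨T, hTN, hTc⟩ := hT
      set T' := T.filter fun y => dist p y ≤ r j * (R + ε) with hT'
      have hcard : T'.card ≤ N := (Finset.card_filter_le _ _).trans hTN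
      refine ⟨fun i => T'.toList.getD i p, fun i => ?_, fun _ x hx => ?_⟩
      · rcases lt_or_ge i T'.toList.length with h | h
        · show dist p (T'.toList.getD i p) ≤ _
          rw [List.getD_eq_getElem _ _ h]
          have h1 : T'.toList[i] ∈ T' := Finset.mem_toList.1 (List.getElem_mem h)
          exact (Finset.mem_filter.1 h1).2
        · show dist p (T'.toList.getD i p) ≤ _
          rw [List.getD_eq_default _ _ h, dist_self]
          have := hr j
          positivity
      · have h1 := hTc hx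
        simp only [mem_iUnion, exists_prop] at h1
        obtain ⟨y, hy, hxy⟩ := h1
        rw [mem_ball] at hxy hx
        have hy' : y ∈ T' := by
          rw [hT', Finset.mem_filter]
          refine ⟨hy, ?_⟩
          have := dist_triangle p x y
          rw [dist_comm p x] at this
          nlinarith
        obtain ⟨i, hi, hiy⟩ := List.getElem_of_mem (Finset.mem_toList.2 hy')
        refine ⟨i, ?_, ?_⟩
        · rw [Finset.length_toList] at hi
          exact hi.trans_le hcard
        · show dist x (T'.toList.getD i p) < _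
          rw [List.getD_eq_getElem _ _ hi, hiy]
          exact hxy
    · refine ⟨fun _ => p, fun i => ?_, fun h => absurd h hT⟩
      rw [dist_self]
      have := hr j
      positivity
  choose g hg1 hg2 using key
  exact ⟨N, g, hg1, by filter_upwards [hN] with j hj using hg2 j hj⟩

/-- **Gromov precompactness.** -/
theorem precompact {X : Type u} [MetricSpace X] {p : X} {r : ℕ → ℝ} (hr : ∀ j, 0 < r j)
    (hcov : ∀ R ε : ℝ, 0 < R → 0 < ε → ∃ N : ℕ, ∀ᶠ j in atTop, ∃ T : Finset X, T.card ≤ N ∧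
      ball p (r j * R) ⊆ ⋃ y ∈ T, ball y (r j * ε)) :
    ∃ φ : ℕ → ℕ, StrictMono φ ∧ ∃ (Y : Type u) (_ : MetricSpace Y) (q : Y), CompleteSpace Y ∧
      IsScaledLimit p (r ∘ φ) q := by
  have hk0 : ∀ k : ℕ, (0 : ℝ) < 1 / ((k : ℝ) + 1) := fun k => by positivity
  choose N g hg1 hg2 using fun k : ℕ => exists_seq hr (R := (k : ℝ) + 1) (ε := 1 / ((k : ℝ) + 1))
    (by positivity) (hk0 k) (hcov _ _ (by positivity) (hk0 k))
  -- the points
  let x : ℕ → Option (ℕ × ℕ) → X := fun j a => a.elim p fun c => g c.1 j c.2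
  let B : Option (ℕ × ℕ) → ℝ := fun a => a.elim 0 fun c => (c.1 : ℝ) + 1 + 1 / ((c.1 : ℝ) + 1)
  have hxB : ∀ j a, dist p (x j a) ≤ r j * B a := by
    intro j a
    cases a with
    | none => simp [x, B]
    | some c => exact hg1 c.1 j c.2
  let D : ℕ → (Option (ℕ × ℕ) × Option (ℕ × ℕ)) → ℝ := fun j ab => dist (x j ab.1) (x j ab.2) / r j
  have hDmem : ∀ j, D j ∈ Set.pi univ fun ab : Option (ℕ × ℕ) × Option (ℕ × ℕ) =>
      Icc (0 : ℝ) (B ab.1 + B ab.2) := by
    intro j ab _
    have hrj := hr j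
    refine ⟨by positivity, ?_⟩
    show dist (x j ab.1) (x j ab.2) / r j ≤ B ab.1 + B ab.2
    rw [div_le_iff₀ hrj]
    have h1 := dist_triangle (x j ab.1) p (x j ab.2)
    rw [dist_comm (x j ab.1) p] at h1
    nlinarith [hxB j ab.1, hxB j ab.2]
  obtain ⟨D₀, -, φ, hφ, hlim⟩ :=
    (isCompact_univ_pi fun ab => isCompact_Icc).tendsto_subseq hDmem
  have hlim' : ∀ a b, Tendsto (fun j => dist (x (φ j) a) (x (φ j) b) / r (φ j)) atTop
      (𝓝 (D₀ (a, b))) := fun a b => (tendsto_pi_nhds.1 hlim) (a, b)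
  -- the limit space
  let I : Type u := ULift.{u} (Option (ℕ × ℕ))
  obtain ⟨Y, iY, ι, hYc, hYd, hYD⟩ := exists_space (I := I) (fun a b => D₀ (a.down, b.down))
    (fun a => by
      refine tendsto_nhds_unique (hlim' a.down a.down) ?_
      simp only [dist_self, zero_div]
      exact tendsto_const_nhds)
    (fun a b => by
      refine tendsto_nhds_unique (hlim' a.down b.down) ?_
      simp only [dist_comm (x _ a.down)]
      exact hlim' b.down a.down)
    (fun a b c => by
      refine le_of_tendsto_of_tendsto' (hlim' a.down c.down)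
        ((hlim' a.down b.down).add (hlim' b.down c.down)) fun j => ?_
      rw [← add_div]
      exact div_le_div_of_nonneg_right (dist_triangle _ _ _) (hr _).le)
  refine ⟨φ, hφ, Y, iY, ι ⟨none⟩, hYc, ?_⟩
  intro R ε hR hε
  obtain ⟨k, hk⟩ := exists_nat_gt (R + 8 / ε + 2)
  have hkpos : (0 : ℝ) < (k : ℝ) + 1 := by positivity
  set e : ℝ := 1 / ((k : ℝ) + 1) with he
  have he0 : 0 < e := hk0 k
  have h4ε : 0 < 8 / ε := by positivity
  have heε : 5 * e ≤ ε := by
    rw [he, mul_one_div, div_le_iff₀ hkpos]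
    have : 8 / ε * ε = 8 := div_mul_cancel₀ _ hε.ne'
    nlinarith
  have he1 : e ≤ 1 := by
    rw [he, div_le_one hkpos]
    linarith [Nat.cast_nonneg (α := ℝ) k]
  have heε' : 4 * e ≤ ε := by linarith
  have hRk : R + 2 ≤ (k : ℝ) + 1 := by linarith
  -- finitely many indices
  let S : Finset (Option (ℕ × ℕ)) :=
    insert none ((Finset.range (N k)).image fun i => some (k, i))
  -- the level `k` points are dense in the limit
  have hdense : ∀ y : Y, dist y (ι ⟨none⟩) < R → ∃ a ∈ S, dist y (ι ⟨a⟩) ≤ 2 * e := by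
    intro y hy
    obtain ⟨⟨b⟩, hb⟩ := hYd.exists_dist_lt y he0
    have hb1 : D₀ (none, b) < (k : ℝ) + 1 := by
      rw [← hYD ⟨none⟩ ⟨b⟩]
      have := dist_triangle (ι ⟨none⟩) y (ι ⟨b⟩)
      rw [dist_comm (ι ⟨none⟩) y] at this
      linarith
    have ev1 : ∀ᶠ j in atTop, dist (x (φ j) none) (x (φ j) b) / r (φ j) < (k : ℝ) + 1 :=
      (hlim' none b).eventually (gt_mem_nhds hb1)
    have ev2 : ∀ᶠ j in atTop, ∃ i < N k, dist (x (φ j) b) (x (φ j) (some (k, i))) / r (φ j) < e := by
      filter_upwards [ev1, hφ.tendsto_atTop.eventually (hg2 k)] with j h1 h2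
      rw [div_lt_iff₀ (hr _)] at h1
      obtain ⟨i, hi, h3⟩ := h2 (x (φ j) b) (by
        rw [mem_ball, dist_comm, mul_comm]
        exact h1)
      refine ⟨i, hi, ?_⟩
      rw [div_lt_iff₀ (hr _), mul_comm]
      exact h3
    have h3 : ∃ i < N k, D₀ (b, some (k, i)) ≤ e := by
      by_contra hcon
      push Not at hcon
      have ev3 : ∀ᶠ j in atTop, ∀ i ∈ Finset.range (N k),
          e < dist (x (φ j) b) (x (φ j) (some (k, i))) / r (φ j) := by
        rw [Filter.eventually_all_finset]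
        intro i hi
        exact (hlim' b (some (k, i))).eventually (lt_mem_nhds (hcon i (Finset.mem_range.1 hi)))
      obtain ⟨j, h4, i, hi, h5⟩ := (ev3.and ev2).exists
      exact absurd (h4 i (Finset.mem_range.2 hi)) (not_lt.2 h5.le)
    obtain ⟨i, hi, h4⟩ := h3
    refine ⟨some (k, i), Finset.mem_insert_of_mem (Finset.mem_image_of_mem _ (Finset.mem_range.2 hi)),
      ?_⟩
    have := dist_triangle y (ι ⟨b⟩) (ι ⟨some (k, i)⟩)
    rw [hYD ⟨b⟩ ⟨some (k, i)⟩] at this
    linarith
  -- the nearest index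
  have hsel : ∀ y : Y, ∃ a ∈ S, (dist y (ι ⟨none⟩) < R → dist y (ι ⟨a⟩) ≤ 2 * e) ∧
      (y = ι ⟨none⟩ → a = none) := by
    intro y
    by_cases hy : y = ι ⟨none⟩
    · refine ⟨none, Finset.mem_insert_self _ _, fun _ => ?_, fun _ => rfl⟩
      rw [hy, dist_self]
      positivity
    · by_cases hy' : dist y (ι ⟨none⟩) < R
      · obtain ⟨a, ha, hya⟩ := hdense y hy'
        exact ⟨a, ha, fun _ => hya, fun h => absurd h hy⟩
      · exact ⟨none, Finset.mem_insert_self _ _, fun h => absurd h hy', fun _ => rfl⟩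
  choose c hcS hc hc0 using hsel
  -- closeness of the distances on `S`
  have hclose : ∀ᶠ j in atTop, ∀ a ∈ S, ∀ b ∈ S,
      |dist (x (φ j) a) (x (φ j) b) / r (φ j) - D₀ (a, b)| ≤ e := by
    rw [Filter.eventually_all_finset]
    intro a _
    rw [Filter.eventually_all_finset]
    intro b _
    have := (tendsto_iff_dist_tendsto_zero.1 (hlim' a b)).eventually (ge_mem_nhds he0)
    simpa only [Real.dist_eq] using this
  filter_upwards [hclose, hφ.tendsto_atTop.eventually (hg2 k)] with j hj1 hj2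
  have hrj := hr (φ j)
  refine ⟨fun y => x (φ j) (c y), ?_, ?_, ?_⟩
  · show x (φ j) (c (ι ⟨none⟩)) = p
    rw [hc0 _ rfl]
    rfl
  · intro a ha b hb
    have h1 := hj1 _ (hcS a) _ (hcS b)
    have h2 := hc a ha
    have h3 := hc b hb
    have h4 : |D₀ (c a, c b) - dist a b| ≤ 4 * e := by
      rw [← hYD ⟨c a⟩ ⟨c b⟩, abs_le]
      constructor
      · have := dist_triangle4 a (ι ⟨c a⟩) (ι ⟨c b⟩) b
        rw [dist_comm (ι ⟨c b⟩) b] at this
        linarith
      · have := dist_triangle4 (ι ⟨c a⟩) a b (ι ⟨c b⟩)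
        rw [dist_comm (ι ⟨c a⟩) a] at this
        linarith
    show |dist (x (φ j) (c a)) (x (φ j) (c b)) / r (φ j) - dist a b| ≤ ε
    rw [abs_le] at h1 h4 ⊢
    constructor <;> linarith [h1.1, h1.2, h4.1, h4.2]
  · intro z hz
    have hz' : z ∈ ball p (r (φ j) * ((k : ℝ) + 1)) := by
      refine ball_subset_ball ?_ hz
      exact mul_le_mul_of_nonneg_left (by linarith) hrj.le
    obtain ⟨i, hi, hzi⟩ := hj2 z hz'
    have hiS : (some (k, i) : Option (ℕ × ℕ)) ∈ S :=
      Finset.mem_insert_of_mem (Finset.mem_image_of_mem _ (Finset.mem_range.2 hi))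
    have h1 := hj1 none (Finset.mem_insert_self _ _) _ hiS
    have hzi' : dist z (x (φ j) (some (k, i))) < r (φ j) * e := hzi
    have h2 : dist p (x (φ j) (some (k, i))) < r (φ j) * (R - ε + e) := by
      have := dist_triangle p z (x (φ j) (some (k, i)))
      rw [mem_ball, dist_comm] at hz
      have hz2 : dist p z < r (φ j) * (R - ε) := hz
      nlinarith
    have h3 : dist (x (φ j) none) (x (φ j) (some (k, i))) / r (φ j) < R - ε + e := by
      rw [div_lt_iff₀ hrj, mul_comm]
      exact h2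
    have h4 : dist (ι ⟨some (k, i)⟩) (ι ⟨none⟩) < R := by
      rw [dist_comm, hYD ⟨none⟩ ⟨some (k, i)⟩]
      rw [abs_le] at h1
      linarith [h1.1]
    refine ⟨ι ⟨some (k, i)⟩, h4, ?_⟩
    have h5 := hc _ h4
    rw [hYD ⟨some (k, i)⟩ ⟨c (ι ⟨some (k, i)⟩)⟩] at h5
    have h6 := hj1 _ hiS _ (hcS (ι ⟨some (k, i)⟩))
    have h7 : dist (x (φ j) (some (k, i))) (x (φ j) (c (ι ⟨some (k, i)⟩))) / r (φ j) ≤ 3 * e := by
      rw [abs_le] at h6
      linarith [h6.2]
    rw [div_le_iff₀ hrj] at h7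
    show dist z (x (φ j) (c (ι ⟨some (k, i)⟩))) ≤ r (φ j) * ε
    have h8 := dist_triangle z (x (φ j) (some (k, i))) (x (φ j) (c (ι ⟨some (k, i)⟩)))
    nlinarith

end Vale.Agent.P233.RegCh
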