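import Vale.Agent.P242.H373.AEDefs
import Vale.Agent.P242.H373.Defs

/-!
# Tangents, regular points and bi-Lipschitz charts
-/

open Filter Topology Set Metric

universe u

namespace Vale.Agent.P242.H719

/-- `(Y, q)` is a tangent of `X` at `p`: a complete pointed Gromov-Hausdorff limit of the rescaled
spaces `(X, r_j⁻¹ d, p)` for some `r_j → 0`. -/
def IsTangent {X Y : Type u} [MetricSpace X] [MetricSpace Y] (p : X) (q : Y) : Prop :=
  CompleteSpace Y ∧ ∃ r : ℕ → ℝ, (∀ j, 0 < r j) ∧ Tendsto r atTop (𝓝 0) ∧ H373.IsScaledLimit p r q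

/-- `p` is `n`-regular: every tangent at `p` is pointed-isometric to `(ℝⁿ, 0)`. -/
def IsRegular {X : Type u} [MetricSpace X] (n : ℕ) (p : X) : Prop :=
  ∀ (Y : Type u) [MetricSpace Y] (q : Y), IsTangent p q →
    ∃ e : Y ≃ᵢ EuclideanSpace ℝ (Fin n), e q = 0

/-- There are an open set `V ⊆ ℝⁿ` and an `L`-bi-Lipschitz homeomorphism `F : U → V`. -/
def BiLipChart {X : Type u} [MetricSpace X] (n : ℕ) (L : ℝ) (U : Set X) : Prop :=
  ∃ (V : Set (EuclideanSpace ℝ (Fin n))) (F : U ≃ₜ V), IsOpen V ∧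
    ∀ x z : U, L⁻¹ * dist x z ≤ dist (F x) (F z) ∧ dist (F x) (F z) ≤ L * dist x z

end Vale.Agent.P242.H719
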