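import Vale.Agent.P233.H719.RegCh6
import Vale.Agent.P233.H719.RegChDefs

/-!
# Charts at regular points, part 7: regular points have almost Euclidean balls
-/

set_option linter.all false

open Filter Topology Set Metric

universe u

namespace Vale.Agent.P233.RegCh

open Vale.Agent.P242.H373 Vale.Agent.P242.H719

/-- closeness to a Euclidean limit -/
theorem close_of_limit {X Y : Type u} [MetricSpace X] [MetricSpace Y] {n : ℕ} {p : X} {q : Y}
    {r : ℕ → ℝ} (hr : ∀ j, 0 < r j) (h : IsScaledLimit p r q)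
    (e : Y ≃ᵢ EuclideanSpace ℝ (Fin n)) (he : e q = 0) {ε : ℝ} (hε : 0 < ε) :
    ∀ᶠ j in atTop, GHClose n ε p (r j) := by
  classical
  set δ : ℝ := min (1 / 2) (ε / 3) with hδd
  have hδ : 0 < δ := lt_min (by norm_num) (by linarith)
  have hδ1 : δ ≤ 1 / 2 := min_le_left _ _
  have hδ2 : 3 * δ ≤ ε := by
    have : δ ≤ ε / 3 := min_le_right _ _
    linarith
  filter_upwards [h 2 δ (by norm_num) hδ] with j hj
  obtain ⟨f, hfq, hf1, hf2⟩ := hj
  have hrj := hr j
  have hsub : ball p (r j) ⊆ ball p (r j * (2 - δ)) := ball_subset_ball (by nlinarith)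
  have hsel : ∀ x ∈ ball p (r j), ∃ a ∈ ball q 2, dist x (f a) ≤ r j * δ ∧ (x = p → a = q) := by
    intro x hx
    by_cases hxp : x = p
    · refine ⟨q, mem_ball_self (by norm_num), ?_, fun _ => rfl⟩
      rw [hxp, hfq, dist_self]
      positivity
    · obtain ⟨a, ha, hxa⟩ := hf2 x (hsub hx)
      exact ⟨a, ha, hxa, fun h => absurd h hxp⟩
  haveI : Nonempty Y := ⟨q⟩
  choose! A hA1 hA2 hA3 using hsel
  have hpm : p ∈ ball p (r j) := mem_ball_self hrj
  have hAp : A p = q := hA3 p hpm rfl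
  have hdist : ∀ y ∈ ball p (r j), ∀ z ∈ ball p (r j),
      |r j * dist (A y) (A z) - dist y z| ≤ 3 * δ * r j := by
    intro y hy z hz
    have h1 := hf1 _ (hA1 y hy) _ (hA1 z hz)
    have h2 : |dist (f (A y)) (f (A z)) - r j * dist (A y) (A z)| ≤ δ * r j := by
      have e1 : dist (f (A y)) (f (A z)) - r j * dist (A y) (A z) =
          (dist (f (A y)) (f (A z)) / r j - dist (A y) (A z)) * r j := by
        field_simp
      rw [e1, abs_mul, abs_of_pos hrj]
      exact mul_le_mul_of_nonneg_right h1 hrj.le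
    have h3 : |dist (f (A y)) (f (A z)) - dist y z| ≤ 2 * (r j * δ) := by
      have a1 := hA2 y hy
      have a2 := hA2 z hz
      rw [abs_le]
      constructor
      · have := dist_triangle4 y (f (A y)) (f (A z)) z
        rw [dist_comm (f (A z)) z] at this
        linarith
      · have := dist_triangle4 (f (A y)) y z (f (A z))
        rw [dist_comm (f (A y)) y] at this
        linarith
    rw [abs_le] at h2 h3 ⊢
    constructor <;> nlinarith [h2.1, h2.2, h3.1, h3.2]
  have hdE : ∀ v w : EuclideanSpace ℝ (Fin n), dist (r j • v) (r j • w) = r j * dist v w := by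
    intro v w
    rw [dist_smul₀, Real.norm_eq_abs, abs_of_pos hrj]
  refine ⟨fun x => r j • e (A x), fun y hy z hz => ?_, fun w hw => ?_⟩
  · show |dist (r j • e (A y)) (r j • e (A z)) - dist y z| ≤ ε * r j
    rw [hdE, e.dist_eq]
    refine (hdist y hy z hz).trans ?_
    exact mul_le_mul_of_nonneg_right hδ2 hrj.le
  · have hw' : w ∈ ball (0 : EuclideanSpace ℝ (Fin n)) (r j) := by
      have e1 : r j • e (A p) = 0 := by rw [hAp, he, smul_zero]
      rw [← e1]
      exact hw
    rw [mem_ball_zero_iff] at hw'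
    -- the point of the limit
    set v : EuclideanSpace ℝ (Fin n) := ((1 - δ) / r j) • w with hv
    have hvn : ‖v‖ < 1 - δ := by
      rw [hv, norm_smul, Real.norm_eq_abs, abs_of_pos (div_pos (by linarith) hrj), div_mul_eq_mul_div,
        div_lt_iff₀ hrj]
      exact mul_lt_mul_of_pos_left hw' (by linarith)
    set b : Y := e.symm v with hb
    have heb : e b = v := e.apply_symm_apply v
    have hqb : dist q b = ‖v‖ := by
      rw [← e.dist_eq, he, heb, dist_zero_left]
    have hb2 : b ∈ ball q 2 := by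
      rw [mem_ball, dist_comm, hqb]
      linarith
    have hq2 : q ∈ ball q 2 := mem_ball_self (by norm_num)
    have h1 := hf1 q hq2 b hb2
    rw [hfq, hqb, abs_le] at h1
    have hy : f b ∈ ball p (r j) := by
      rw [mem_ball, dist_comm]
      have h2 : dist p (f b) / r j < 1 := by linarith [h1.2]
      rwa [div_lt_one hrj] at h2
    refine ⟨f b, hy, ?_⟩
    show dist (r j • e (A (f b))) w ≤ ε * r j
    have h3 := hf1 _ (hA1 _ hy) b hb2
    have h4 := hA2 _ hy
    have h5 : dist (A (f b)) b ≤ 2 * δ := by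
      rw [abs_le] at h3
      have h6 : dist (f (A (f b))) (f b) / r j ≤ δ := by
        rw [div_le_iff₀ hrj, dist_comm, mul_comm]
        exact h4
      linarith [h3.1]
    have h6 : dist (r j • e (A (f b))) (r j • v) ≤ 2 * δ * r j := by
      rw [hdE, ← heb, e.dist_eq]
      nlinarith
    have h7 : dist (r j • v) w ≤ δ * r j := by
      have e2 : r j • v - w = -(δ • w) := by
        rw [hv, smul_smul, mul_div_cancel₀ _ hrj.ne', sub_smul, one_smul]
        abel
      rw [dist_eq_norm, e2, norm_neg, norm_smul, Real.norm_eq_abs, abs_of_pos hδ]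
      exact mul_le_mul_of_nonneg_left hw'.le hδ.le
    have h8 := dist_triangle (r j • e (A (f b))) (r j • v) w
    have h9 : 3 * δ * r j ≤ ε * r j := mul_le_mul_of_nonneg_right hδ2 hrj.le
    linarith

/-- **Regular points have almost Euclidean balls.** -/
theorem close_of_regular {X : Type u} [MetricSpace X] {n : ℕ} {p : X} (hp : IsRegular n p)
    (hcov : ∀ R ε : ℝ, 0 < R → 0 < ε → ∃ (N : ℕ) (s₀ : ℝ), 0 < s₀ ∧ ∀ s : ℝ, 0 < s → s < s₀ →
      ∃ T : Finset X, T.card ≤ N ∧ ball p (s * R) ⊆ ⋃ y ∈ T, ball y (s * ε))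
    {ε r₀ : ℝ} (hε : 0 < ε) (hr₀ : 0 < r₀) : ∃ r, 0 < r ∧ r < r₀ ∧ GHClose n ε p r := by
  set r : ℕ → ℝ := fun j => 1 / ((j : ℝ) + 1) with hrd
  have hr : ∀ j, 0 < r j := fun j => by positivity
  have hlim : Tendsto r atTop (𝓝 0) := tendsto_one_div_add_atTop_nhds_zero_nat (𝕜 := ℝ)
  obtain ⟨φ, hφ, Y, iY, q, hY, hlimY⟩ := precompact (p := p) hr (by
    intro R δ hR hδ
    obtain ⟨N, s₀, hs₀, h⟩ := hcov R δ hR hδ
    refine ⟨N, ?_⟩
    filter_upwards [hlim.eventually (gt_mem_nhds hs₀)] with j hj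
    exact h (r j) (hr j) hj)
  have hlim2 : Tendsto (r ∘ φ) atTop (𝓝 0) := hlim.comp hφ.tendsto_atTop
  obtain ⟨e, he⟩ := hp Y q ⟨hY, r ∘ φ, fun j => hr _, hlim2, hlimY⟩
  have h1 := close_of_limit (fun j => hr (φ j)) hlimY e he hε
  obtain ⟨j, hj1, hj2⟩ := (h1.and (hlim2.eventually (gt_mem_nhds hr₀))).exists
  exact ⟨(r ∘ φ) j, hr _, hj2, hj1⟩

end Vale.Agent.P233.RegCh
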