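import Vale.Agent.P233.H719.RegCh4
import Vale.Agent.P233.H719.RegCh5
import Vale.Agent.P233.H719.RegCh7
import Vale.Agent.P242.H124.Contr

/-!
# Charts at regular points, part 8: assembly
-/

set_option linter.all false

open Filter Topology Set Metric MeasureTheory
open scoped ENNReal NNReal MeasureTheory

universe u

namespace Vale.Agent.P233.RegCh

open Vale.Agent.P242.H373 Vale.Agent.P242.H719

/-- a bi-Lipschitz map with open image is a chart -/
theorem biLipChart_of {X : Type u} [MetricSpace X] {n : ℕ} {L : ℝ} (hL : 0 < L) {U : Set X}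
    (F : X → EuclideanSpace ℝ (Fin n)) (hF : ∀ x ∈ U, ∀ z ∈ U, L⁻¹ * dist x z ≤ dist (F x) (F z) ∧
      dist (F x) (F z) ≤ L * dist x z) (ho : IsOpen (F '' U)) : BiLipChart n L U := by
  have hinj : InjOn F U := fun x hx z hz h => by
    have h1 := (hF x hx z hz).1
    rw [h, dist_self] at h1
    have : 0 < L⁻¹ := inv_pos.2 hL
    exact dist_le_zero.1 (by nlinarith [dist_nonneg (x := x) (y := z)])
  let G : U ≃ (F '' U : Set _) := Equiv.Set.imageOfInjOn F U hinj
  have hG : ∀ x : U, ((G x : F '' U) : EuclideanSpace ℝ (Fin n)) = F x := fun x => rfl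
  have hd : ∀ x z : U, dist (G x) (G z) = dist (F x) (F z) := fun x z => rfl
  have c1 : Continuous G := by
    refine (LipschitzWith.of_dist_le_mul (K := ⟨L, hL.le⟩) fun x z => ?_).continuous
    rw [hd]
    exact (hF x x.2 z z.2).2
  have c2 : Continuous G.symm := by
    refine (LipschitzWith.of_dist_le_mul (K := ⟨L, hL.le⟩) fun v w => ?_).continuous
    have h1 := (hF _ (G.symm v).2 _ (G.symm w).2).1
    rw [← hd, G.apply_symm_apply, G.apply_symm_apply, inv_mul_le_iff₀ hL] at h1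
    exact h1
  exact ⟨F '' U, ⟨G, c1, c2⟩, ho, fun x z => hF x x.2 z z.2⟩

theorem biLipChart_mono {X : Type u} [MetricSpace X] {n : ℕ} {L L' : ℝ} (hL : 0 < L) (h : L ≤ L')
    {U : Set X} (hU : BiLipChart n L U) : BiLipChart n L' U := by
  obtain ⟨V, F, hV, hF⟩ := hU
  refine ⟨V, F, hV, fun x z => ⟨?_, ?_⟩⟩
  · refine le_trans (mul_le_mul_of_nonneg_right ?_ dist_nonneg) (hF x z).1
    exact inv_anti₀ hL h
  · exact (hF x z).2.trans (mul_le_mul_of_nonneg_right h dist_nonneg)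

/-- **The `ε`-regularity theorem**: charts of controlled size and distortion. -/
theorem chart_sec (hF : CD.FinalCD.{u}) (hb : CD.Blk_3b.{u}) {n : ℕ} (hn : 2 ≤ n) :
    ∃ η > 0, ∃ L ≥ 1, ∀ (X : Type u) [MetricSpace X] [CompleteSpace X]
      [SecondCountableTopology X] [MeasurableSpace X] [BorelSpace X] (K κ : ℝ),
      (μH[n] : Measure X).IsOpenPosMeasure → CD.IsRCD (μH[n] : Measure X) K n →
      T.DistSecGE (T.sob (μH[n] : Measure X)) κ → ∀ (p : X) (r : ℝ), 0 < r → -η ≤ K * r ^ 2 →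
      -η ≤ κ * r ^ 2 → GHClose n η p r → BiLipChart n L (ball p (η * r)) := by
  obtain ⟨η₀, hη₀, L, hL, H⟩ := chart_alex.{u} n
  refine ⟨min η₀ (η₀ ^ 2), by positivity, L, hL, ?_⟩
  intro X _ _ _ _ _ K κ hpos hK hκ p r hr hKr hκr hcl
  set η := min η₀ (η₀ ^ 2) with hη
  have hη1 : η ≤ η₀ := min_le_left _ _
  have hη2 : η ≤ η₀ ^ 2 := min_le_right _ _
  have hr2 : 0 < r ^ 2 := by positivity
  set κ' : ℝ := -(η₀ ^ 2 / r ^ 2) with hκ'
  have hκ'neg : κ' < 0 := by
    rw [hκ', neg_lt_zero]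
    positivity
  have hκ'r : κ' * r ^ 2 = -η₀ ^ 2 := by
    rw [hκ', neg_mul, div_mul_cancel₀ _ hr2.ne']
  have hκκ' : κ' ≤ κ := by
    refine le_of_mul_le_mul_right ?_ hr2
    rw [hκ'r]
    linarith
  have hn1 : (1 : ℝ) ≤ (n : ℝ) - 1 := by
    have : (2 : ℝ) ≤ n := by exact_mod_cast hn
    linarith
  have hKK' : ((n : ℝ) - 1) * κ' ≤ K := by
    refine le_of_mul_le_mul_right ?_ hr2
    rw [mul_assoc, hκ'r]
    nlinarith [sq_nonneg η₀]
  have hn1' : (1 : ℝ) < n := by linarith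
  have hbase : H326.Base (μH[n] : Measure X) K n := H326.base_of_rcd (by linarith) (hb X n K hn hpos hK)
  have hsec : CD.IsSecN X n κ' :=
    ⟨hpos, isRCD_mono hn1' hKK' hK, distSec_mono hbase hκκ' hκ⟩
  obtain ⟨hA, hdim⟩ := (hF X n hn κ').2 hsec
  have hsq : √(-κ') * r ≤ η₀ := by
    refine le_of_eq ?_
    rw [hκ', neg_neg, Real.sqrt_div (sq_nonneg _), Real.sqrt_sq hη₀.le, Real.sqrt_sq hr.le,
      div_mul_cancel₀ _ hr.ne']
  obtain ⟨F, hF1, hF2⟩ := H hA hdim hκ'neg hr hsq (ghClose_mono hr.le hη1 hcl)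
  have hsub : ball p (η * r) ⊆ ball p (η₀ * r) :=
    ball_subset_ball (mul_le_mul_of_nonneg_right hη1 hr.le)
  exact biLipChart_of (by linarith) F (fun x hx z hz => hF1 x (hsub hx) z (hsub hz))
    (hF2 _ hsub isOpen_ball)

/-- covering numbers at small scale -/
theorem cover_small {X : Type u} [MetricSpace X] [CompleteSpace X] [SecondCountableTopology X]
    [MeasurableSpace X] [BorelSpace X] {m : Measure X} {K : ℝ} {n : ℕ} (hn : 2 ≤ n)
    (hpos : m.IsOpenPosMeasure) (hfin : ∀ (x : X) (r : ℝ), m (ball x r) < ∞)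
    (hK : P242.IsCD K n m) (p : X) (R ε : ℝ) (hR : 0 < R) (hε : 0 < ε) :
    ∃ (N : ℕ) (s₀ : ℝ), 0 < s₀ ∧ ∀ s : ℝ, 0 < s → s < s₀ →
      ∃ T : Finset X, T.card ≤ N ∧ ball p (s * R) ⊆ ⋃ y ∈ T, ball y (s * ε) := by
  have hn1 : (1 : ℝ) < n := by
    have : (2 : ℝ) ≤ n := by exact_mod_cast hn
    linarith
  obtain ⟨R₀, hR₀, H⟩ := P242.H124.contr_uniform.{u} K hn1 (Q := 1 / 2) (by norm_num) (by norm_num)
  have hpos' : ∀ (x : X) (r : ℝ), 0 < r → 0 < m (ball x r) := fun x r hr =>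
    measure_ball_pos m x hr
  have hC := H m hfin hpos' (Or.inl hK)
  set δ := min ε R with hδ
  have hδ0 : 0 < δ := lt_min hε hR
  refine ⟨⌈(8 * R / δ) ^ (n : ℝ) / (1 / 2) ^ 2⌉₊, R₀ / (2 * R), by positivity, fun s hs hs0 => ?_⟩
  rw [lt_div_iff₀ (by positivity)] at hs0
  obtain ⟨T, hT1, hT2⟩ := P242.exists_net hC hfin hpos' (by norm_num) (by norm_num) p
    (r := s * R) (s := s * δ) (by positivity) (by linarith) (by positivity)
    (mul_le_mul_of_nonneg_left (min_le_right _ _) hs.le)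
  refine ⟨T, ?_, hT2.trans ?_⟩
  · have e : 8 * (s * R) / (s * δ) = 8 * R / δ := by
      field_simp
    rw [e] at hT1
    have := hT1.trans (Nat.le_ceil _)
    exact_mod_cast this
  · refine iUnion₂_mono fun y _ => ball_subset_ball ?_
    exact mul_le_mul_of_nonneg_left (min_le_left _ _) hs.le

/-- **Charts at regular points.** -/
theorem chart_regular (hF : CD.FinalCD.{u}) (hb : CD.Blk_3b.{u}) {n : ℕ} (hn : 2 ≤ n) :
    ∃ L ≥ 1, ∀ (X : Type u) [MetricSpace X] [CompleteSpace X]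
      [SecondCountableTopology X] [MeasurableSpace X] [BorelSpace X] (K κ : ℝ),
      (μH[n] : Measure X).IsOpenPosMeasure → CD.IsRCD (μH[n] : Measure X) K n →
      T.DistSecGE (T.sob (μH[n] : Measure X)) κ → ∀ p : X, IsRegular n p →
      ∃ U : Set X, IsOpen U ∧ p ∈ U ∧ BiLipChart n L U := by
  obtain ⟨η, hη, L, hL, H⟩ := chart_sec hF hb hn
  refine ⟨L, hL, ?_⟩
  intro X _ _ _ _ _ K κ hpos hK hκ p hp
  obtain ⟨r₀, hr₀, h1, h2⟩ : ∃ r₀ > 0, (∀ r, 0 < r → r < r₀ → -η ≤ K * r ^ 2) ∧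
      ∀ r, 0 < r → r < r₀ → -η ≤ κ * r ^ 2 := by
    have key : ∀ c : ℝ, ∀ r, 0 < r → r < min 1 (η / (|c| + 1)) → -η ≤ c * r ^ 2 := by
      intro c r hr hr1
      have h3 : r < 1 := hr1.trans_le (min_le_left _ _)
      have h4 : r * (|c| + 1) < η := by
        rw [← lt_div_iff₀ (by positivity)]
        exact hr1.trans_le (min_le_right _ _)
      have h5 : |c * r ^ 2| ≤ |c| * r := by
        rw [abs_mul, abs_of_pos (by positivity : 0 < r ^ 2)]
        exact mul_le_mul_of_nonneg_left (by nlinarith) (abs_nonneg c)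
      have h6 := neg_abs_le (c * r ^ 2)
      nlinarith
    refine ⟨min (min 1 (η / (|K| + 1))) (min 1 (η / (|κ| + 1))), by positivity,
      fun r hr hr1 => key K r hr (hr1.trans_le (min_le_left _ _)),
      fun r hr hr1 => key κ r hr (hr1.trans_le (min_le_right _ _))⟩
  obtain ⟨r, hr, hrr, hcl⟩ := close_of_regular hp
    (fun R ε hR hε => cover_small hn hpos hK.fin hK.cd p R ε hR hε) hη hr₀
  exact ⟨ball p (η * r), isOpen_ball, mem_ball_self (by positivity),
    H X K κ hpos hK hκ p r hr (h1 r hr hrr) (h2 r hr hrr) hcl⟩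

end Vale.Agent.P233.RegCh
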