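import Vale.Agent.P233.Bd3.B9

/-!
P233, block D5: the slab estimate.
-/

open MeasureTheory Filter Topology
open scoped ENNReal NNReal

namespace Vale.Agent.P233.H719

variable {M : Type*} [MeasurableSpace M] {m : Measure M} {C : Calc m}

/-- `√x ≤ 1 + |x - 1|` -/
theorem sqrt_le_one_add {x : ℝ} (hx : 0 ≤ x) : Real.sqrt x ≤ 1 + |x - 1| := by
  have h1 : Real.sqrt x ≤ (1 + x) / 2 := by
    nlinarith [sq_nonneg (Real.sqrt x - 1), Real.sq_sqrt hx]
  have h2 : x - 1 ≤ |x - 1| := le_abs_self _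
  have h3 := abs_nonneg (x - 1)
  linarith

/-- The slab estimate, quantitative form. -/
theorem slab (hC : IsDir C) {b l η : M →ₘ[m] ℝ} (hb : b ∈ C.A)
    (hl : C.IsLap b l) {La : ℝ} (hLa : ∀ᵐ x ∂m, |l x| ≤ La) (hη : η ∈ C.A)
    (hη0 : ∀ᵐ x ∂m, 0 ≤ η x) (hη1 : ∀ᵐ x ∂m, η x ≤ 1) {s : ℝ} (hs : 0 < s)
    (hηΓ : ∀ᵐ x ∂m, C.Γ η η x ≤ (s⁻¹) ^ 2) {S T : Set M} (hS : MeasurableSet S)
    (hT : MeasurableSet T) (hST : S ⊆ T) (hηS : ∀ᵐ x ∂m, x ∈ S → η x = 1)
    (hηT : ∀ᵐ x ∂m, x ∉ T → η x = 0) (hmT : m T < ∞) (a : ℝ) {e : ℝ} (he : 0 < e) :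
    (m {x | x ∈ S ∧ |b x - a| ≤ e * s}).toReal ≤
      4 * e * (1 + La * s) * (m T).toReal + (1 + 4 * e) * ∫ x in T, |C.Γ b b x - 1| ∂m := by
  have hbW : b ∈ C.W := hb.1
  have hηW : η ∈ C.W := hη.1
  have hδ : 0 < e * s := mul_pos he hs
  set δ : ℝ := e * s with hδdef
  -- the functions of one variable
  set Φ : ℝ → ℝ := fun t => 2 * δ * Real.arctan ((t - a) / δ) with hΦdef
  set ψ : ℝ → ℝ := fun t => 2 * (1 / (1 + ((t - a) / δ) ^ 2)) with hψdef
  have hΦc : Continuous Φ := by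
    simp only [hΦdef]
    exact continuous_const.mul (Real.continuous_arctan.comp
      ((continuous_id.sub continuous_const).div_const _))
  have hψc : Continuous ψ := by
    simp only [hψdef]
    refine continuous_const.mul (Continuous.div continuous_const
      (continuous_const.add (((continuous_id.sub continuous_const).div_const _).pow 2)) ?_)
    intro t
    positivity
  have hΦb : ∀ t, |Φ t| ≤ 4 * δ := by
    intro t
    have h1 := Real.arctan_lt_pi_div_two ((t - a) / δ)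
    have h2 := Real.neg_pi_div_two_lt_arctan ((t - a) / δ)
    have h3 := Real.pi_le_four
    have h4 : |Real.arctan ((t - a) / δ)| ≤ 2 := by
      rw [abs_le]; constructor <;> linarith
    simp only [hΦdef]
    rw [abs_mul, abs_of_pos (by positivity : (0 : ℝ) < 2 * δ)]
    nlinarith
  have hψ0 : ∀ t, 0 ≤ ψ t := by intro t; simp only [hψdef]; positivity
  have hψ2 : ∀ t, ψ t ≤ 2 := by
    intro t
    simp only [hψdef]
    have : 1 / (1 + ((t - a) / δ) ^ 2) ≤ 1 := by
      rw [div_le_one (by positivity)]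
      nlinarith [sq_nonneg ((t - a) / δ)]
    linarith
  have hψ1 : ∀ t, |t - a| ≤ δ → 1 ≤ ψ t := by
    intro t ht
    simp only [hψdef]
    have h1 : ((t - a) / δ) ^ 2 ≤ 1 := by
      rw [div_pow, div_le_one (by positivity)]
      exact sq_le_sq' (by linarith [(abs_le.1 ht).1]) (abs_le.1 ht).2
    have h2 : (1 : ℝ) / 2 ≤ 1 / (1 + ((t - a) / δ) ^ 2) := by
      apply one_div_le_one_div_of_le (by positivity)
      linarith
    linarith
  set φ : ℝ → ℝ := fun t => Φ t - Φ 0 with hφdef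
  have hφc : Continuous φ := hΦc.sub continuous_const
  have hφd : ∀ t, HasDerivAt φ (ψ t) t := by
    intro t
    have h1 : HasDerivAt (fun t : ℝ => (t - a) / δ) (1 / δ) t :=
      ((hasDerivAt_id t).sub_const a).div_const δ
    have h2 := (h1.arctan.const_mul (2 * δ)).sub_const (Φ 0)
    refine h2.congr_deriv ?_
    simp only [hψdef]
    field_simp
  obtain ⟨hφW, hφΓ⟩ := hC.chain b hbW φ ψ hφc hψc hφd (by simp [hφdef])
    ⟨2, fun t => by rw [abs_of_nonneg (hψ0 t)]; exact hψ2 t⟩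
  set F : M →ₘ[m] ℝ := AEEqFun.comp φ hφc b with hFdef
  set P : M →ₘ[m] ℝ := AEEqFun.comp ψ hψc b with hPdef
  have hFae : ∀ᵐ x ∂m, F x = φ (b x) := AEEqFun.coeFn_comp φ hφc b
  have hPae : ∀ᵐ x ∂m, P x = ψ (b x) := AEEqFun.coeFn_comp ψ hψc b
  have hFA : F ∈ C.A := by
    refine ⟨hφW, mem_top_iff.2 ⟨8 * δ, ?_⟩⟩
    filter_upwards [hFae] with x hx
    rw [hx]
    simp only [hφdef]
    calc |Φ (b x) - Φ 0| ≤ |Φ (b x)| + |Φ 0| := abs_sub _ _
      _ ≤ 8 * δ := by linarith [hΦb (b x), hΦb 0]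
  -- the function `G`
  set G : M →ₘ[m] ℝ := η * l + C.Γ b η with hGdef
  have hlL2 : MemLp l 2 m := hl.2.1
  have hηL2 : MemLp η 2 m := hC.memLp _ hηW
  have hG1 : MemLp G 1 m := mem_add (mem_mul_22 hηL2 hlL2) (hC.Γ_mem1 hbW hηW)
  have hIG : I G = 0 := by
    have h1 := hl.2.2 η hηW
    rw [hGdef, I_add (mem_mul_22 hηL2 hlL2) (hC.Γ_mem1 hbW hηW)]
    have h2 : I (C.Γ b η) = -I (l * η) := h1
    rw [h2, mul_comm η l]; ring
  have hI : I (η * (P * C.Γ b b)) = -I (F * G) := by
    have hg : η * F ∈ C.A := hC.mul_mem_A hη hFA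
    have h1 : I (C.Γ b (η * F)) = -I (l * (η * F)) := hl.2.2 _ hg.1
    have h2 : C.Γ b (η * F) = η * (P * C.Γ b b) + F * C.Γ b η := by
      rw [hC.Γ_mul_right hη hFA hbW, hC.symm b hbW F hφW, hφΓ b hbW]
    have hFt : MemLp F ∞ m := hFA.2
    have hPt : MemLp P ∞ m := by
      refine mem_top_iff.2 ⟨2, ?_⟩
      filter_upwards [hPae] with x hx
      rw [hx, abs_of_nonneg (hψ0 _)]; exact hψ2 _
    have i1 : MemLp (η * (P * C.Γ b b) : M →ₘ[m] ℝ) 1 m :=
      mem_mul_top hη.2 (mem_mul_top hPt (hC.Γ_mem1 hbW hbW))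
    have i2 : MemLp (F * C.Γ b η : M →ₘ[m] ℝ) 1 m := mem_mul_top hFt (hC.Γ_mem1 hbW hηW)
    have i3 : MemLp (F * (η * l) : M →ₘ[m] ℝ) 1 m := mem_mul_top hFt (mem_mul_22 hηL2 hlL2)
    rw [h2, I_add i1 i2] at h1
    have h3 : I (F * G) = I (F * (η * l)) + I (F * C.Γ b η) := by
      rw [hGdef, mul_add, I_add i3 i2]
    have h4 : l * (η * F) = F * (η * l) := by ring
    rw [h4] at h1
    linarith
  -- bounds of `G`
  have hGae : ∀ᵐ x ∂m, |G x| ≤ T.indicator (fun x => La + s⁻¹ * (1 + |C.Γ b b x - 1|)) x := by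
    filter_upwards [add_ae (η * l) (C.Γ b η), mul_ae η l, hC.Γ_cs_ae hbW hηW, hηΓ, hη0, hη1, hLa,
      hηT, hC.Γ_zero_ae hηW, hC.Γ_nonneg_ae hbW, hC.Γ_nonneg_ae hηW] with x h1 h2 h3 h4 h5 h6 h7 h8
      h9 h10 h11
    have e0 : G x = η x * l x + C.Γ b η x := by rw [hGdef, h1, h2]
    by_cases hx : x ∈ T
    · rw [Set.indicator_of_mem hx, e0]
      have a1 : |η x * l x| ≤ La := by
        rw [abs_mul, abs_of_nonneg h5]
        nlinarith [abs_nonneg (l x)]
      have a2 : |C.Γ b η x| ≤ s⁻¹ * (1 + |C.Γ b b x - 1|) := by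
        have b1 : C.Γ b η x ^ 2 ≤ (s⁻¹ * Real.sqrt (C.Γ b b x)) ^ 2 := by
          rw [mul_pow, Real.sq_sqrt h10]
          nlinarith
        have b2 : |C.Γ b η x| ≤ s⁻¹ * Real.sqrt (C.Γ b b x) :=
          abs_le_of_sq_le_sq b1 (by positivity)
        refine b2.trans (mul_le_mul_of_nonneg_left (sqrt_le_one_add h10) (by positivity))
      exact (abs_add_le _ _).trans (add_le_add a1 a2)
    · rw [Set.indicator_of_notMem hx, e0]
      have a1 := h8 hx
      have a2 := h9 a1
      have a3 : C.Γ b η x = 0 := by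
        rw [a2, mul_zero] at h3
        exact pow_eq_zero_iff (two_ne_zero) |>.1 (le_antisymm h3 (sq_nonneg _))
      rw [a1, a3]; simp
  have hΓint : Integrable (fun x => C.Γ b b x) m := int_of_mem (hC.Γ_mem1 hbW hbW)
  have hT1 : IntegrableOn (fun _ : M => (1 : ℝ)) T m := integrableOn_const (hs := hmT.ne)
  have hθint : IntegrableOn (fun x => |C.Γ b b x - 1|) T m :=
    (hΓint.integrableOn.sub hT1).abs
  set θ : ℝ := ∫ x in T, |C.Γ b b x - 1| ∂m with hθdef
  have hθ0 : 0 ≤ θ := integral_nonneg fun x => abs_nonneg _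
  have hLa0 : 0 ≤ La ∨ m = 0 := by
    by_cases h : m = 0
    · exact Or.inr h
    · left
      have : NeZero m := ⟨h⟩
      obtain ⟨x, hx⟩ := hLa.exists
      exact (abs_nonneg _).trans hx
  have hGint : ∫ x, |G x| ∂m ≤ La * (m T).toReal + s⁻¹ * ((m T).toReal + θ) := by
    have h1 : ∫ x, |G x| ∂m ≤ ∫ x, T.indicator (fun x => La + s⁻¹ * (1 + |C.Γ b b x - 1|)) x ∂m := by
      apply integral_mono_ae
      · exact (int_of_mem hG1).abs
      · rw [integrable_indicator_iff hT]
        have := (hT1.add hθint).const_mul s⁻¹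
        have h2 : IntegrableOn (fun _ : M => La) T m := integrableOn_const (hs := hmT.ne)
        exact h2.add this
      · exact hGae
    refine h1.trans (le_of_eq ?_)
    rw [integral_indicator hT]
    have h2 : IntegrableOn (fun _ : M => La) T m := integrableOn_const (hs := hmT.ne)
    have h3 : IntegrableOn (fun x => s⁻¹ * (1 + |C.Γ b b x - 1|)) T m :=
      (hT1.add hθint).const_mul s⁻¹
    rw [integral_add h2 h3, integral_const_mul, integral_add hT1 hθint]
    rw [setIntegral_const, setIntegral_const]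
    simp only [smul_eq_mul, mul_one, Measure.real]
    ring
  have hFG : |I (F * G)| ≤ 4 * δ * (La * (m T).toReal + s⁻¹ * ((m T).toReal + θ)) := by
    -- `I (F * G) = ∫ Φ(b) G`
    have h0 : I (F * G) = ∫ x, Φ (b x) * G x ∂m := by
      have h1 : I (F * G) = ∫ x, (Φ (b x) * G x - Φ 0 * G x) ∂m := by
        unfold I
        apply integral_congr_ae
        filter_upwards [mul_ae F G, hFae] with x h1 h2
        rw [h1, h2]; simp only [hφdef]; ring
      have hi1 : Integrable (fun x => Φ (b x) * G x) m := by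
        refine ((int_of_mem hG1).bdd_mul (c := 4 * δ) ?_ ?_)
        · exact hΦc.comp_aestronglyMeasurable b.aestronglyMeasurable
        · filter_upwards with x
          rw [Real.norm_eq_abs]; exact hΦb _
      rw [h1, integral_sub hi1 ((int_of_mem hG1).const_mul _), integral_const_mul]
      have : ∫ x, G x ∂m = 0 := hIG
      rw [this]; ring
    rw [h0]
    calc |∫ x, Φ (b x) * G x ∂m| ≤ ∫ x, |Φ (b x) * G x| ∂m := abs_integral_le_integral_abs
      _ ≤ ∫ x, 4 * δ * |G x| ∂m := by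
          apply integral_mono_of_nonneg
          · filter_upwards with x; exact abs_nonneg _
          · exact (int_of_mem hG1).abs.const_mul _
          · filter_upwards with x
            rw [abs_mul]
            exact mul_le_mul_of_nonneg_right (hΦb _) (abs_nonneg _)
      _ = 4 * δ * ∫ x, |G x| ∂m := integral_const_mul _ _
      _ ≤ _ := mul_le_mul_of_nonneg_left hGint (by positivity)
  -- the measure of the slab
  set A : Set M := {x | x ∈ S ∧ |b x - a| ≤ δ} with hAdef
  have hAm : MeasurableSet A := by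
    have h1 : MeasurableSet {x | |b x - a| ≤ δ} := by
      have h2 : Measurable fun x => b x - a := b.measurable.sub_const a
      exact measurableSet_le (measurable_norm.comp h2) measurable_const
    exact hS.inter h1
  have hAT : A ⊆ T := fun x hx => hST hx.1
  have hmA : m A < ∞ := lt_of_le_of_lt (measure_mono hAT) hmT
  have hA1 : (m A).toReal = ∫ x in A, (1 : ℝ) ∂m := by
    simp [Measure.real]
  have hA1i : IntegrableOn (fun _ : M => (1 : ℝ)) A m := integrableOn_const (hs := hmA.ne)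
  have hmain : (m A).toReal ≤ I (η * (P * C.Γ b b)) + θ := by
    have h1 : ∫ x in A, (1 : ℝ) ∂m ≤ ∫ x in A, ((η * (P * C.Γ b b) : M →ₘ[m] ℝ) x
        + |C.Γ b b x - 1|) ∂m := by
      apply integral_mono_ae hA1i
      · have hPt : MemLp P ∞ m := by
          refine mem_top_iff.2 ⟨2, ?_⟩
          filter_upwards [hPae] with x hx
          rw [hx, abs_of_nonneg (hψ0 _)]; exact hψ2 _
        have i1 : MemLp (η * (P * C.Γ b b) : M →ₘ[m] ℝ) 1 m :=
          mem_mul_top hη.2 (mem_mul_top hPt (hC.Γ_mem1 hbW hbW))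
        exact (int_of_mem i1).integrableOn.add (hθint.mono_set hAT)
      · filter_upwards [ae_restrict_mem hAm, ae_restrict_of_ae (mul_ae η (P * C.Γ b b)),
          ae_restrict_of_ae (mul_ae P (C.Γ b b)), ae_restrict_of_ae hPae, ae_restrict_of_ae hηS,
          ae_restrict_of_ae (hC.Γ_nonneg_ae hbW)] with x h1 h2 h3 h4 h5 h6
        rw [h2, h3, h4, h5 h1.1, one_mul]
        have h7 := hψ1 (b x) h1.2
        have h8 : 1 - C.Γ b b x ≤ |C.Γ b b x - 1| := by
          rw [abs_sub_comm]; exact le_abs_self _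
        nlinarith
    have hPt : MemLp P ∞ m := by
      refine mem_top_iff.2 ⟨2, ?_⟩
      filter_upwards [hPae] with x hx
      rw [hx, abs_of_nonneg (hψ0 _)]; exact hψ2 _
    have i1 : MemLp (η * (P * C.Γ b b) : M →ₘ[m] ℝ) 1 m :=
      mem_mul_top hη.2 (mem_mul_top hPt (hC.Γ_mem1 hbW hbW))
    rw [hA1]
    refine h1.trans ?_
    rw [integral_add (int_of_mem i1).integrableOn (hθint.mono_set hAT)]
    refine add_le_add ?_ ?_
    · refine setIntegral_le_integral (int_of_mem i1) ?_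
      filter_upwards [mul_ae η (P * C.Γ b b), mul_ae P (C.Γ b b), hPae, hη0,
        hC.Γ_nonneg_ae hbW] with x h2 h3 h4 h5 h6
      rw [h2, h3, h4]
      exact mul_nonneg h5 (mul_nonneg (hψ0 _) h6)
    · exact setIntegral_mono_set hθint (Filter.Eventually.of_forall fun x => abs_nonneg _)
        (LE.le.eventuallyLE hAT)
  have hle : I (η * (P * C.Γ b b)) ≤ |I (F * G)| := by
    rw [hI]; exact neg_le_abs _
  have hfin : (m A).toReal ≤ 4 * δ * (La * (m T).toReal + s⁻¹ * ((m T).toReal + θ)) + θ := by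
    linarith
  refine hfin.trans (le_of_eq ?_)
  rw [hδdef]
  field_simp
  ring

end Vale.Agent.P233.H719
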