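import Vale.Agent.P233.H719.Unif
import Vale.Agent.P233.Gig.IfC

/-! P233, part C: bounds in `L²` and Lipschitz bounds in time of the densities of level `ε`
(for one level; abstract calculus). -/

set_option linter.all false

open MeasureTheory Filter Topology Set
open scoped ENNReal NNReal

universe u

namespace Vale.Agent.P233.H719

open Vale.Agent.P233.PC (RE)

section level

variable {M : Type u} [MeasurableSpace M] {m : Measure M} {C : Calc m} {κ K : ℝ}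
  {P : ℝ → (M →ₘ[m] ℝ) → (M →ₘ[m] ℝ)} {ε a b : ℝ} {φ u : ℝ → M →ₘ[m] ℝ}
  {k h : M →ₘ[m] ℝ} {t r s T B : ℝ}

theorem RE_eq : RE P ε φ u t r k = TT.RR P ε (TT.ff ε φ) (TT.gg ε u) t r k := rfl

theorem rh_eq_fg : rh ε φ u t = TT.ff ε φ t * TT.gg ε u t := TT.rh_eq ε φ u t

theorem rh_nonneg : 0 ≤ rh ε φ u t := TT.ex_nonneg _

/-- the `L²` bound of the two-time densities -/
theorem RE_L2 (hC : IsGamma C) (hP : Heat C K P) (hp : Pair C P ε a b φ u) (ht : t ∈ Icc a b)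
    (hr : r ∈ Icc a b) (hk : MemLp k 2 m) (hk' : MemLp k ∞ m) (hB : 0 ≤ B)
    (hρ : ∀ᵐ x ∂m, rh ε φ u t x ≤ B) :
    MemLp (RE P ε φ u t r k) 2 m ∧ I (RE P ε φ u t r k ^ 2) ≤ B * I (k ^ 2 * rh ε φ u r) := by
  have hF := TT.FG.of_pair hp
  have hk2 : MemLp (k ^ 2 : M →ₘ[m] ℝ) 2 m := by rw [pow_two]; exact mem_mul_top hk' hk
  have hk1 : MemLp (k ^ 2 : M →ₘ[m] ℝ) 1 m := mem_sq hk
  rw [RE_eq, rh_eq_fg]
  have m2 := TT.RR_mem2 hC hF hP ht hr hk
  refine ⟨m2, ?_⟩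
  rw [← TT.RR_mass hC hF hP ht hr hk2 hk1, ← I_smul]
  refine I_mono (mem_sq m2) (mem_smul _ (TT.RR_mem1 hC hF hP ht hr hk2 hk1)) (le_iff_ae.2 ?_)
  have h0 := TT.RR_nonneg hC hF hP ht hr hk2 (sq_nonneg' k)
  rw [rh_eq_fg] at hρ
  filter_upwards [TT.RR_cs hC hF hP ht hr hk hk', nonneg_iff_ae.1 h0, hρ,
    sq_ae (TT.RR P ε (TT.ff ε φ) (TT.gg ε u) t r k),
    smul_ae (TT.RR P ε (TT.ff ε φ) (TT.gg ε u) t r (k ^ 2)) B] with x a1 a2 a3 a4 a5
  rw [a4, a5]
  exact a1.trans (mul_le_mul_of_nonneg_right a3 a2)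

/-- derivative of `∫ h (ρ - 1)` -/
theorem rh_deriv (hC : IsGamma C) (hB : C.BEi κ) (hP : Heat C K P)
    (hp : Pair C P ε a b φ u) (hh : h ∈ C.Test) (ht : t ∈ Icc a b) :
    HasDerivWithinAt (fun s => I (h * (rh ε φ u s - 1)))
      (I (C.Γ (u t) h * rh ε φ u t) - ε / 2 * I (C.lap h * (rh ε φ u t - 1))) (Icc a b) t := by
  have hF := TT.FG.of_pair hp
  have hε := hp.hε
  set f := TT.ff ε φ with hf
  set g := TT.gg ε u with hg
  have hA := hC.test_A hh
  have h2 : MemLp h 2 m := hC.memLp _ hA.1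
  have f2 : ∀ s ∈ Icc a b, MemLp (f s - 1 : M →ₘ[m] ℝ) 2 m := fun s hs => hF.f2 hC hs
  have g2 : ∀ s ∈ Icc a b, MemLp (g s - 1 : M →ₘ[m] ℝ) 2 m := fun s hs => hF.g2 hC hs
  have ft : ∀ s ∈ Icc a b, MemLp (f s) ∞ m := fun s hs => hF.top_f hC hs
  have gt : ∀ s ∈ Icc a b, MemLp (g s) ∞ m := fun s hs => hF.top_g hC hs
  set α := f t - 1 with hα
  set β := g t - 1 with hβ
  have eα : f t = 1 + α := by rw [hα]; ring
  have eβ : g t = 1 + β := by rw [hβ]; ring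
  have hαT : α ∈ C.Test := (hF.f_mem t ht).1
  have hβT : β ∈ C.Test := (hF.g_mem t ht).1
  have lα := hC.test_isLap hαT
  have lβ := hC.test_isLap hβT
  have lh := hC.test_isLap hh
  have αA := hC.test_A hαT
  have βA := hC.test_A hβT
  -- the derivatives
  have d1 : DL2 (fun s => h * f s) (h * (-(ε / 2) • C.lap α)) (Icc a b) t := by
    have := (TT.DL2_mul_bdd hA.2 (hF.DL2_f hC hP ht)).add_const h
    have e : (fun s => h * (f s - 1) + h) = fun s => h * f s := by funext s; ring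
    rwa [e] at this
  have d2 : DL2 (fun s => g s - 1) ((ε / 2) • C.lap β) (Icc a b) t := hF.DL2_g hC hP ht
  have d3 : DL2 (fun s => f s - 1) (-(ε / 2) • C.lap α) (Icc a b) t := hF.DL2_f hC hP ht
  have k1 := TT.hasDeriv_I_mul d1 d2 (fun s hs => mem_top_mul h2 (ft s hs))
    (mem_top_mul h2 (ft t ht)) g2 (g2 t ht)
  have k2 := TT.hasDeriv_I_mul (DL2.const (S := Icc a b) (t := t) h) d3 (fun s _ => h2) h2 f2 (f2 t ht)
  have key := k1.add k2
  have e0 : ∀ s ∈ Icc a b, I (h * (rh ε φ u s - 1)) = I (h * f s * (g s - 1)) + I (h * (f s - 1)) := by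
    intro s hs
    rw [← I_add (mem_mul_22 (mem_top_mul h2 (ft s hs)) (g2 s hs)) (mem_mul_22 h2 (f2 s hs)),
      rh_eq_fg]
    congr 1; ring
  refine (key.congr_deriv ?_).congr (fun s hs => e0 s hs) (e0 t ht)
  -- the identity
  have hA1 : (g t - 1 : M →ₘ[m] ℝ) ∈ C.Test := hβT
  have ce := TT.ce_identity hC hB hh (A := g t) (H := α) hA1 hαT
  rw [← hβ] at ce
  have mαβ : MemLp (α * C.Γ β h : M →ₘ[m] ℝ) 1 m := mem_mul_top αA.2 (hC.Γ_mem1 βA.1 hA.1)
  have mβh : MemLp (C.Γ β h : M →ₘ[m] ℝ) 1 m := hC.Γ_mem1 βA.1 hA.1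
  have c1 : I (C.lap h * β) = -I (C.Γ β h) := by
    have h3 : I (C.Γ h β) = -I (C.lap h * β) := lh.2.2 β βA.1
    rw [hC.symm _ hA.1 _ βA.1] at h3
    linarith
  have c2 : I (h * C.lap β) = -I (C.Γ β h) := by
    have h3 : I (C.Γ β h) = -I (C.lap β * h) := lβ.2.2 h hA.1
    rw [mul_comm h]; linarith
  -- `Γ(u,h) ρ = -ε f Γ(g-1,h)`
  have hw : -(ε⁻¹ • u t) ∈ C.A := by
    have := hC.toIsDir.A_smul (-ε⁻¹) (hC.test_A (hp.u_mem t ht).1)
    rwa [neg_smul] at this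
  have c3 : C.Γ (u t) h * rh ε φ u t = -(ε • (f t * C.Γ β h)) := by
    have h3 := TT.Γ_ex hC.toIsDir hw hA.1
    have h4 : C.Γ (-(ε⁻¹ • u t)) h = -(ε⁻¹ • C.Γ (u t) h) := by
      have := hC.smul_left (-ε⁻¹) (u t) (hC.test_A (hp.u_mem t ht).1).1 h hA.1
      rw [neg_smul, neg_smul] at this
      exact this
    have h5 : C.Γ β h = g t * -(ε⁻¹ • C.Γ (u t) h) := by rw [← h4]; exact h3
    rw [h5, rh_eq_fg, mul_neg, mul_neg, smul_neg, neg_neg, mul_smul_comm, mul_smul_comm, smul_smul,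
      mul_inv_cancel₀ hε.ne', one_smul]
    ring
  have c4 : I (C.Γ (u t) h * rh ε φ u t) = -ε * (I (C.Γ β h) + I (α * C.Γ β h)) := by
    rw [c3, I_neg, I_smul, ← I_add mβh mαβ, eα]
    have : (1 + α) * C.Γ β h = C.Γ β h + α * C.Γ β h := by ring
    rw [this]; ring
  have c5 : I (C.lap h * (rh ε φ u t - 1)) = I (C.lap h * (g t * α)) + I (C.lap h * β) := by
    rw [← I_add (mem_mul_22 lh.2.1 (mem_mul_top (gt t ht) (f2 t ht))) (mem_mul_22 lh.2.1 (g2 t ht))]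
    congr 1
    rw [rh_eq_fg, ← hf, ← hg, eα, eβ]; ring
  have c6 : I (h * (-(ε / 2) • C.lap α) * (g t - 1)) + I (h * (-(ε / 2) • C.lap α))
      = -(ε / 2) * I (h * g t * C.lap α) := by
    have m1 : MemLp (h * (-(ε / 2) • C.lap α) * (g t - 1) : M →ₘ[m] ℝ) 1 m :=
      mem_mul_22 (mem_mul_top hA.2 (mem_smul _ lα.2.1)) (g2 t ht)
    have m2 : MemLp (h * (-(ε / 2) • C.lap α) : M →ₘ[m] ℝ) 1 m := mem_mul_22 h2 (mem_smul _ lα.2.1)
    rw [← I_add m1 m2, ← I_smul]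
    congr 1
    rw [mul_smul_comm, smul_mul_assoc, ← smul_add]
    congr 1
    ring
  have c7 : I (h * f t * ((ε / 2) • C.lap β)) = ε / 2 * (I (h * C.lap β * α) + I (h * C.lap β)) := by
    rw [← I_add (mem_mul_22 (mem_mul_top hA.2 lβ.2.1) (f2 t ht)) (mem_mul_22 h2 lβ.2.1), ← I_smul]
    congr 1
    rw [mul_smul_comm, eα]
    congr 1
    ring
  have c8 : I ((0 : M →ₘ[m] ℝ) * (f t - 1)) = 0 := by rw [zero_mul, I_zero]
  have hsum : I (h * (-(ε / 2) • C.lap α) * (g t - 1)) + I (h * f t * ((ε / 2) • C.lap β))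
      + (I ((0 : M →ₘ[m] ℝ) * (f t - 1)) + I (h * (-(ε / 2) • C.lap α)))
      = I (C.Γ (u t) h * rh ε φ u t) - ε / 2 * I (C.lap h * (rh ε φ u t - 1)) := by
    rw [c8, c4, c5, c7]
    linear_combination c6 + (ε / 2) * ce + (ε / 2) * c1 + (ε / 2) * c2
  exact hsum

/-- Lipschitz bound in time of `∫ h (ρ - 1)` -/
theorem rh_lip (hC : IsGamma C) (hB : C.BEi κ) (hP : Heat C K P)
    (hp : Pair C P ε a b φ u) (hh : h ∈ C.Test) (has : a ≤ s) (hTb : T ≤ b) {S En : ℝ}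
    (hB0 : 0 ≤ B) (hS : 0 ≤ S) (hEn : 0 ≤ En)
    (hρ : ∀ t ∈ Icc s T, ∀ᵐ x ∂m, rh ε φ u t x ≤ B)
    (h2 : ∀ t ∈ Icc s T, I ((rh ε φ u t - 1) ^ 2) ≤ S ^ 2)
    (hE : ∀ t ∈ Icc s T, I (C.Γ (u t) (u t)) ≤ En ^ 2) :
    ∀ x ∈ Icc s T, ∀ y ∈ Icc s T,
      |I (h * (rh ε φ u x - 1)) - I (h * (rh ε φ u y - 1))|
        ≤ (B * (En * √(I (C.Γ h h))) + ε / 2 * (S * √(I (C.lap h ^ 2)))) * |x - y| := by
  have hF := TT.FG.of_pair hp
  have hε := hp.hε
  have hA := hC.test_A hh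
  have lh := hC.test_isLap hh
  have hsub : Icc s T ⊆ Icc a b := Icc_subset_Icc has hTb
  have ρ2 : ∀ t ∈ Icc s T, MemLp (rh ε φ u t - 1 : M →ₘ[m] ℝ) 2 m := by
    intro t ht
    have ht' := hsub ht
    have e : rh ε φ u t - 1 = TT.ff ε φ t * (TT.gg ε u t - 1) + (TT.ff ε φ t - 1) := by
      rw [rh_eq_fg]; ring
    rw [e]
    exact mem_add (mem_mul_top (hF.top_f hC ht') (hF.g2 hC ht')) (hF.f2 hC ht')
  intro x hx y hy
  have key := (convex_Icc s T).norm_image_sub_le_of_norm_hasDerivWithin_le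
    (f := fun s => I (h * (rh ε φ u s - 1)))
    (C := B * (En * √(I (C.Γ h h))) + ε / 2 * (S * √(I (C.lap h ^ 2))))
    (fun t ht => (rh_deriv hC hB hP hp hh (hsub ht)).mono hsub) ?_ hy hx
  · rw [Real.norm_eq_abs, Real.norm_eq_abs] at key
    exact key
  · intro t ht
    have uW := (hC.test_A (hp.u_mem t (hsub ht)).1).1
    have mG : MemLp (C.Γ (u t) h) 1 m := hC.Γ_mem1 uW hA.1
    have b1 : |I (C.Γ (u t) h * rh ε φ u t)| ≤ B * (En * √(I (C.Γ h h))) := by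
      have h0 := rh_nonneg (m := m) (ε := ε) (φ := φ) (u := u) (t := t)
      have hrt : MemLp (rh ε φ u t) ∞ m := by
        rw [mem_top_iff]
        refine ⟨B, ?_⟩
        filter_upwards [hρ t ht, nonneg_iff_ae.1 h0] with z a1 a2
        rwa [abs_of_nonneg a2]
      have g1 : |I (C.Γ (u t) h * rh ε φ u t)| ≤ B * ∫ z, |C.Γ (u t) h z| ∂m := by
        refine (abs_integral_le_integral_abs).trans ?_
        rw [← integral_const_mul]
        refine integral_mono_ae (int_of_mem (mem_top_mul mG hrt)).abs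
          ((int_of_mem mG).abs.const_mul _) ?_
        filter_upwards [mul_ae (C.Γ (u t) h) (rh ε φ u t), hρ t ht, nonneg_iff_ae.1 h0]
          with z a1 a2 a3
        rw [a1, abs_mul, abs_of_nonneg a3, mul_comm]
        exact mul_le_mul_of_nonneg_right a2 (abs_nonneg _)
      have g2 : ∫ z, |C.Γ (u t) h z| ∂m ≤ √(I (C.Γ (u t) (u t))) * √(I (C.Γ h h)) := by
        have i1 := hC.mem1 _ uW
        have i2 := hC.mem1 _ hA.1
        have j1 : MemLp (fun z => √(C.Γ (u t) (u t) z)) 2 m := by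
          rw [memLp_two_iff_integrable_sq (by
            exact (Real.continuous_sqrt.comp_aestronglyMeasurable (C.Γ (u t) (u t)).aestronglyMeasurable))]
          refine (int_of_mem i1).congr ?_
          filter_upwards [hC.Γ_nonneg_ae uW] with z hz
          rw [Real.sq_sqrt hz]
        have j2 : MemLp (fun z => √(C.Γ h h z)) 2 m := by
          rw [memLp_two_iff_integrable_sq (by
            exact (Real.continuous_sqrt.comp_aestronglyMeasurable (C.Γ h h).aestronglyMeasurable))]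
          refine (int_of_mem i2).congr ?_
          filter_upwards [hC.Γ_nonneg_ae hA.1] with z hz
          rw [Real.sq_sqrt hz]
        have j3 := integral_mul_le_Lp_mul_Lq_of_nonneg (μ := m) (p := 2) (q := 2)
          Real.HolderConjugate.two_two
          (f := fun z => √(C.Γ (u t) (u t) z)) (g := fun z => √(C.Γ h h z))
          (Eventually.of_forall fun z => Real.sqrt_nonneg _)
          (Eventually.of_forall fun z => Real.sqrt_nonneg _) (by simpa using j1) (by simpa using j2)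
        have s1 : ∫ z, √(C.Γ (u t) (u t) z) ^ (2 : ℝ) ∂m = I (C.Γ (u t) (u t)) := by
          refine integral_congr_ae ?_
          filter_upwards [hC.Γ_nonneg_ae uW] with z hz
          rw [Real.rpow_two, Real.sq_sqrt hz]
        have s2 : ∫ z, √(C.Γ h h z) ^ (2 : ℝ) ∂m = I (C.Γ h h) := by
          refine integral_congr_ae ?_
          filter_upwards [hC.Γ_nonneg_ae hA.1] with z hz
          rw [Real.rpow_two, Real.sq_sqrt hz]
        rw [s1, s2, ← Real.sqrt_eq_rpow, ← Real.sqrt_eq_rpow] at j3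
        refine le_trans ?_ j3
        refine integral_mono_ae (int_of_mem mG).abs (j1.integrable_mul j2) ?_
        filter_upwards [hC.Γ_cs_ae uW hA.1, hC.Γ_nonneg_ae uW, hC.Γ_nonneg_ae hA.1] with z a1 a2 a3
        show |C.Γ (u t) h z| ≤ √(C.Γ (u t) (u t) z) * √(C.Γ h h z)
        rw [← Real.sqrt_mul a2]
        exact Real.abs_le_sqrt a1
      refine g1.trans (mul_le_mul_of_nonneg_left (g2.trans ?_) hB0)
      refine mul_le_mul_of_nonneg_right ?_ (Real.sqrt_nonneg _)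
      rw [Real.sqrt_le_left hEn]
      exact hE t ht
    have b2 : |ε / 2 * I (C.lap h * (rh ε φ u t - 1))| ≤ ε / 2 * (S * √(I (C.lap h ^ 2))) := by
      rw [abs_mul, abs_of_pos (by positivity : 0 < ε / 2)]
      exact mul_le_mul_of_nonneg_left (TT.abs_I_le' lh.2.1 (ρ2 t ht) hS (h2 t ht)) (by positivity)
    rw [Real.norm_eq_abs]
    exact (abs_sub _ _).trans (add_le_add b1 b2)

end level

end Vale.Agent.P233.H719
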