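import Vale.Agent.P233.H719.TU2

/-! P233, part C: strong convergence of the gradients, uniform in time. -/

set_option linter.all false

open MeasureTheory Filter Topology Set
open scoped ENNReal NNReal InnerProductSpace

universe u

namespace Vale.Agent.P233.H719

open Vale.Agent.P233.PA (en OutA PotLim)
open Vale.Agent.P233.PC

section gen

variable {M : Type u} [MeasurableSpace M] {m : Measure M} {C : Calc m}

/-- the weighted energy of a difference -/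
theorem I_w_sub_le (hC : IsGamma C) {A f g : M →ₘ[m] ℝ} (hA0 : 0 ≤ A) (hA : MemLp A 1 m)
    (hf : f ∈ C.W) (hg : g ∈ C.W) (hft : MemLp (C.Γ f f) ∞ m) (hgt : MemLp (C.Γ g g) ∞ m) :
    I (A * C.Γ (f - g) (f - g)) ≤ 2 * I (A * C.Γ f f) + 2 * I (A * C.Γ g g) := by
  have m1 : MemLp (A * C.Γ f f : M →ₘ[m] ℝ) 1 m := mem_top_mul hA hft
  have m2 : MemLp (A * C.Γ g g : M →ₘ[m] ℝ) 1 m := mem_top_mul hA hgt
  have key : ∀ᵐ x ∂m, (A * C.Γ (f - g) (f - g) : M →ₘ[m] ℝ) x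
      ≤ ((2 : ℝ) • (A * C.Γ f f) + (2 : ℝ) • (A * C.Γ g g) : M →ₘ[m] ℝ) x ∧
      0 ≤ (A * C.Γ (f - g) (f - g) : M →ₘ[m] ℝ) x := by
    filter_upwards [mul_ae A (C.Γ (f - g) (f - g)),
      add_ae ((2 : ℝ) • (A * C.Γ f f)) ((2 : ℝ) • (A * C.Γ g g)), smul_ae (A * C.Γ f f) 2,
      smul_ae (A * C.Γ g g) 2, mul_ae A (C.Γ f f), mul_ae A (C.Γ g g), nonneg_iff_ae.1 hA0,
      hC.toIsDir.Γ_sub_le hf hg, hC.Γ_nonneg_ae (hC.sub_mem hf hg)]
      with x a1 a2 a3 a4 a5 a6 a7 a8 a9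
    rw [a1, a2, a3, a4, a5, a6]
    refine ⟨?_, mul_nonneg a7 a9⟩
    nlinarith [mul_le_mul_of_nonneg_left a8 a7]
  rw [← I_smul, ← I_smul, ← I_add (mem_smul _ m1) (mem_smul _ m2)]
  have m3 : MemLp ((2 : ℝ) • (A * C.Γ f f) + (2 : ℝ) • (A * C.Γ g g) : M →ₘ[m] ℝ) 1 m :=
    mem_add (mem_smul _ m1) (mem_smul _ m2)
  refine I_mono (mem_of_le m3 ?_) m3 (le_iff_ae.2 (key.mono fun x h => h.1))
  filter_upwards [key] with x hx
  rw [abs_of_nonneg hx.2]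
  exact hx.1.trans (le_abs_self _)

/-- From the product filter to uniformity on a compact interval. -/
theorem unif_of_prod {s T : ℝ} {F : ℕ → ℝ → ℝ}
    (h : ∀ t ∈ Icc s T, Tendsto (fun q : ℕ × ℝ => F q.1 q.2) (atTop ×ˢ 𝓝[Icc s T] t) (𝓝 0))
    {δ : ℝ} (hδ : 0 < δ) : ∀ᶠ n in atTop, ∀ t ∈ Icc s T, F n t ≤ δ := by
  refine isCompact_Icc.induction_on (p := fun S => ∀ᶠ n in atTop, ∀ t ∈ S, t ∈ Icc s T →
    F n t ≤ δ) ?_ ?_ ?_ ?_ |>.mono fun n hn t ht => hn t ht ht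
  · exact Eventually.of_forall fun n t ht => absurd ht (notMem_empty t)
  · intro S T hST hT
    filter_upwards [hT] with n hn t ht using hn t (hST ht)
  · intro S T hS hT
    filter_upwards [hS, hT] with n h1 h2 t ht htI
    rcases ht with ht | ht
    · exact h1 t ht htI
    · exact h2 t ht htI
  · intro t ht
    have h1 := (tendsto_order.1 (h t ht)).2 δ hδ
    obtain ⟨pa, hpa, pb, hpb, hab⟩ := eventually_prod_iff.1 h1
    refine ⟨{τ | pb τ}, hpb, ?_⟩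
    filter_upwards [hpa] with n hn τ hτ _
    exact (hab hn hτ).le

end gen

section metric

variable {M : Type u} [MetricSpace M]

/-- the radial potential is Lipschitz in time -/
theorem zr_time {p : M} {s₀ C₀ : ℝ} (hs₀ : 0 < s₀) (hC₀ : 0 ≤ C₀) {t τ : ℝ} (ht : 0 ≤ t)
    (hτ : 0 ≤ τ) (x : M) : |zr p s₀ C₀ t x - zr p s₀ C₀ τ x| ≤ C₀ / s₀ * |t - τ| := by
  wlog h : t ≤ τ generalizing t τ
  · rw [abs_sub_comm, abs_sub_comm t]
    exact this hτ ht (not_le.1 h).le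
  unfold zr
  set a : ℝ := dist p x ^ 2 with ha
  have ha0 : 0 ≤ a := sq_nonneg _
  have h1 : 0 < 2 * (t + s₀) := by linarith
  have h2 : 0 < 2 * (τ + s₀) := by linarith
  have h3 : a / (2 * (τ + s₀)) ≤ a / (2 * (t + s₀)) :=
    div_le_div_of_nonneg_left ha0 h1 (by linarith)
  have hmono : min (a / (2 * (τ + s₀)) - C₀) 0 ≤ min (a / (2 * (t + s₀)) - C₀) 0 :=
    min_le_min (by linarith) le_rfl
  have hr : 0 ≤ C₀ / s₀ * |t - τ| := mul_nonneg (div_nonneg hC₀ hs₀.le) (abs_nonneg _)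
  rw [abs_of_nonneg (sub_nonneg.2 hmono)]
  rcases le_or_gt 0 (a / (2 * (τ + s₀)) - C₀) with h4 | h4
  · rw [min_eq_right h4, min_eq_right (h4.trans (by linarith))]
    simpa using hr
  · rw [min_eq_left h4.le]
    have h5 : a < C₀ * (2 * (τ + s₀)) := by
      rw [← div_lt_iff₀ h2]; linarith
    have h6 : a / (2 * (t + s₀)) - a / (2 * (τ + s₀)) ≤ C₀ / s₀ * |t - τ| := by
      rw [abs_sub_comm, abs_of_nonneg (sub_nonneg.2 h)]
      have e : a / (2 * (t + s₀)) - a / (2 * (τ + s₀))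
          = a / (2 * (τ + s₀)) * ((τ - t) / (t + s₀)) := by
        field_simp
        ring
      rw [e]
      have h7 : a / (2 * (τ + s₀)) ≤ C₀ := by linarith
      have h8 : (τ - t) / (t + s₀) ≤ (τ - t) / s₀ :=
        div_le_div_of_nonneg_left (sub_nonneg.2 h) hs₀ (by linarith)
      have h9 : 0 ≤ (τ - t) / (t + s₀) := div_nonneg (sub_nonneg.2 h) (by linarith)
      calc a / (2 * (τ + s₀)) * ((τ - t) / (t + s₀)) ≤ C₀ * ((τ - t) / s₀) :=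
            mul_le_mul h7 h8 h9 hC₀
        _ = C₀ / s₀ * (τ - t) := by ring
    have h10 := min_le_left (a / (2 * (t + s₀)) - C₀) 0
    linarith

variable [SecondCountableTopology M] [MeasurableSpace M]
  [BorelSpace M] {m : Measure M} {K N : ℝ} {P : ℝ → (M →ₘ[m] ℝ) → (M →ₘ[m] ℝ)} {p : M} {s₀ C₀ : ℝ}
variable {u : ℕ → ℝ → M →ₘ[m] ℝ} {φ : (M →ₘ[m] ℝ) → ℕ → ℝ → M →ₘ[m] ℝ} {l : M →ₘ[m] ℝ}

theorem zr_meas (p : M) (s₀ C₀ t : ℝ) : AEStronglyMeasurable (zr p s₀ C₀ t) m := by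
  refine Continuous.aestronglyMeasurable ?_
  unfold zr
  fun_prop

theorem zc_ae (p : M) (s₀ C₀ t : ℝ) : ⇑(zc m p s₀ C₀ t) =ᵐ[m] zr p s₀ C₀ t := by
  unfold zc cl
  rw [dif_pos (zr_meas p s₀ C₀ t)]
  exact AEEqFun.coeFn_mk _ _

/-- one bound for everything -/
theorem z_bd (hyp : CHyp M m K N P p s₀ C₀) (hA : OutA m K N P p s₀ C₀ u φ) :
    ∃ L : ℝ, 0 ≤ L ∧ (∀ᶠ n in atTop, ∀ t ∈ Icc (0 : ℝ) 1, ∀ᵐ x ∂m,
      (sob m).Γ (u n t) (u n t) x ≤ L ^ 2) ∧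
      ∀ t ∈ Icc (0 : ℝ) 1, ∀ᵐ x ∂m, (sob m).Γ (zc m p s₀ C₀ t) (zc m p s₀ C₀ t) x ≤ L ^ 2 := by
  obtain ⟨D, D', hD⟩ := hA.levU
  have hs := hyp.hs
  refine ⟨|D| + √(2 * C₀ / s₀), by positivity, ?_, ?_⟩
  · filter_upwards [hD] with n hn t ht
    filter_upwards [hn.lip t ht] with x hx
    refine hx.trans ?_
    rw [← sq_abs D]
    exact pow_le_pow_left₀ (abs_nonneg _) (by have := Real.sqrt_nonneg (2 * C₀ / s₀); linarith) 2
  · intro t ht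
    filter_upwards [hA.ulim.hj t ht] with x hx
    have hC0 := hyp.hC0.le
    have h0 : 0 ≤ 2 * C₀ / s₀ := by positivity
    have h1 : 2 * C₀ / s₀ ≤ (|D| + √(2 * C₀ / s₀)) ^ 2 := by
      conv_lhs => rw [← Real.sq_sqrt h0]
      exact pow_le_pow_left₀ (Real.sqrt_nonneg _) (by have := abs_nonneg D; linarith) 2
    refine le_trans ?_ h1
    rcases lt_or_ge (zr p s₀ C₀ t x) 0 with h2 | h2
    · have h3 := hx.1 h2
      have h3' : (sob m).Γ (zc m p s₀ C₀ t) (zc m p s₀ C₀ t) x = (dist p x / (t + s₀)) ^ 2 := h3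
      rw [h3']
      have hts : 0 < t + s₀ := by linarith [ht.1]
      have h4 : dist p x ^ 2 / (2 * (t + s₀)) - C₀ < 0 := by
        by_contra hc
        have : zr p s₀ C₀ t x = 0 := min_eq_right (not_lt.1 hc)
        linarith
      have h5 : dist p x ^ 2 < C₀ * (2 * (t + s₀)) := by
        rw [← div_lt_iff₀ (by linarith)]; linarith
      rw [div_pow, div_le_div_iff₀ (by positivity) hs]
      have h6 : s₀ ≤ t + s₀ := by linarith [ht.1]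
      nlinarith [mul_nonneg hC0 hts.le]
    · have h3 := hx.2 (le_antisymm (min_le_right _ _) h2)
      have h3' : (sob m).Γ (zc m p s₀ C₀ t) (zc m p s₀ C₀ t) x = 0 := h3
      rw [h3']; exact h0

/-- the constant of the one-sided Laplacian bounds on `[s,1]` -/
theorem lap_const (hyp : CHyp M m K N P p s₀ C₀) {s t : ℝ} (hs : 0 < s) (ht : s ≤ t) {ε : ℝ}
    (hε : ε ≤ 1) : N / t + PA.c1 K ε C₀ ≤ N / s + (1 + |K|) * |K| * C₀ := by
  have hN := hyp.std.hN.le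
  have hC0 := hyp.hC0.le
  have h1 : N / t ≤ N / s := div_le_div_of_nonneg_left hN hs ht
  have h2 : PA.c1 K ε C₀ ≤ (1 + |K|) * |K| * C₀ := by
    unfold PA.c1
    have hK := abs_nonneg K
    have : ε * |K| ≤ |K| := by nlinarith
    gcongr
  linarith

theorem zc_W (hA : OutA m K N P p s₀ C₀ u φ) {t : ℝ} (ht : t ∈ Icc (0 : ℝ) 1) :
    zc m p s₀ C₀ t ∈ (sob m).W := (hA.ulim.mem t ht).1.1

/-- `z_τ → z_t` for `τ → t`: weighted `L²` convergence -/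
theorem z_L2w (hyp : CHyp M m K N P p s₀ C₀) {ι : Type*} {F : Filter ι} {τ : ι → ℝ} {t : ℝ}
    (ht : 0 ≤ t) (hτ : ∀ᶠ i in F, 0 ≤ τ i) (hlim : Tendsto τ F (𝓝 t)) {w : M →ₘ[m] ℝ}
    (hw0 : 0 ≤ w) (hw : MemLp w 1 m) :
    Tendsto (fun i => I (w * (zc m p s₀ C₀ (τ i) - zc m p s₀ C₀ t) ^ 2)) F (𝓝 0) := by
  have h1 : Tendsto (fun i => (C₀ / s₀ * |τ i - t|) ^ 2 * I w) F (𝓝 0) := by
    have h2 : Tendsto (fun i => τ i - t) F (𝓝 0) := by simpa using hlim.sub_const t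
    have h3 := ((h2.abs.const_mul (C₀ / s₀)).pow 2).mul_const (I w)
    simpa using h3
  refine squeeze_zero' ?_ ?_ h1
  · filter_upwards with i
    exact I_nonneg (mul_nonneg hw0 (sq_nonneg' _))
  · filter_upwards [hτ] with i hi
    rw [← I_smul]
    have hb : ∀ᵐ x ∂m, |(zc m p s₀ C₀ (τ i) - zc m p s₀ C₀ t : M →ₘ[m] ℝ) x|
        ≤ C₀ / s₀ * |τ i - t| := by
      filter_upwards [sub_ae (zc m p s₀ C₀ (τ i)) (zc m p s₀ C₀ t), zc_ae (m := m) p s₀ C₀ (τ i),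
        zc_ae (m := m) p s₀ C₀ t] with x a1 a2 a3
      rw [a1, a2, a3]
      exact zr_time hyp.hs hyp.hC0.le hi ht x
    have ht' : MemLp ((zc m p s₀ C₀ (τ i) - zc m p s₀ C₀ t) ^ 2 : M →ₘ[m] ℝ) ∞ m := by
      rw [sq]
      exact mem_mul_top (mem_top_iff.2 ⟨_, hb⟩) (mem_top_iff.2 ⟨_, hb⟩)
    refine I_mono (mem_top_mul hw ht') (mem_smul _ hw) (le_iff_ae.2 ?_)
    filter_upwards [mul_ae w ((zc m p s₀ C₀ (τ i) - zc m p s₀ C₀ t) ^ 2),
      sq_ae (zc m p s₀ C₀ (τ i) - zc m p s₀ C₀ t), smul_ae w ((C₀ / s₀ * |τ i - t|) ^ 2), hb,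
      nonneg_iff_ae.1 hw0] with x a1 a2 a3 a4 a5
    rw [a1, a2, a3, mul_comm]
    exact mul_le_mul_of_nonneg_right (sq_le_sq' (abs_le.1 a4).1 (abs_le.1 a4).2) a5

/-- `∇z_τ → ∇z_t` for `τ → t` -/
theorem z_gradw (hyp : CHyp M m K N P p s₀ C₀) (hA : OutA m K N P p s₀ C₀ u φ) {s t : ℝ}
    (hs : 0 < s) (ht : t ∈ Icc s 1) {A : M →ₘ[m] ℝ} (hA0 : 0 ≤ A) (hA1 : MemLp A 1 m) :
    Tendsto (fun τ => I (A * (sob m).Γ (zc m p s₀ C₀ τ - zc m p s₀ C₀ t)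
      (zc m p s₀ C₀ τ - zc m p s₀ C₀ t))) (𝓝[Icc s 1] t) (𝓝 0) := by
  have hC := std_gamma hyp.std
  obtain ⟨L, hL0, -, hz⟩ := z_bd hyp hA
  have ht0 : t ∈ Icc (0 : ℝ) 1 := ⟨hs.le.trans ht.1, ht.2⟩
  refine H715.grad_w hC (L := L) (Lam := N / s + (1 + |K|) * |K| * C₀) (zc_W hA ht0)
    (hz t ht0) ?_ ?_ hA0 hA1
  · filter_upwards [self_mem_nhdsWithin] with τ hτ
    have hτ0 : τ ∈ Icc (0 : ℝ) 1 := ⟨hs.le.trans hτ.1, hτ.2⟩
    refine ⟨zc_W hA hτ0, hz τ hτ0, fun g hg g0 g1 => ?_⟩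
    refine (hA.ulim.lap τ ⟨hs.trans_le hτ.1, hτ.2⟩ g hg.1 g0 g1).trans ?_
    exact mul_le_mul_of_nonneg_right (lap_const hyp hs hτ.1 zero_le_one) (I_nonneg g0)
  · intro w hw0 hw
    refine z_L2w hyp ht0.1 ?_ (tendsto_id'.2 nhdsWithin_le_nhds) hw0 hw
    filter_upwards [self_mem_nhdsWithin] with τ hτ using hs.le.trans hτ.1

/-- **(TU6), potentials**: `∇u_n(t) → ∇z_t`, uniformly on `[s,1]`, with weights in `L¹`. -/
theorem tu6_u (hyp : CHyp M m K N P p s₀ C₀) (hA : OutA m K N P p s₀ C₀ u φ) {s : ℝ}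
    (hs : 0 < s) {A : M →ₘ[m] ℝ} (hA0 : 0 ≤ A) (hA1 : MemLp A 1 m) {δ : ℝ} (hδ : 0 < δ) :
    ∀ᶠ n in atTop, ∀ t ∈ Icc s 1, I (A * (sob m).Γ (u n t - zc m p s₀ C₀ t)
      (u n t - zc m p s₀ C₀ t)) ≤ δ := by
  have hC := std_gamma hyp.std
  obtain ⟨L, hL0, hu, hz⟩ := z_bd hyp hA
  obtain ⟨D, D', hD⟩ := hA.levU
  have h0I := testI_zero hyp.std
  have hpair := pair_of hA h0I
  refine unif_of_prod (fun t ht => ?_) hδ
  have ht0 : t ∈ Icc (0 : ℝ) 1 := ⟨hs.le.trans ht.1, ht.2⟩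
  have ht1 : t ∈ Ioc (0 : ℝ) 1 := ⟨hs.trans_le ht.1, ht.2⟩
  set F : Filter (ℕ × ℝ) := atTop ×ˢ 𝓝[Icc s 1] t with hF
  have f1 : Tendsto Prod.fst F atTop := tendsto_fst
  have f2 : Tendsto Prod.snd F (𝓝[Icc s 1] t) := tendsto_snd
  have e2 : ∀ᶠ q in F, q.2 ∈ Icc s 1 := f2.eventually self_mem_nhdsWithin
  have zt := (hA.ulim.mem t ht0)
  obtain ⟨Bz, hBz⟩ := mem_top_iff.1 zt.1.2
  -- weighted `L²` convergence
  have w1 : ∀ w : M →ₘ[m] ℝ, 0 ≤ w → MemLp w 1 m →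
      Tendsto (fun q : ℕ × ℝ => I (w * (u q.1 q.2 - zc m p s₀ C₀ t) ^ 2)) F (𝓝 0) := by
    intro w hw0 hw
    -- at time `t`
    have k1 : Tendsto (fun n => I (w * (u n t - zc m p s₀ C₀ t) ^ 2)) atTop (𝓝 0) := by
      refine H715.tendsto_weight_sq (L := C₀ + Bz) hC ?_ (hA.ulim.conv t ht0) hw0 hw
      filter_upwards [hpair, hD] with n h1 h2
      refine ⟨mem_sub (hC.memLp _ (hC.test_A (h1.u_mem t ht0).1).1) (hC.memLp _ zt.1.1), ?_⟩
      filter_upwards [h2.lo t ht0, h2.hi t ht0, hBz, sub_ae (u n t) (cl m (zr p s₀ C₀ t))]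
        with x a1 a2 a3 a4
      rw [a4]
      have b1 := abs_le.1 a3
      exact abs_le.2 ⟨by linarith, by linarith⟩
    have k2 : Tendsto (fun q : ℕ × ℝ => (D * |t - q.2|) ^ 2 * I w) F (𝓝 0) := by
      have h2 : Tendsto (fun q : ℕ × ℝ => t - q.2) F (𝓝 0) := by
        have : Tendsto (fun q : ℕ × ℝ => q.2) F (𝓝 t) := f2.mono_right nhdsWithin_le_nhds
        simpa using this.const_sub t
      have h3 := ((h2.abs.const_mul D).pow 2).mul_const (I w)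
      simpa using h3
    have k3 := ((k1.comp f1).const_mul 2).add (k2.const_mul 2)
    simp only [mul_zero, add_zero] at k3
    refine squeeze_zero' ?_ ?_ k3
    · filter_upwards with q
      exact I_nonneg (mul_nonneg hw0 (sq_nonneg' _))
    · filter_upwards [f1.eventually hpair, f1.eventually hD, e2] with q h1 h2 h3
      have hq0 : q.2 ∈ Icc (0 : ℝ) 1 := ⟨hs.le.trans h3.1, h3.2⟩
      simp only [Function.comp_apply]
      have c1 : ∀ᵐ x ∂m, |(u q.1 t - zc m p s₀ C₀ t : M →ₘ[m] ℝ) x| ≤ C₀ + Bz := by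
        filter_upwards [h2.lo t ht0, h2.hi t ht0, hBz, sub_ae (u q.1 t) (cl m (zr p s₀ C₀ t))]
          with x a1 a2 a3 a4
        show |(u q.1 t - cl m (zr p s₀ C₀ t) : M →ₘ[m] ℝ) x| ≤ C₀ + Bz
        rw [a4]
        have b1 := abs_le.1 a3
        exact abs_le.2 ⟨by linarith, by linarith⟩
      have c2 : ∀ᵐ x ∂m, |(u q.1 q.2 - u q.1 t : M →ₘ[m] ℝ) x| ≤ D * |t - q.2| := by
        filter_upwards [h2.time q.2 hq0 t ht0, sub_ae (u q.1 q.2) (u q.1 t)] with x a1 a2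
        rw [a2, abs_sub_comm]; exact a1
      have sqt : ∀ {g : M →ₘ[m] ℝ} {B : ℝ}, (∀ᵐ x ∂m, |g x| ≤ B) →
          MemLp (w * g ^ 2 : M →ₘ[m] ℝ) 1 m := by
        intro g B hg
        refine mem_top_mul hw ?_
        rw [sq]; exact mem_mul_top (mem_top_iff.2 ⟨B, hg⟩) (mem_top_iff.2 ⟨B, hg⟩)
      have d1 := sqt c1
      have d2 := sqt c2
      have e4 : I (w * (u q.1 q.2 - u q.1 t) ^ 2) ≤ (D * |t - q.2|) ^ 2 * I w := by
        rw [← I_smul]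
        refine I_mono d2 (mem_smul _ hw) (le_iff_ae.2 ?_)
        filter_upwards [mul_ae w ((u q.1 q.2 - u q.1 t) ^ 2), sq_ae (u q.1 q.2 - u q.1 t),
          smul_ae w ((D * |t - q.2|) ^ 2), c2, nonneg_iff_ae.1 hw0] with x a1 a2 a3 a4 a5
        rw [a1, a2, a3, mul_comm]
        exact mul_le_mul_of_nonneg_right (sq_le_sq' (abs_le.1 a4).1 (abs_le.1 a4).2) a5
      have e5 : I (w * (u q.1 q.2 - zc m p s₀ C₀ t) ^ 2)
          ≤ 2 * I (w * (u q.1 t - zc m p s₀ C₀ t) ^ 2) + 2 * I (w * (u q.1 q.2 - u q.1 t) ^ 2) := by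
        rw [← I_smul, ← I_smul, ← I_add (mem_smul _ d1) (mem_smul _ d2)]
        have c3 : ∀ᵐ x ∂m, |(u q.1 q.2 - zc m p s₀ C₀ t : M →ₘ[m] ℝ) x|
            ≤ (C₀ + Bz) + D * |t - q.2| := by
          filter_upwards [c1, c2, sub_ae (u q.1 q.2) (zc m p s₀ C₀ t),
            sub_ae (u q.1 t) (zc m p s₀ C₀ t), sub_ae (u q.1 q.2) (u q.1 t)] with x a1 a2 a3 a4 a5
          rw [a4] at a1
          rw [a5] at a2
          rw [a3]
          have : u q.1 q.2 x - zc m p s₀ C₀ t x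
            = (u q.1 t x - zc m p s₀ C₀ t x) + (u q.1 q.2 x - u q.1 t x) := by ring
          rw [this]
          exact (abs_add_le _ _).trans (add_le_add a1 a2)
        refine I_mono (sqt c3) (mem_add (mem_smul _ d1) (mem_smul _ d2)) (le_iff_ae.2 ?_)
        filter_upwards [mul_ae w ((u q.1 q.2 - zc m p s₀ C₀ t) ^ 2),
          sq_ae (u q.1 q.2 - zc m p s₀ C₀ t), sub_ae (u q.1 q.2) (zc m p s₀ C₀ t),
          add_ae ((2 : ℝ) • (w * (u q.1 t - zc m p s₀ C₀ t) ^ 2))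
            ((2 : ℝ) • (w * (u q.1 q.2 - u q.1 t) ^ 2)),
          smul_ae (w * (u q.1 t - zc m p s₀ C₀ t) ^ 2) 2,
          smul_ae (w * (u q.1 q.2 - u q.1 t) ^ 2) 2,
          mul_ae w ((u q.1 t - zc m p s₀ C₀ t) ^ 2), mul_ae w ((u q.1 q.2 - u q.1 t) ^ 2),
          sq_ae (u q.1 t - zc m p s₀ C₀ t), sq_ae (u q.1 q.2 - u q.1 t),
          sub_ae (u q.1 t) (zc m p s₀ C₀ t), sub_ae (u q.1 q.2) (u q.1 t), nonneg_iff_ae.1 hw0]
          with x a1 a2 a3 a4 a5 a6 a7 a8 a9 a10 a11 a12 a13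
        rw [a1, a2, a3, a4, a5, a6, a7, a8, a9, a10, a11, a12]
        have : (u q.1 q.2 x - zc m p s₀ C₀ t x) ^ 2
            ≤ 2 * (u q.1 t x - zc m p s₀ C₀ t x) ^ 2 + 2 * (u q.1 q.2 x - u q.1 t x) ^ 2 := by
          nlinarith [sq_nonneg ((u q.1 t x - zc m p s₀ C₀ t x) - (u q.1 q.2 x - u q.1 t x))]
        nlinarith [mul_le_mul_of_nonneg_left this a13]
      linarith
  -- gradients
  have g1 : Tendsto (fun q : ℕ × ℝ => I (A * (sob m).Γ (u q.1 q.2 - zc m p s₀ C₀ t)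
      (u q.1 q.2 - zc m p s₀ C₀ t))) F (𝓝 0) := by
    refine H715.grad_w hC (L := L) (Lam := N / s + (1 + |K|) * |K| * C₀) (zc_W hA ht0)
      (hz t ht0) ?_ w1 hA0 hA1
    filter_upwards [f1.eventually hpair, f1.eventually hD, f1.eventually hu, e2] with q h1 h2 h3 h4
    have hq0 : q.2 ∈ Icc (0 : ℝ) 1 := ⟨hs.le.trans h4.1, h4.2⟩
    refine ⟨(hC.test_A (h1.u_mem _ hq0).1).1, h3 _ hq0, fun g hg g0 g1 => ?_⟩
    refine H715.weak_le hC (h1.u_mem _ hq0).1 ?_ hg.1 g0 g1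
    filter_upwards [h2.lap q.2 ⟨hs.trans_le h4.1, h4.2⟩] with x hx
    exact hx.trans (lap_const hyp hs h4.1 (en_le_one _))
  have g2 := (z_gradw hyp hA hs ht hA0 hA1).comp f2
  have g3 := (g1.const_mul 2).add (g2.const_mul 2)
  simp only [mul_zero, add_zero] at g3
  refine squeeze_zero' ?_ ?_ g3
  · filter_upwards [f1.eventually hpair, e2] with q h1 h4
    have hq0 : q.2 ∈ Icc (0 : ℝ) 1 := ⟨hs.le.trans h4.1, h4.2⟩
    exact I_nonneg (mul_nonneg hA0 (hC.nonneg _ (hC.sub_mem (hC.test_A (h1.u_mem _ hq0).1).1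
      (zc_W hA hq0))))
  · filter_upwards [f1.eventually hpair, f1.eventually hu, e2] with q h1 h3 h4
    have hq0 : q.2 ∈ Icc (0 : ℝ) 1 := ⟨hs.le.trans h4.1, h4.2⟩
    have uW := (hC.test_A (h1.u_mem _ hq0).1).1
    have zW := zc_W hA hq0
    have zW' := zc_W hA ht0
    have top : ∀ {f g : M →ₘ[m] ℝ}, f ∈ (sob m).W → g ∈ (sob m).W →
        (∀ᵐ x ∂m, (sob m).Γ f f x ≤ L ^ 2) → (∀ᵐ x ∂m, (sob m).Γ g g x ≤ L ^ 2) →
        MemLp ((sob m).Γ (f - g) (f - g)) ∞ m := by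
      intro f g hf hg h5 h6
      rw [mem_top_iff]
      refine ⟨4 * L ^ 2, ?_⟩
      filter_upwards [hC.toIsDir.Γ_sub_le hf hg, hC.Γ_nonneg_ae (hC.sub_mem hf hg), h5, h6]
        with x a1 a2 a3 a4
      rw [abs_of_nonneg a2]; linarith
    have key := I_w_sub_le hC hA0 hA1 (hC.sub_mem uW zW') (hC.sub_mem zW zW')
      (top uW zW' (h3 _ hq0) (hz t ht0)) (top zW zW' (hz _ hq0) (hz t ht0))
    have e : u q.1 q.2 - zc m p s₀ C₀ t - (zc m p s₀ C₀ q.2 - zc m p s₀ C₀ t)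
        = u q.1 q.2 - zc m p s₀ C₀ q.2 := by abel
    rw [e] at key
    exact key

end metric

end Vale.Agent.P233.H719
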