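import Vale.Agent.P233.H719.TU4
import Vale.Agent.P233.H183.MapsAux
import Vale.Agent.P233.H362.HopC

/-! P233, part C: `√F ∇(θ_n - z)` is small in `L¹(ρ_n)`, uniformly in time, for `F ∈ L¹`. -/

set_option linter.all false

open MeasureTheory Filter Topology Set
open scoped ENNReal NNReal InnerProductSpace

universe u

namespace Vale.Agent.P233.H719

open Vale.Agent.P233.PA (en OutA PotLim)
open Vale.Agent.P233.PC

section gen

variable {M : Type u} [MeasurableSpace M] {m : Measure M} {C : Calc m}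

/-- an integrable weight `A ≤ 1` outside of which `F` is small -/
theorem exists_weight {F : M →ₘ[m] ℝ} (hF0 : 0 ≤ F) (hF : MemLp F 1 m) {δ : ℝ} (hδ : 0 < δ) :
    ∃ A : M →ₘ[m] ℝ, 0 ≤ A ∧ MemLp A 1 m ∧ (∀ᵐ x ∂m, A x ≤ 1) ∧
      MemLp (F * (1 - A) : M →ₘ[m] ℝ) 1 m ∧ I (F * (1 - A)) ≤ δ := by
  have hFi := int_of_mem hF
  have f0 := nonneg_iff_ae.1 hF0
  have hmm : ∀ k : ℕ, AEStronglyMeasurable (fun x => min ((k : ℝ) * F x) 1) m := fun k =>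
    (hFi.aestronglyMeasurable.const_mul (k : ℝ)).inf aestronglyMeasurable_const
  have hb : ∀ k : ℕ, ∀ᵐ x ∂m, 0 ≤ min ((k : ℝ) * F x) 1 ∧ min ((k : ℝ) * F x) 1 ≤ 1 := by
    intro k
    filter_upwards [f0] with x hx
    exact ⟨le_min (mul_nonneg (Nat.cast_nonneg k) hx) zero_le_one, min_le_right _ _⟩
  have hlim : Tendsto (fun k : ℕ => ∫ x, F x * (1 - min ((k : ℝ) * F x) 1) ∂m) atTop (𝓝 0) := by
    have h1 : Tendsto (fun k : ℕ => ∫ x, F x * (1 - min ((k : ℝ) * F x) 1) ∂m) atTop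
        (𝓝 (∫ x, (0 : ℝ) ∂m)) := by
      refine tendsto_integral_of_dominated_convergence (fun x => F x) ?_ hFi ?_ ?_
      · intro k
        exact hFi.aestronglyMeasurable.mul (aestronglyMeasurable_const.sub (hmm k))
      · intro k
        filter_upwards [f0, hb k] with x hx h2
        rw [Real.norm_eq_abs, abs_mul, abs_of_nonneg hx,
          abs_of_nonneg (by linarith [h2.2] : 0 ≤ 1 - min ((k : ℝ) * F x) 1)]
        nlinarith [h2.1]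
      · filter_upwards [f0] with x hx
        rcases hx.eq_or_lt with h0 | h0
        · simp only [← h0, zero_mul]; exact tendsto_const_nhds
        · obtain ⟨k0, hk0⟩ := exists_nat_ge ((F x)⁻¹)
          refine tendsto_const_nhds.congr' ?_
          filter_upwards [eventually_ge_atTop k0] with k hk
          have h3 : (k0 : ℝ) ≤ k := by exact_mod_cast hk
          have h4 : 1 ≤ (k : ℝ) * F x := by
            have h5 : (F x)⁻¹ * F x = 1 := inv_mul_cancel₀ h0.ne'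
            calc (1 : ℝ) = (F x)⁻¹ * F x := h5.symm
              _ ≤ k * F x := mul_le_mul_of_nonneg_right (hk0.trans h3) hx
          rw [min_eq_right h4]; ring
    simpa using h1
  obtain ⟨k, hk⟩ := ((tendsto_order.1 hlim).2 δ hδ).exists
  have hae : ⇑(AEEqFun.mk _ (hmm k)) =ᵐ[m] fun x => min ((k : ℝ) * F x) 1 := AEEqFun.coeFn_mk _ _
  have hae2 : ∀ᵐ x ∂m, (F * (1 - AEEqFun.mk _ (hmm k)) : M →ₘ[m] ℝ) x
      = F x * (1 - min ((k : ℝ) * F x) 1) := by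
    filter_upwards [hae, mul_ae F (1 - AEEqFun.mk _ (hmm k)), sub_ae 1 (AEEqFun.mk _ (hmm k)),
      one_ae (m := m) (M := M)] with x a1 a2 a3 a4
    rw [a2, a3, a4, a1]
  refine ⟨AEEqFun.mk _ (hmm k), ?_, ?_, ?_, ?_, ?_⟩
  · rw [nonneg_iff_ae]
    filter_upwards [hae, hb k] with x hx h2
    rw [hx]; exact h2.1
  · refine mem_of_le (mem_smul (k : ℝ) hF) ?_
    filter_upwards [hae, hb k, smul_ae F (k : ℝ)] with x hx h2 h3
    rw [hx, h3, abs_of_nonneg h2.1]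
    exact (min_le_left _ _).trans (le_abs_self _)
  · filter_upwards [hae, hb k] with x hx h2
    rw [hx]; exact h2.2
  · refine mem_of_le hF ?_
    filter_upwards [hae2, hb k, f0] with x hx h2 h3
    rw [hx, abs_mul, abs_of_nonneg h3,
      abs_of_nonneg (by linarith [h2.2] : 0 ≤ 1 - min ((k : ℝ) * F x) 1)]
    nlinarith [h2.1]
  · unfold I
    rw [integral_congr_ae hae2]
    exact hk.le

theorem I_abs_le_of {f g : M →ₘ[m] ℝ} (hg : MemLp g 1 m) (h : ∀ᵐ x ∂m, |f x| ≤ g x) :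
    |I f| ≤ I g := by
  unfold I
  rw [← Real.norm_eq_abs]
  exact norm_integral_le_of_norm_le (int_of_mem hg) (by simpa using h)

theorem I_dens_le {r F : M →ₘ[m] ℝ} {B : ℝ} (hr0 : 0 ≤ r) (hr : ∀ᵐ x ∂m, r x ≤ B) (hF0 : 0 ≤ F)
    (hF : MemLp F 1 m) : I (r * F) ≤ B * I F := by
  have rt : MemLp r ∞ m := mem_top_iff.2 ⟨B, by
    filter_upwards [hr, nonneg_iff_ae.1 hr0] with x b1 b2
    rwa [abs_of_nonneg b2]⟩
  rw [← I_smul]
  refine I_mono (mem_mul_top rt hF) (mem_smul _ hF) (le_iff_ae.2 ?_)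
  filter_upwards [mul_ae r F, smul_ae F B, hr, nonneg_iff_ae.1 hF0] with x a1 a2 a3 a4
  rw [a1, a2]
  exact mul_le_mul_of_nonneg_right a3 a4

theorem young_aux {X F y A μ lam : ℝ} (hF : 0 ≤ F) (hy : 0 ≤ y) (hA : 0 ≤ A) (hA1 : A ≤ 1)
    (hμ : 0 < μ) (hlam : 0 < lam) (hX : |X| ≤ √F * √y) :
    |X| ≤ μ * F + (4 * μ)⁻¹ * (A * y) + (4 * lam)⁻¹ * (F * (1 - A)) + lam * y := by
  have key : ∀ ν : ℝ, 0 < ν → √F * √y ≤ ν * F + (4 * ν)⁻¹ * y := by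
    intro ν hν
    have h1 : √F ^ 2 = F := Real.sq_sqrt hF
    have h2 : √y ^ 2 = y := Real.sq_sqrt hy
    have h3 : ν * F + (4 * ν)⁻¹ * y - √F * √y = ν * (√F - (2 * ν)⁻¹ * √y) ^ 2 := by
      have h4 : ν * (√F - (2 * ν)⁻¹ * √y) ^ 2
          = ν * √F ^ 2 - (ν * ν⁻¹) * √F * √y + (ν * ν⁻¹) * ν⁻¹ / 4 * √y ^ 2 := by
        rw [mul_inv]; ring
      rw [h4, mul_inv_cancel₀ hν.ne', h1, h2, mul_inv]; ring
    have h5 := mul_nonneg hν.le (sq_nonneg (√F - (2 * ν)⁻¹ * √y))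
    linarith
  have h1 := key μ hμ
  have h2 := key (4 * lam)⁻¹ (by positivity)
  have e2 : (4 * (4 * lam)⁻¹)⁻¹ = lam := by
    rw [mul_inv, inv_inv]; ring
  rw [e2] at h2
  have h3 : √F * √y = A * (√F * √y) + (1 - A) * (√F * √y) := by ring
  have h4 := mul_le_mul_of_nonneg_left h1 hA
  have h5 := mul_le_mul_of_nonneg_left h2 (by linarith : 0 ≤ 1 - A)
  have h6 : A * (μ * F) ≤ μ * F := by
    have : 0 ≤ μ * F := by positivity
    nlinarith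
  have h7 : (1 - A) * (lam * y) ≤ lam * y := by
    have : 0 ≤ lam * y := by positivity
    nlinarith
  nlinarith

variable {E : Type} [NormedAddCommGroup E] [InnerProductSpace ℝ E]

theorem Gr_sub (hD : IsDir C) {Gr : (M →ₘ[m] ℝ) → M → E} (hG : IsGrad C Gr)
    {f g : M →ₘ[m] ℝ} (hf : f ∈ C.W) (hg : g ∈ C.W) :
    ∀ᵐ x ∂m, Gr (f - g) x = Gr f x - Gr g x := by
  have h := hG.lin2 hD hf hg (hD.sub_mem hf hg) (a := fun _ => 1) (b := fun _ => -1) (by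
    intro k hk
    rw [hD.Γ_sub_left hf hg hk]
    filter_upwards [sub_ae (C.Γ f k) (C.Γ g k)] with x hx
    rw [hx]; ring)
  filter_upwards [h] with x hx
  rw [hx, one_smul, neg_one_smul, sub_eq_add_neg]

theorem op_sub_le {T : E →L[ℝ] E} {v w : E} {Λ : ℝ} (hT : ‖T‖ ≤ Λ) :
    |⟪T v, v⟫_ℝ - ⟪T w, w⟫_ℝ| ≤ Λ * ‖v - w‖ * (‖v‖ + ‖w‖) := by
  have h0 : 0 ≤ Λ := (norm_nonneg T).trans hT
  have e : ⟪T v, v⟫_ℝ - ⟪T w, w⟫_ℝ = ⟪T (v - w), v⟫_ℝ + ⟪T w, v - w⟫_ℝ := by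
    rw [map_sub, inner_sub_left, inner_sub_right]; ring
  rw [e]
  refine (abs_add_le _ _).trans ?_
  have h1 : |⟪T (v - w), v⟫_ℝ| ≤ Λ * ‖v - w‖ * ‖v‖ :=
    (abs_real_inner_le_norm _ _).trans (mul_le_mul_of_nonneg_right ((T.le_opNorm _).trans
      (mul_le_mul_of_nonneg_right hT (norm_nonneg _))) (norm_nonneg _))
  have h2 : |⟪T w, v - w⟫_ℝ| ≤ Λ * ‖w‖ * ‖v - w‖ :=
    (abs_real_inner_le_norm _ _).trans (mul_le_mul_of_nonneg_right ((T.le_opNorm _).trans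
      (mul_le_mul_of_nonneg_right hT (norm_nonneg _))) (norm_nonneg _))
  nlinarith

end gen

section metric

variable {M : Type u} [MetricSpace M] [SecondCountableTopology M] [MeasurableSpace M]
  [BorelSpace M] {m : Measure M} {K N : ℝ} {P : ℝ → (M →ₘ[m] ℝ) → (M →ₘ[m] ℝ)} {p : M} {s₀ C₀ : ℝ}
variable {u : ℕ → ℝ → M →ₘ[m] ℝ} {φ : (M →ₘ[m] ℝ) → ℕ → ℝ → M →ₘ[m] ℝ} {l : M →ₘ[m] ℝ}
variable {E : Type} [NormedAddCommGroup E] [InnerProductSpace ℝ E]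
  {Gr : (M →ₘ[m] ℝ) → M → E} {V : (M →ₘ[m] ℝ) → (M →ₘ[m] ℝ) → M → E}
  {D : (M →ₘ[m] ℝ) → (M →ₘ[m] ℝ)} {κ : ℝ}
  {HO : (M →ₘ[m] ℝ) → M → E →L[ℝ] E} {e : ℕ → M →ₘ[m] ℝ}

/-- gradient bound of `θ` -/
theorem tn_bd (hyp : CHyp M m K N P p s₀ C₀) (hA : OutA m K N P p s₀ C₀ u φ)
    (hl : l ∈ (sob m).TestI) : ∃ L : ℝ, 0 ≤ L ∧ (∀ᶠ n in atTop, ∀ t ∈ Icc (0 : ℝ) 1,
      tn u φ l n t ∈ (sob m).Test ∧ ∀ᵐ x ∂m, (sob m).Γ (tn u φ l n t) (tn u φ l n t) x ≤ L ^ 2) ∧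
      ∀ t ∈ Icc (0 : ℝ) 1, ∀ᵐ x ∂m, (sob m).Γ (zc m p s₀ C₀ t) (zc m p s₀ C₀ t) x ≤ L ^ 2 := by
  have hC := std_gamma hyp.std
  obtain ⟨L, hL0, hu, hz⟩ := z_bd hyp hA
  obtain ⟨L', hL'0, hφ⟩ := φ_bd hyp hA hl
  refine ⟨L + L', by positivity, ?_, fun t ht => ?_⟩
  · filter_upwards [hu, hφ, pair_of hA hl] with n h1 h2 hp t ht
    have uT := (hp.u_mem t ht).1
    have φT := (hp.φ_mem t ht).1
    have uW := (hC.test_A uT).1
    have φW := (hC.test_A φT).1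
    refine ⟨hC.test_smul (std_bei hyp.std) _ (hC.test_add (std_bei hyp.std) φT uT), ?_⟩
    have e1 : tn u φ l n t = (2 : ℝ)⁻¹ • φ l n t - (-(2 : ℝ)⁻¹) • u n t := by
      unfold tn th
      rw [smul_add, neg_smul, sub_neg_eq_add]
    have f1 := hC.smul_mem (2 : ℝ)⁻¹ _ φW
    have f2 := hC.smul_mem (-(2 : ℝ)⁻¹) _ uW
    have g1 : (sob m).Γ ((2 : ℝ)⁻¹ • φ l n t) ((2 : ℝ)⁻¹ • φ l n t)
        = (4 : ℝ)⁻¹ • (sob m).Γ (φ l n t) (φ l n t) := by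
      rw [hC.smul_left _ _ φW _ f1, hC.Γ_smul_right _ φW φW, smul_smul]; norm_num
    have g2 : (sob m).Γ ((-(2 : ℝ)⁻¹) • u n t) ((-(2 : ℝ)⁻¹) • u n t)
        = (4 : ℝ)⁻¹ • (sob m).Γ (u n t) (u n t) := by
      rw [hC.smul_left _ _ uW _ f2, hC.Γ_smul_right _ uW uW, smul_smul]; norm_num
    have hsub := hC.toIsDir.Γ_sub_le f1 f2
    rw [← e1, g1, g2] at hsub
    filter_upwards [hsub, smul_ae ((sob m).Γ (φ l n t) (φ l n t)) (4 : ℝ)⁻¹,
      smul_ae ((sob m).Γ (u n t) (u n t)) (4 : ℝ)⁻¹, h1 t ht, h2 t ht] with x b1 b2 b3 b4 b5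
    rw [b2, b3] at b1
    nlinarith [sq_nonneg L, sq_nonneg L', mul_nonneg hL0 hL'0]
  · filter_upwards [hz t ht] with x hx
    nlinarith [mul_nonneg hL0 hL'0, sq_nonneg L']

/-- `√F ∇(θ_n - z)` is small in `L¹(ρ_n)`, uniformly on `[s,1]`, for `F ∈ L¹`. -/
theorem tu6_pair (hyp : CHyp M m K N P p s₀ C₀) (hA : OutA m K N P p s₀ C₀ u φ)
    (hB : LevB m Gr V D κ u φ) (hl : l ∈ (sob m).TestI) {s : ℝ} (hs : s ∈ Ioo (0 : ℝ) 1)
    {F : M →ₘ[m] ℝ} (hF0 : 0 ≤ F) (hF1 : MemLp F 1 m) {δ : ℝ} (hδ : 0 < δ) :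
    ∀ᶠ n in atTop, ∀ t ∈ Icc s 1, ∀ X : M →ₘ[m] ℝ,
      (∀ᵐ x ∂m, |X x| ≤ √(F x) * √((sob m).Γ
        (tn u φ l n t - zc m p s₀ C₀ t) (tn u φ l n t - zc m p s₀ C₀ t) x)) →
      MemLp X 1 m ∧ |I (rn u φ l n t * X)| ≤ δ := by
  have hC := std_gamma hyp.std
  obtain ⟨B, hB0, hBd⟩ := dens_bd hyp hA hl hs.1
  obtain ⟨c1, hc10, hc1⟩ := energy_tn hyp hA hB hl hs
  obtain ⟨c2, hc20, hc2⟩ := energy_z hyp
  set Cc : ℝ := 2 * c1 + 2 * (B * c2) with hCc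
  have hCc0 : 0 ≤ Cc := by positivity
  have hIF : 0 ≤ I F := I_nonneg hF0
  set lam : ℝ := δ / (4 * (Cc + 1)) with hlam
  have hlam0 : 0 < lam := by positivity
  set μ : ℝ := δ / (4 * (B * I F + 1)) with hμ
  have hμ0 : 0 < μ := by positivity
  obtain ⟨A, hA0, hA1, hAle, hFA, hFAδ⟩ := exists_weight hF0 hF1 (δ := δ * lam / (B + 1))
    (by positivity)
  have h1 := tu6 hyp hA hB hl hs hA0 hA1 (δ := δ * μ) (by positivity)
  filter_upwards [h1, hBd, hc1, pair_of hA hl] with n a1 a2 a3 hp t ht X hX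
  have ht0 : t ∈ Icc (0 : ℝ) 1 := ⟨hs.1.le.trans ht.1, ht.2⟩
  have uW := (hC.test_A (hp.u_mem t ht0).1).1
  have φW := (hC.test_A (hp.φ_mem t ht0).1).1
  have zW := zc_W hA ht0
  have tW : tn u φ l n t ∈ (sob m).W := hC.smul_mem _ _ (hC.add_mem _ φW _ uW)
  have dW := hC.sub_mem tW zW
  have r0 : 0 ≤ rn u φ l n t := rh_nonneg
  have rB := a2 t ht
  have rt : MemLp (rn u φ l n t) ∞ m := mem_top_iff.2 ⟨B, by
    filter_upwards [rB, nonneg_iff_ae.1 r0] with x b1 b2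
    rwa [abs_of_nonneg b2]⟩
  have At : MemLp A ∞ m := mem_top_iff.2 ⟨1, by
    filter_upwards [hAle, nonneg_iff_ae.1 hA0] with x b1 b2
    rwa [abs_of_nonneg b2]⟩
  have Q0 := hC.nonneg _ dW
  have Q1 := hC.mem1 _ dW
  have h1A : 0 ≤ F * (1 - A) := by
    rw [nonneg_iff_ae]
    filter_upwards [mul_ae F (1 - A), sub_ae 1 A, one_ae (m := m) (M := M), hAle,
      nonneg_iff_ae.1 hF0] with x b1 b2 b3 b4 b5
    rw [b1, b2, b3]
    exact mul_nonneg b5 (by linarith)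
  have mX : MemLp X 1 m := by
    refine mem_of_le (mem_add hF1 Q1) ?_
    filter_upwards [hX, add_ae F ((sob m).Γ
        (tn u φ l n t - zc m p s₀ C₀ t) (tn u φ l n t - zc m p s₀ C₀ t)),
      nonneg_iff_ae.1 hF0, nonneg_iff_ae.1 Q0] with x b1 b2 b3 b4
    rw [b2, abs_of_nonneg (add_nonneg b3 b4)]
    refine b1.trans ?_
    have h5 := Real.sq_sqrt b3
    have h6 := Real.sq_sqrt b4
    nlinarith [sq_nonneg (√(F x) - √((sob m).Γ
        (tn u φ l n t - zc m p s₀ C₀ t) (tn u φ l n t - zc m p s₀ C₀ t) x)), sq_nonneg (√(F x)),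
      sq_nonneg (√((sob m).Γ
        (tn u φ l n t - zc m p s₀ C₀ t) (tn u φ l n t - zc m p s₀ C₀ t) x))]
  refine ⟨mX, ?_⟩
  set r := rn u φ l n t with hr
  set Q := (sob m).Γ (tn u φ l n t - zc m p s₀ C₀ t) (tn u φ l n t - zc m p s₀ C₀ t) with hQ
  have m1 : MemLp (r * F : M →ₘ[m] ℝ) 1 m := mem_mul_top rt hF1
  have m2 : MemLp (A * r * Q : M →ₘ[m] ℝ) 1 m := mem_mul_top (mem_mul_top At rt) Q1
  have m3 : MemLp (r * (F * (1 - A)) : M →ₘ[m] ℝ) 1 m := mem_mul_top rt hFA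
  have m4 : MemLp (r * Q : M →ₘ[m] ℝ) 1 m := mem_mul_top rt Q1
  have mG : MemLp (μ • (r * F) + (4 * μ)⁻¹ • (A * r * Q) + (4 * lam)⁻¹ • (r * (F * (1 - A)))
      + lam • (r * Q) : M →ₘ[m] ℝ) 1 m :=
    mem_add (mem_add (mem_add (mem_smul _ m1) (mem_smul _ m2)) (mem_smul _ m3)) (mem_smul _ m4)
  have key : |I (r * X)| ≤ I (μ • (r * F) + (4 * μ)⁻¹ • (A * r * Q)
      + (4 * lam)⁻¹ • (r * (F * (1 - A))) + lam • (r * Q)) := by
    refine I_abs_le_of mG ?_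
    filter_upwards [hX, mul_ae r X, add_ae (μ • (r * F) + (4 * μ)⁻¹ • (A * r * Q)
        + (4 * lam)⁻¹ • (r * (F * (1 - A)))) (lam • (r * Q)),
      add_ae (μ • (r * F) + (4 * μ)⁻¹ • (A * r * Q)) ((4 * lam)⁻¹ • (r * (F * (1 - A)))),
      add_ae (μ • (r * F)) ((4 * μ)⁻¹ • (A * r * Q)), smul_ae (r * F) μ,
      smul_ae (A * r * Q) (4 * μ)⁻¹, smul_ae (r * (F * (1 - A))) (4 * lam)⁻¹, smul_ae (r * Q) lam,
      mul_ae r F, mul_ae (A * r) Q, mul_ae A r, mul_ae r (F * (1 - A)), mul_ae F (1 - A),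
      sub_ae 1 A, one_ae (m := m) (M := M), mul_ae r Q, nonneg_iff_ae.1 r0, nonneg_iff_ae.1 hF0,
      nonneg_iff_ae.1 Q0, nonneg_iff_ae.1 hA0, hAle]
      with x b0 b1 b2 b3 b4 b5 b6 b7 b8 b9 b10 b11 b12 b13 b14 b15 b16 c0 c1' c2' c3 c4
    rw [b1, b2, b3, b4, b5, b6, b7, b8, b9, b10, b11, b12, b13, b14, b15, b16, abs_mul,
      abs_of_nonneg c0]
    have h7 := mul_le_mul_of_nonneg_left (young_aux c1' c2' c3 c4 hμ0 hlam0 b0) c0
    refine h7.trans (le_of_eq ?_)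
    ring
  refine key.trans ?_
  rw [I_add (mem_add (mem_add (mem_smul _ m1) (mem_smul _ m2)) (mem_smul _ m3)) (mem_smul _ m4),
    I_add (mem_add (mem_smul _ m1) (mem_smul _ m2)) (mem_smul _ m3),
    I_add (mem_smul _ m1) (mem_smul _ m2), I_smul, I_smul, I_smul, I_smul]
  have k1 : μ * I (r * F) ≤ δ / 4 := by
    have h8 := I_dens_le r0 rB hF0 hF1
    have hBF : 0 ≤ B * I F := mul_nonneg hB0 hIF
    calc μ * I (r * F) ≤ μ * (B * I F) := mul_le_mul_of_nonneg_left h8 hμ0.le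
      _ ≤ μ * (B * I F + 1) := mul_le_mul_of_nonneg_left (by linarith) hμ0.le
      _ = δ / 4 := by
          rw [hμ]
          have : B * I F + 1 ≠ 0 := by positivity
          field_simp
  have k2 : (4 * μ)⁻¹ * I (A * r * Q) ≤ δ / 4 := by
    have h8 := a1 t ht
    calc (4 * μ)⁻¹ * I (A * r * Q) ≤ (4 * μ)⁻¹ * (δ * μ) :=
          mul_le_mul_of_nonneg_left h8 (by positivity)
      _ = δ / 4 := by
          have : μ ≠ 0 := hμ0.ne'
          field_simp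
  have k3 : (4 * lam)⁻¹ * I (r * (F * (1 - A))) ≤ δ / 4 := by
    have h8 := I_dens_le r0 rB h1A hFA
    have h9 : B * I (F * (1 - A)) ≤ δ * lam := by
      calc B * I (F * (1 - A)) ≤ B * (δ * lam / (B + 1)) := mul_le_mul_of_nonneg_left hFAδ hB0
        _ ≤ (B + 1) * (δ * lam / (B + 1)) :=
            mul_le_mul_of_nonneg_right (by linarith) (by positivity)
        _ = δ * lam := by
            have : B + 1 ≠ 0 := by positivity
            field_simp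
    calc (4 * lam)⁻¹ * I (r * (F * (1 - A))) ≤ (4 * lam)⁻¹ * (δ * lam) :=
          mul_le_mul_of_nonneg_left (h8.trans h9) (by positivity)
      _ = δ / 4 := by
          have : lam ≠ 0 := hlam0.ne'
          field_simp
  have k4 : lam * I (r * Q) ≤ δ / 4 := by
    have zb := hc2 t ht0
    have tb := a3 t ht
    have z0 := hC.nonneg _ zW
    have z1 := hC.mem1 _ zW
    have t1 := hC.mem1 _ tW
    have mt : MemLp (r * (sob m).Γ (tn u φ l n t) (tn u φ l n t) : M →ₘ[m] ℝ) 1 m :=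
      mem_mul_top rt t1
    have mz : MemLp (r * (sob m).Γ (zc m p s₀ C₀ t) (zc m p s₀ C₀ t) : M →ₘ[m] ℝ) 1 m :=
      mem_mul_top rt z1
    have h8 : I (r * Q) ≤ 2 * I (r * (sob m).Γ (tn u φ l n t) (tn u φ l n t))
        + 2 * I (r * (sob m).Γ (zc m p s₀ C₀ t) (zc m p s₀ C₀ t)) := by
      rw [← I_smul, ← I_smul, ← I_add (mem_smul _ mt) (mem_smul _ mz)]
      refine I_mono m4 (mem_add (mem_smul _ mt) (mem_smul _ mz)) (le_iff_ae.2 ?_)
      filter_upwards [hC.toIsDir.Γ_sub_le tW zW, mul_ae r Q,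
        add_ae ((2 : ℝ) • (r * (sob m).Γ (tn u φ l n t) (tn u φ l n t)))
          ((2 : ℝ) • (r * (sob m).Γ (zc m p s₀ C₀ t) (zc m p s₀ C₀ t))),
        smul_ae (r * (sob m).Γ (tn u φ l n t) (tn u φ l n t)) (2 : ℝ),
        smul_ae (r * (sob m).Γ (zc m p s₀ C₀ t) (zc m p s₀ C₀ t)) (2 : ℝ),
        mul_ae r ((sob m).Γ (tn u φ l n t) (tn u φ l n t)),
        mul_ae r ((sob m).Γ (zc m p s₀ C₀ t) (zc m p s₀ C₀ t)), nonneg_iff_ae.1 r0]
        with x b1 b2 b3 b4 b5 b6 b7 b8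
      rw [b2, b3, b4, b5, b6, b7]
      nlinarith [mul_le_mul_of_nonneg_left b1 b8]
    have h9 : I (r * (sob m).Γ (zc m p s₀ C₀ t) (zc m p s₀ C₀ t)) ≤ B * c2 :=
      (I_dens_le r0 rB z0 z1).trans (mul_le_mul_of_nonneg_left zb hB0)
    have h10 : I (r * Q) ≤ Cc := by rw [hCc]; linarith
    calc lam * I (r * Q) ≤ lam * Cc := mul_le_mul_of_nonneg_left h10 hlam0.le
      _ ≤ lam * (Cc + 1) := mul_le_mul_of_nonneg_left (by linarith) hlam0.le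
      _ = δ / 4 := by
          rw [hlam]
          have : Cc + 1 ≠ 0 := by positivity
          field_simp
  linarith

end metric

end Vale.Agent.P233.H719
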