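import Vale.Agent.P233.H305.TwoTimeCE

/-! P233, part C: limits along a filter that are uniform in time (abstract part). Pointwise limits
along an ultrafilter do not pass under time integrals; equicontinuity makes them uniform. -/

set_option linter.all false

open MeasureTheory Filter Topology Set
open scoped ENNReal NNReal

universe u

namespace Vale.Agent.P233.H719

/-- pointwise convergence and equicontinuity give uniform convergence on a compact interval -/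
theorem unif_of_equi {ι : Type*} {U : Filter ι} [U.NeBot] {a b : ℝ} {F : ι → ℝ → ℝ} {G : ℝ → ℝ}
    (hlim : ∀ t ∈ Icc a b, Tendsto (fun n => F n t) U (𝓝 (G t)))
    (heq : ∀ t ∈ Icc a b, ∀ δ > 0, ∃ η > 0, ∀ᶠ n in U, ∀ r ∈ Icc a b, |r - t| < η →
      |F n r - F n t| ≤ δ) :
    ContinuousOn G (Icc a b) ∧ ∀ δ > 0, ∀ᶠ n in U, ∀ t ∈ Icc a b, |F n t - G t| ≤ δ := by
  have hG : ∀ t ∈ Icc a b, ∀ δ > 0, ∃ η > 0, ∀ r ∈ Icc a b, |r - t| < η → |G r - G t| ≤ δ := by
    intro t ht δ hδ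
    obtain ⟨η, hη, h⟩ := heq t ht δ hδ
    refine ⟨η, hη, fun r hr hrt => ?_⟩
    have h1 : Tendsto (fun n => |F n r - F n t|) U (𝓝 |G r - G t|) :=
      ((hlim r hr).sub (hlim t ht)).abs
    refine le_of_tendsto h1 ?_
    filter_upwards [h] with n hn using hn r hr hrt
  constructor
  · intro t ht
    rw [Metric.continuousWithinAt_iff]
    intro δ hδ
    obtain ⟨η, hη, h⟩ := hG t ht (δ / 2) (by positivity)
    refine ⟨η, hη, fun r hr hrt => ?_⟩
    rw [Real.dist_eq] at hrt ⊢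
    exact (h r hr hrt).trans_lt (by linarith)
  · intro δ hδ
    refine isCompact_Icc.induction_on (p := fun S => ∀ᶠ n in U, ∀ t ∈ S, t ∈ Icc a b →
      |F n t - G t| ≤ δ) ?_ ?_ ?_ ?_ |>.mono fun n hn t ht => hn t ht ht
    · exact Eventually.of_forall fun n t ht => absurd ht (notMem_empty t)
    · intro S T hST hT
      filter_upwards [hT] with n hn t ht using hn t (hST ht)
    · intro S T hS hT
      filter_upwards [hS, hT] with n h1 h2 t ht htI
      rcases ht with ht | ht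
      · exact h1 t ht htI
      · exact h2 t ht htI
    · intro t ht
      obtain ⟨η, hη, h⟩ := heq t ht (δ / 3) (by positivity)
      obtain ⟨η', hη', h'⟩ := hG t ht (δ / 3) (by positivity)
      refine ⟨Metric.ball t (min η η'), mem_nhdsWithin_of_mem_nhds
        (Metric.ball_mem_nhds t (lt_min hη hη')), ?_⟩
      have h3 := (Metric.tendsto_nhds.1 (hlim t ht)) (δ / 3) (by positivity)
      filter_upwards [h, h3] with n h1 h2 r hr hrI
      rw [Metric.mem_ball, Real.dist_eq] at hr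
      rw [Real.dist_eq] at h2
      have a1 := h1 r hrI (hr.trans_le (min_le_left _ _))
      have a2 := h' r hrI (hr.trans_le (min_le_right _ _))
      rw [abs_le] at a1 a2 ⊢
      rw [abs_lt] at h2
      constructor <;> linarith [a1.1, a1.2, a2.1, a2.2, h2.1, h2.2]

section L2

variable {M : Type u} [MeasurableSpace M] {m : Measure M}

/-- Uniform convergence of `I (b_t * r_n(t))` on `[s,T]`, from the pointwise convergence, a uniform
bound in `L²` and Lipschitz bounds of `I (h * r_n(t))` for `h` in a dense class. -/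
theorem unif_lim {ι : Type*} {U : Filter ι} [U.NeBot] {s T S : ℝ} (hS : 0 ≤ S)
    {r : ι → ℝ → M →ₘ[m] ℝ}
    (h2 : ∀ᶠ n in U, ∀ t ∈ Icc s T, MemLp (r n t) 2 m ∧ I (r n t ^ 2) ≤ S ^ 2)
    {Dn : Set (M →ₘ[m] ℝ)}
    (hD : ∀ b : M →ₘ[m] ℝ, MemLp b 2 m → ∀ δ > 0, ∃ h ∈ Dn, MemLp h 2 m ∧ I ((b - h) ^ 2) < δ)
    (hLip : ∀ h ∈ Dn, ∃ Λ : ℝ, ∀ᶠ n in U, ∀ x ∈ Icc s T, ∀ y ∈ Icc s T,
      |I (h * r n x) - I (h * r n y)| ≤ Λ * |x - y|)
    {b : ℝ → M →ₘ[m] ℝ} (hb : ∀ t ∈ Icc s T, MemLp (b t) 2 m)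
    (hbc : ∀ t ∈ Icc s T, Tendsto (fun τ => I ((b τ - b t) ^ 2)) (𝓝[Icc s T] t) (𝓝 0))
    {G : ℝ → ℝ} (hlim : ∀ t ∈ Icc s T, Tendsto (fun n => I (b t * r n t)) U (𝓝 (G t))) :
    ContinuousOn G (Icc s T) ∧ ∀ δ > 0, ∀ᶠ n in U, ∀ t ∈ Icc s T, |I (b t * r n t) - G t| ≤ δ := by
  refine unif_of_equi hlim fun t ht δ hδ => ?_
  -- the dense class
  set δ' : ℝ := (δ / (4 * (S + 1))) with hδ'
  have hδ0 : 0 < δ' := by positivity
  obtain ⟨h, hh, hh2, hbh⟩ := hD (b t) (hb t ht) (δ' ^ 2) (by positivity)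
  obtain ⟨Λ, hΛ⟩ := hLip h hh
  have h3 := (Metric.tendsto_nhdsWithin_nhds.1 (hbc t ht)) (δ' ^ 2) (by positivity)
  obtain ⟨η, hη, h3⟩ := h3
  refine ⟨min η (δ / (4 * (|Λ| + 1))), lt_min hη (by positivity), ?_⟩
  filter_upwards [h2, hΛ] with n a1 a2 τ hτ hτt
  have c1 : I ((b τ - b t) ^ 2) < δ' ^ 2 := by
    have := h3 hτ (by rw [Real.dist_eq]; exact hτt.trans_le (min_le_left _ _))
    rw [Real.dist_eq, sub_zero] at this
    exact (le_abs_self _).trans_lt this
  obtain ⟨r1, r1'⟩ := a1 τ hτ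
  obtain ⟨r2, r2'⟩ := a1 t ht
  have m1 := mem_sub (hb τ hτ) (hb t ht)
  have m2 := mem_sub (hb t ht) hh2
  have sq : ∀ {X Y : M →ₘ[m] ℝ}, MemLp X 2 m → MemLp Y 2 m → I (X ^ 2) < δ' ^ 2 →
      I (Y ^ 2) ≤ S ^ 2 → |I (X * Y)| ≤ δ' * S := by
    intro X Y hX hY h1 h2
    refine (I_abs_le hX hY).trans ?_
    have e1 : √(I (X ^ 2)) ≤ δ' := by
      rw [Real.sqrt_le_left hδ0.le]; exact h1.le
    have e2 : √(I (Y ^ 2)) ≤ S := by
      rw [Real.sqrt_le_left hS]; exact h2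
    exact mul_le_mul e1 e2 (Real.sqrt_nonneg _) hδ0.le
  have k1 := sq m1 r1 c1 r1'
  have k2 := sq m2 r1 hbh r1'
  have k3 := sq m2 r2 hbh r2'
  have k4 := a2 τ hτ t ht
  have e : I (b τ * r n τ) - I (b t * r n t) = I ((b τ - b t) * r n τ)
      + I ((b t - h) * r n τ) - I ((b t - h) * r n t) + (I (h * r n τ) - I (h * r n t)) := by
    rw [sub_mul, sub_mul, sub_mul, I_sub (mem_mul_22 (hb τ hτ) r1) (mem_mul_22 (hb t ht) r1),
      I_sub (mem_mul_22 (hb t ht) r1) (mem_mul_22 hh2 r1),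
      I_sub (mem_mul_22 (hb t ht) r2) (mem_mul_22 hh2 r2)]
    ring
  have k5 : |I (h * r n τ) - I (h * r n t)| ≤ δ / 4 := by
    refine k4.trans ?_
    have h5 : |τ - t| ≤ δ / (4 * (|Λ| + 1)) := (hτt.trans_le (min_le_right _ _)).le
    calc Λ * |τ - t| ≤ |Λ| * |τ - t| := mul_le_mul_of_nonneg_right (le_abs_self _) (abs_nonneg _)
      _ ≤ |Λ| * (δ / (4 * (|Λ| + 1))) := mul_le_mul_of_nonneg_left h5 (abs_nonneg _)
      _ ≤ (|Λ| + 1) * (δ / (4 * (|Λ| + 1))) :=
          mul_le_mul_of_nonneg_right (by linarith) (by positivity)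
      _ = δ / 4 := by
          have : |Λ| + 1 ≠ 0 := by positivity
          field_simp
  have k6 : δ' * S ≤ δ / 4 := by
    calc δ' * S ≤ δ' * (S + 1) := mul_le_mul_of_nonneg_left (by linarith) hδ0.le
      _ = δ / 4 := by
          rw [hδ']
          have : S + 1 ≠ 0 := by positivity
          field_simp
  rw [e]
  have t1 := abs_add_le (I ((b τ - b t) * r n τ) + I ((b t - h) * r n τ) - I ((b t - h) * r n t))
    (I (h * r n τ) - I (h * r n t))
  have t2 := abs_sub (I ((b τ - b t) * r n τ) + I ((b t - h) * r n τ)) (I ((b t - h) * r n t))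
  have t3 := abs_add_le (I ((b τ - b t) * r n τ)) (I ((b t - h) * r n τ))
  linarith

/-- uniform convergence passes under the time integral -/
theorem tendsto_int_of_unif {ι : Type*} {U : Filter ι} {a c : ℝ} (hac : a ≤ c)
    {F : ι → ℝ → ℝ} {G : ℝ → ℝ} (hF : ∀ᶠ n in U, IntervalIntegrable (F n) volume a c)
    (hG : IntervalIntegrable G volume a c)
    (h : ∀ δ > 0, ∀ᶠ n in U, ∀ t ∈ Icc a c, |F n t - G t| ≤ δ) :
    Tendsto (fun n => ∫ t in a..c, F n t) U (𝓝 (∫ t in a..c, G t)) := by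
  rw [Metric.tendsto_nhds]
  intro δ hδ
  filter_upwards [hF, h (δ / (2 * (c - a + 1))) (by have := sub_nonneg.2 hac; positivity)]
    with n h1 h2
  rw [Real.dist_eq, ← intervalIntegral.integral_sub h1 hG]
  have h3 : |∫ t in a..c, (F n t - G t)| ≤ δ / (2 * (c - a + 1)) * |c - a| := by
    rw [← Real.norm_eq_abs]
    refine intervalIntegral.norm_integral_le_of_norm_le_const fun t ht => ?_
    rw [uIoc_of_le hac] at ht
    exact h2 t ⟨ht.1.le, ht.2⟩
  refine h3.trans_lt ?_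
  have hca : 0 ≤ c - a := sub_nonneg.2 hac
  rw [abs_of_nonneg hca, div_mul_eq_mul_div, div_lt_iff₀ (by positivity)]
  nlinarith

end L2

end Vale.Agent.P233.H719
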